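import Vale.Agent.P298.H462.Loc

/-!
The arcs parametrize the whole curve inside the sphere, without repetition.
-/

namespace Vale.Agent.P298.H462

open Filter Topology Metric Set

theorem local_cover_fixed {f e : V → ℂ} {g : ℂ → V} {s₀ : ℂ}
    (hf : AnalyticAt ℂ f (g s₀)) (he : AnalyticAt ℂ e (g s₀)) (hxi : xi f e (g s₀) ≠ 0)
    (hg : AnalyticAt ℂ g s₀) (hgf : ∀ᶠ s in 𝓝 s₀, f (g s) = 0) (hge : ∀ᶠ s in 𝓝 s₀, e (g s) = 0)
    (hd : deriv g s₀ ≠ 0) :
    (∀ U ∈ 𝓝 s₀, ∀ᶠ x in 𝓝 (g s₀), f x = 0 → e x = 0 → ∃ s ∈ U, x = g s) ∧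
    ∃ U ∈ 𝓝 s₀, InjOn g U := by
  have hfa : AnalyticAt ℂ (fun p : V × ℂ => f p.1) (g s₀, (0 : ℂ)) :=
    AnalyticAt.comp' (g := f) (f := fun p : V × ℂ => p.1) hf analyticAt_fst
  have hea : AnalyticAt ℂ (fun p : V × ℂ => e p.1) (g s₀, (0 : ℂ)) :=
    AnalyticAt.comp' (g := e) (f := fun p : V × ℂ => p.1) he analyticAt_fst
  have hga : AnalyticAt ℂ (fun q : ℂ × ℂ => g q.1) (s₀, (0 : ℂ)) :=
    AnalyticAt.comp' (g := g) (f := fun p : ℂ × ℂ => p.1) hg analyticAt_fst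
  have hfst : Tendsto (fun q : ℂ × ℂ => q.1) (𝓝 (s₀, (0 : ℂ))) (𝓝 s₀) :=
    continuousAt_fst.tendsto
  obtain ⟨h1, U, hU, hUi⟩ := local_cover (F := fun x _ => f x) (E := fun x _ => e x)
    (G := fun s _ => g s) (x₀ := g s₀) (t₀ := 0) (s₀ := s₀) hfa hea hxi hga rfl
    (hfst.eventually hgf) (hfst.eventually hge) hd
  constructor
  · intro U hU
    have h2 := h1 U hU
    have h3 : Tendsto (fun x : V => (x, (0 : ℂ))) (𝓝 (g s₀)) (𝓝 (g s₀, (0 : ℂ))) := by
      have : Continuous fun x : V => (x, (0 : ℂ)) := by fun_prop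
      exact this.tendsto _
    exact h3.eventually h2
  · have h3 : Tendsto (fun s : ℂ => (s, (0 : ℂ))) (𝓝 s₀) (𝓝 (s₀, (0 : ℂ))) := by
      have : Continuous fun s : ℂ => (s, (0 : ℂ)) := by fun_prop
      exact this.tendsto _
    refine ⟨_, h3 hU, fun s hs s' hs' hss => ?_⟩
    have h4 : (g s, (0 : ℂ)) = (g s', (0 : ℂ)) := by rw [hss]
    exact congrArg Prod.fst (hUi hs hs' h4)

/-- The arcs parametrize the curve inside the sphere. -/
theorem biject {f e : V → ℂ} {ρ₀ ρ : ℝ} (hρ : 0 < ρ) (hρρ₀ : ρ < ρ₀)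
    (hf : ∀ x ∈ ball (0 : V) ρ₀, AnalyticAt ℂ f x)
    (he : ∀ x ∈ ball (0 : V) ρ₀, AnalyticAt ℂ e x)
    (hxi : ∀ x ∈ ball (0 : V) ρ₀, f x = 0 → e x = 0 → x ≠ 0 → xi f e x ≠ 0)
    {k : ℕ} {g : Fin k → ℂ → V} {a s₂ : ℝ} (has : a < s₂)
    (hg : ∀ i, DifferentiableOn ℂ (g i) (ball 0 s₂)) (hg0 : ∀ i, g i 0 = 0)
    (hgm : ∀ i, ∀ s ∈ ball (0 : ℂ) s₂, g i s ∈ ball (0 : V) ρ₀ ∧ f (g i s) = 0 ∧ e (g i s) = 0 ∧
      (s ≠ 0 → g i s ≠ 0 ∧ deriv (g i) s ≠ 0))
    (hout : ∀ i, ∀ s : ℂ, ‖s‖ = a → ρ ^ 2 < nsq (g i s))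
    (hbex : ∀ x, nsq x = ρ ^ 2 → f x = 0 → e x = 0 → ∃ i, ∃ s : ℂ, ‖s‖ < a ∧ g i s = x)
    (hbun : ∀ i j, ∀ s s' : ℂ, ‖s‖ < a → ‖s'‖ < a → g i s = g j s' → nsq (g i s) = ρ ^ 2 →
      i = j ∧ s = s') :
    (∀ x, nsq x ≤ ρ ^ 2 → f x = 0 → e x = 0 → x ≠ 0 → ∃ i, ∃ s : ℂ, ‖s‖ < a ∧ g i s = x) ∧
    ∀ i j, ∀ s s' : ℂ, ‖s‖ < a → ‖s'‖ < a → g i s = g j s' → nsq (g i s) ≤ ρ ^ 2 → g i s ≠ 0 →
      i = j ∧ s = s' := by
  have hsub : ∀ x : V, nsq x ≤ ρ ^ 2 → x ∈ ball (0 : V) ρ₀ := by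
    intro x hx
    rw [mem_ball, dist_zero_right]
    exact lt_of_le_of_lt (norm_le_of_nsq_le hρ.le hx) hρρ₀
  have hmb : ∀ s : ℂ, ‖s‖ ≤ a → s ∈ ball (0 : ℂ) s₂ := by
    intro s hs
    rw [mem_ball, dist_zero_right]
    linarith
  have hne0 : ∀ i, ∀ s : ℂ, g i s ≠ 0 → s ≠ 0 := by
    intro i s h h0
    exact h (by rw [h0, hg0])
  have hloc : ∀ i, ∀ s : ℂ, ‖s‖ ≤ a → s ≠ 0 →
      (∀ U ∈ 𝓝 s, ∀ᶠ x in 𝓝 (g i s), f x = 0 → e x = 0 → ∃ s' ∈ U, x = g i s') ∧
      ∃ U ∈ 𝓝 s, InjOn (g i) U := by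
    intro i s hs hs0
    have hs2 := hmb s hs
    obtain ⟨h1, h2, h3, h4⟩ := hgm i s hs2
    refine local_cover_fixed (hf _ h1) (he _ h1) (hxi _ h1 h2 h3 (h4 hs0).1)
      ((hg i).analyticAt (isOpen_ball.mem_nhds hs2)) ?_ ?_ (h4 hs0).2
    · filter_upwards [isOpen_ball.mem_nhds hs2] with z hz using (hgm i z hz).2.1
    · filter_upwards [isOpen_ball.mem_nhds hs2] with z hz using (hgm i z hz).2.2.1
  have hgc : ∀ i, ContinuousOn (g i) (closedBall (0 : ℂ) a) := fun i =>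
    (hg i).continuousOn.mono (closedBall_subset_ball has)
  have hcomp : IsCompact {x : V | nsq x ≤ ρ ^ 2} := isCompact_nsq_le _
  constructor
  · intro x₁ hx₁ hfx₁ hex₁ hx₁0
    by_contra hcon
    push Not at hcon
    set K : Set V := {x : V | nsq x₁ ≤ nsq x ∧ nsq x ≤ ρ ^ 2 ∧ f x = 0 ∧ e x = 0 ∧
      ∀ i, ∀ s : ℂ, ‖s‖ < a → g i s ≠ x} with hK
    have hx₁K : x₁ ∈ K := ⟨le_rfl, hx₁, hfx₁, hex₁, hcon⟩
    have hpos : 0 < nsq x₁ := nsq_pos hx₁0
    have hKcl : IsClosed K := by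
      refine isClosed_of_closure_subset fun x hx => ?_
      have hfr := mem_closure_iff_frequently.1 hx
      have h1 : nsq x₁ ≤ nsq x := by
        by_contra h
        push Not at h
        obtain ⟨z, hz1, hz2⟩ := (hfr.and_eventually
          (continuous_nsq.continuousAt.eventually_lt_const h)).exists
        exact absurd hz1.1 (not_le.2 hz2)
      have h2 : nsq x ≤ ρ ^ 2 := by
        by_contra h
        push Not at h
        obtain ⟨z, hz1, hz2⟩ := (hfr.and_eventually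
          (continuous_nsq.continuousAt.eventually_const_lt h)).exists
        exact absurd hz1.2.1 (not_le.2 hz2)
      have h3 : f x = 0 := by
        by_contra h
        obtain ⟨z, hz1, hz2⟩ := (hfr.and_eventually
          ((hf x (hsub x h2)).continuousAt.eventually_ne h)).exists
        exact hz2 hz1.2.2.1
      have h4 : e x = 0 := by
        by_contra h
        obtain ⟨z, hz1, hz2⟩ := (hfr.and_eventually
          ((he x (hsub x h2)).continuousAt.eventually_ne h)).exists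
        exact hz2 hz1.2.2.2.1
      refine ⟨h1, h2, h3, h4, fun i s hs hgx => ?_⟩
      have hx0 : g i s ≠ 0 := by
        rw [hgx]
        rintro rfl
        rw [nsq_zero] at h1
        linarith
      have h5 := (hloc i s hs.le (hne0 i s hx0)).1 (ball 0 a) (isOpen_ball.mem_nhds (by
        rw [mem_ball, dist_zero_right]
        exact hs))
      rw [hgx] at h5
      obtain ⟨z, hz1, hz2⟩ := (hfr.and_eventually h5).exists
      obtain ⟨s', hs', hs''⟩ := hz2 hz1.2.2.1 hz1.2.2.2.1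
      rw [mem_ball, dist_zero_right] at hs'
      exact hz1.2.2.2.2 i s' hs' hs''.symm
    have hKc : IsCompact K := hcomp.of_isClosed_subset hKcl fun x hx => hx.2.1
    obtain ⟨x, hxK, hmax⟩ := hKc.exists_isMaxOn ⟨x₁, hx₁K⟩ continuous_nsq.continuousOn
    have hx0 : x ≠ 0 := by
      rintro rfl
      have := hxK.1
      rw [nsq_zero] at this
      linarith
    have hxlt : nsq x < ρ ^ 2 := by
      rcases hxK.2.1.lt_or_eq with h | h
      · exact h
      · obtain ⟨i, s, hs, hsx⟩ := hbex x h hxK.2.2.1 hxK.2.2.2.1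
        exact absurd hsx (hxK.2.2.2.2 i s hs)
    set Im : Set V := ⋃ i, g i '' closedBall (0 : ℂ) a with hIm
    have hImc : IsClosed Im := by
      refine (isCompact_iUnion fun i => ?_).isClosed
      exact (isCompact_closedBall 0 a).image_of_continuousOn (hgc i)
    have hxIm : x ∉ Im := by
      rw [hIm, mem_iUnion]
      rintro ⟨i, s, hs, hsx⟩
      rw [mem_closedBall, dist_zero_right] at hs
      rcases hs.lt_or_eq with h | h
      · exact hxK.2.2.2.2 i s h hsx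
      · have := hout i s h
        rw [hsx] at this
        linarith
    have hfr := nomax (hsub x hxK.2.1) hf he hxK.2.2.1 hxK.2.2.2.1
      (hxi x (hsub x hxK.2.1) hxK.2.2.1 hxK.2.2.2.1 hx0)
    obtain ⟨z, ⟨hz1, hz2, hz3⟩, hz4, hz5⟩ := (hfr.and_eventually
      ((hImc.isOpen_compl.eventually_mem hxIm).and
        (continuous_nsq.continuousAt.eventually_lt_const hxlt))).exists
    have hzK : z ∈ K := by
      refine ⟨hxK.1.trans hz3.le, hz5.le, hz1, hz2, fun i s hs hsz => hz4 ?_⟩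
      rw [hIm, mem_iUnion]
      exact ⟨i, s, by rw [mem_closedBall, dist_zero_right]; exact hs.le, hsz⟩
    exact absurd (hmax hzK) (not_le.2 hz3)
  · intro i j s s' hs hs' hss hnsq hne
    by_contra hcon
    have hcon' : i ≠ j ∨ s ≠ s' := by
      by_contra h
      push Not at h
      exact hcon h
    set x₁ := g i s with hx₁
    have hpos : 0 < nsq x₁ := nsq_pos hne
    set T : Set (ℂ × ℂ) := {q : ℂ × ℂ | ‖q.1‖ ≤ a ∧ ‖q.2‖ ≤ a ∧ g i q.1 = g j q.2 ∧
      nsq x₁ ≤ nsq (g i q.1) ∧ nsq (g i q.1) ≤ ρ ^ 2 ∧ (i ≠ j ∨ q.1 ≠ q.2)} with hT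
    have hsT : (s, s') ∈ T := ⟨hs.le, hs'.le, hss, le_rfl, hnsq, hcon'⟩
    have hgci : ∀ i, ∀ q : ℂ, ‖q‖ ≤ a → ContinuousAt (g i) q := fun i q hq =>
      ((hg i).differentiableAt (isOpen_ball.mem_nhds (hmb q hq))).continuousAt
    have hTcl : IsClosed T := by
      refine isClosed_of_closure_subset fun q hq => ?_
      have hfr := mem_closure_iff_frequently.1 hq
      have hc1 : ContinuousAt (fun q : ℂ × ℂ => ‖q.1‖) q := by fun_prop
      have hc2 : ContinuousAt (fun q : ℂ × ℂ => ‖q.2‖) q := by fun_prop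
      have h1 : ‖q.1‖ ≤ a := by
        by_contra h
        push Not at h
        obtain ⟨z, hz1, hz2⟩ := (hfr.and_eventually (hc1.eventually_const_lt h)).exists
        exact absurd hz1.1 (not_le.2 hz2)
      have h2 : ‖q.2‖ ≤ a := by
        by_contra h
        push Not at h
        obtain ⟨z, hz1, hz2⟩ := (hfr.and_eventually (hc2.eventually_const_lt h)).exists
        exact absurd hz1.2.1 (not_le.2 hz2)
      have hc3 : ContinuousAt (fun q : ℂ × ℂ => g i q.1) q :=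
        ContinuousAt.comp' (f := fun q : ℂ × ℂ => q.1) (g := g i) (hgci i q.1 h1) continuousAt_fst
      have hc4 : ContinuousAt (fun q : ℂ × ℂ => g j q.2) q :=
        ContinuousAt.comp' (f := fun q : ℂ × ℂ => q.2) (g := g j) (hgci j q.2 h2) continuousAt_snd
      have hc5 : ContinuousAt (fun q : ℂ × ℂ => nsq (g i q.1)) q :=
        continuous_nsq.continuousAt.comp' hc3
      have h3 : g i q.1 = g j q.2 := by
        by_contra h
        obtain ⟨z, hz1, hz2⟩ := (hfr.and_eventually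
          ((hc3.sub hc4).eventually_ne (sub_ne_zero.2 h))).exists
        exact hz2 (sub_eq_zero.2 hz1.2.2.1)
      have h4 : nsq x₁ ≤ nsq (g i q.1) := by
        by_contra h
        push Not at h
        obtain ⟨z, hz1, hz2⟩ := (hfr.and_eventually (hc5.eventually_lt_const h)).exists
        exact absurd hz1.2.2.2.1 (not_le.2 hz2)
      have h5 : nsq (g i q.1) ≤ ρ ^ 2 := by
        by_contra h
        push Not at h
        obtain ⟨z, hz1, hz2⟩ := (hfr.and_eventually (hc5.eventually_const_lt h)).exists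
        exact absurd hz1.2.2.2.2.1 (not_le.2 hz2)
      refine ⟨h1, h2, h3, h4, h5, ?_⟩
      by_contra h
      push Not at h
      obtain ⟨hij, hqq⟩ := h
      subst hij
      have hq0 : q.1 ≠ 0 := hne0 i q.1 fun h0 => by
        rw [h0, nsq_zero] at h4
        linarith
      obtain ⟨U, hU, hUi⟩ := (hloc i q.1 h1 hq0).2
      have h6 : ∀ᶠ z : ℂ × ℂ in 𝓝 q, z.1 ∈ U ∧ z.2 ∈ U := by
        have h7 : ∀ᶠ z : ℂ × ℂ in 𝓝 q, z.1 ∈ U := continuousAt_fst.tendsto.eventually hU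
        have h8 : ∀ᶠ z : ℂ × ℂ in 𝓝 q, z.2 ∈ U := by
          rw [hqq] at hU
          exact continuousAt_snd.tendsto.eventually hU
        exact h7.and h8
      obtain ⟨z, hz1, hz2⟩ := (hfr.and_eventually h6).exists
      rcases hz1.2.2.2.2.2 with h9 | h9
      · exact h9 rfl
      · exact h9 (hUi hz2.1 hz2.2 hz1.2.2.1)
    have hTc : IsCompact T := by
      refine ((isCompact_closedBall (0 : ℂ) a).prod (isCompact_closedBall (0 : ℂ) a)).of_isClosed_subset
        hTcl fun q hq => ⟨?_, ?_⟩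
      · rw [mem_closedBall, dist_zero_right]
        exact hq.1
      · rw [mem_closedBall, dist_zero_right]
        exact hq.2.1
    have hcT : ContinuousOn (fun q : ℂ × ℂ => nsq (g i q.1)) T := by
      intro q hq
      exact (continuous_nsq.continuousAt.comp' (ContinuousAt.comp' (f := fun q : ℂ × ℂ => q.1)
        (g := g i) (hgci i q.1 hq.1) continuousAt_fst)).continuousWithinAt
    obtain ⟨q, hqT, hmax⟩ := hTc.exists_isMaxOn ⟨_, hsT⟩ hcT
    obtain ⟨h1, h2, h3, h4, h5, h6⟩ := hqT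
    have h1' : ‖q.1‖ < a := by
      rcases h1.lt_or_eq with h | h
      · exact h
      · have := hout i q.1 h
        linarith
    have h2' : ‖q.2‖ < a := by
      rcases h2.lt_or_eq with h | h
      · exact h
      · have := hout j q.2 h
        rw [← h3] at this
        linarith
    have h5' : nsq (g i q.1) < ρ ^ 2 := by
      rcases h5.lt_or_eq with h | h
      · exact h
      · have := hbun i j q.1 q.2 h1' h2' h3 h
        rcases h6 with h7 | h7
        · exact absurd this.1 h7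
        · exact absurd this.2 h7
    have hx0 : g i q.1 ≠ 0 := fun h0 => by
      rw [h0, nsq_zero] at h4
      linarith
    have hq1 : q.1 ≠ 0 := hne0 i q.1 hx0
    have hq2 : q.2 ≠ 0 := hne0 j q.2 (by rw [← h3]; exact hx0)
    -- disjoint neighbourhoods
    obtain ⟨U, hU, W, hW, hUW⟩ : ∃ U ∈ 𝓝 q.1, ∃ W ∈ 𝓝 q.2, ∀ z ∈ U, ∀ w ∈ W,
        ‖z‖ ≤ a ∧ ‖w‖ ≤ a ∧ (i ≠ j ∨ z ≠ w) := by
      have hb1 : ball (0 : ℂ) a ∈ 𝓝 q.1 := isOpen_ball.mem_nhds (by
        rw [mem_ball, dist_zero_right]; exact h1')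
      have hb2 : ball (0 : ℂ) a ∈ 𝓝 q.2 := isOpen_ball.mem_nhds (by
        rw [mem_ball, dist_zero_right]; exact h2')
      rcases h6 with h7 | h7
      · refine ⟨_, hb1, _, hb2, fun z hz w hw => ?_⟩
        rw [mem_ball, dist_zero_right] at hz hw
        exact ⟨hz.le, hw.le, Or.inl h7⟩
      · obtain ⟨A, B, hA, hB, hqA, hqB, hAB⟩ := t2_separation h7
        refine ⟨_, inter_mem hb1 (hA.mem_nhds hqA), _, inter_mem hb2 (hB.mem_nhds hqB),
          fun z hz w hw => ?_⟩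
        have hz1 := hz.1
        have hw1 := hw.1
        rw [mem_ball, dist_zero_right] at hz1 hw1
        refine ⟨hz1.le, hw1.le, Or.inr ?_⟩
        rintro rfl
        exact (disjoint_left.1 hAB) hz.2 hw.2
    obtain ⟨g1, g2, g3, -⟩ := hgm i q.1 (hmb _ h1)
    have hfr := nomax g1 hf he g2 g3 (hxi _ g1 g2 g3 hx0)
    have hl1 := (hloc i q.1 h1 hq1).1 U hU
    have hl2 := (hloc j q.2 h2 hq2).1 W hW
    rw [← h3] at hl2
    obtain ⟨z, ⟨hz1, hz2, hz3⟩, hz4, hz5, hz6⟩ := (hfr.and_eventually (hl1.and (hl2.and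
      (continuous_nsq.continuousAt.eventually_lt_const h5')))).exists
    obtain ⟨σ, hσU, hσ⟩ := hz4 hz1 hz2
    obtain ⟨τ, hτW, hτ⟩ := hz5 hz1 hz2
    obtain ⟨hb1, hb2, hb3⟩ := hUW σ hσU τ hτW
    have hmem : (σ, τ) ∈ T := by
      refine ⟨hb1, hb2, by rw [← hσ, ← hτ], ?_, ?_, hb3⟩
      · simp only
        rw [← hσ]
        exact h4.trans hz3.le
      · simp only
        rw [← hσ]
        exact hz6.le
    have h8 : nsq (g i σ) ≤ nsq (g i q.1) := hmax hmem
    rw [← hσ] at h8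
    linarith

end Vale.Agent.P298.H462
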