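import Vale.Agent.P298.H462.Defs

/-!
Basic facts on the Hamiltonian field of a pair of functions.
-/

namespace Vale.Agent.P298.H462

open Filter Topology Metric Set

theorem fderiv_apply_sum (f : V → ℂ) (x v : V) : fderiv ℂ f x v = ∑ i, pd i f x * v i := by
  have hv : v = ∑ i, v i • (Pi.single i (1 : ℂ) : V) := by
    funext j
    simp [Finset.sum_apply, Pi.single_apply]
  conv_lhs => rw [hv]
  rw [map_sum]
  refine Finset.sum_congr rfl fun i _ => ?_
  rw [map_smul, smul_eq_mul, mul_comm]
  rfl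

theorem fderiv_xi_left (f e : V → ℂ) (x : V) : fderiv ℂ f x (xi f e x) = 0 := by
  rw [fderiv_apply_sum, Fin.sum_univ_three]
  simp [xi, minor2]
  ring

theorem fderiv_xi_right (f e : V → ℂ) (x : V) : fderiv ℂ e x (xi f e x) = 0 := by
  rw [fderiv_apply_sum, Fin.sum_univ_three]
  simp [xi, minor2]
  ring

/-- The common kernel of the two differentials is spanned by the Hamiltonian field. -/
theorem ker_parallel {f e : V → ℂ} {x v : V} (h1 : fderiv ℂ f x v = 0) (h2 : fderiv ℂ e x v = 0)
    (i k : Fin 3) : xi f e x i * v k = xi f e x k * v i := by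
  rw [fderiv_apply_sum, Fin.sum_univ_three] at h1 h2
  fin_cases i <;> fin_cases k <;> simp [xi, minor2] <;>
    first
    | ring1
    | linear_combination (pd 0 e x) * h1 - (pd 0 f x) * h2
    | linear_combination -(pd 0 e x) * h1 + (pd 0 f x) * h2
    | linear_combination (pd 1 e x) * h1 - (pd 1 f x) * h2
    | linear_combination -(pd 1 e x) * h1 + (pd 1 f x) * h2
    | linear_combination (pd 2 e x) * h1 - (pd 2 f x) * h2
    | linear_combination -(pd 2 e x) * h1 + (pd 2 f x) * h2

theorem analyticAt_pd {f : V → ℂ} {x : V} (hf : AnalyticAt ℂ f x) (i : Fin 3) :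
    AnalyticAt ℂ (pd i f) x := by
  unfold pd
  exact (ContinuousLinearMap.apply ℂ ℂ (Pi.single i (1 : ℂ) : V)).analyticAt _ |>.comp hf.fderiv

theorem analyticAt_minor2 {f e : V → ℂ} {x : V} (hf : AnalyticAt ℂ f x) (he : AnalyticAt ℂ e x)
    (i j : Fin 3) : AnalyticAt ℂ (minor2 i j f e) x := by
  unfold minor2
  exact ((analyticAt_pd hf i).mul (analyticAt_pd he j)).sub
    ((analyticAt_pd hf j).mul (analyticAt_pd he i))

theorem analyticAt_xi {f e : V → ℂ} {x : V} (hf : AnalyticAt ℂ f x) (he : AnalyticAt ℂ e x) :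
    AnalyticAt ℂ (xi f e) x := by
  rw [analyticAt_pi_iff]
  intro i
  fin_cases i
  · exact analyticAt_minor2 hf he 1 2
  · exact (analyticAt_minor2 hf he 0 2).neg
  · exact analyticAt_minor2 hf he 0 1

end Vale.Agent.P298.H462
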