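import Vale.Agent.P298.H462.HP
import Vale.Agent.P298.H462.Xi

/-!
The half plane property of the curves: every point of the curve on the sphere is the foot of a
half plane of the translation structure.
-/

namespace Vale.Agent.P298.H462

open Filter Topology Metric Set

/-- Derivative of the squared norm along a real path. -/
theorem hasDerivAt_nsq {x : ℝ → V} {x' : V} {t : ℝ} (h : HasDerivAt x x' t) :
    HasDerivAt (fun t => nsq (x t)) (2 * (∑ k, x' k * (starRingEnd ℂ) (x t k)).re) t := by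
  have h1 : ∀ k, HasDerivAt (fun t => ‖x t k‖ ^ 2) (2 * (x' k * (starRingEnd ℂ) (x t k)).re) t := by
    intro k
    have h2 : HasDerivAt (fun t => x t k) (x' k) t := (hasDerivAt_pi.1 h) k
    have h3 := h2.norm_sq
    have h4 : inner ℝ (x t k) (x' k) = (x' k * (starRingEnd ℂ) (x t k)).re := by
      rw [Complex.inner, mul_comm]
    rw [h4] at h3
    exact h3
  have h5 := HasDerivAt.fun_sum (u := Finset.univ) fun k _ => h1 k
  rw [Complex.re_sum, Finset.mul_sum]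
  exact h5

/-- Touching from the inside of the sphere. -/
theorem touch {f e : V → ℂ} {ω : ℂ} {ψ : ℂ → V} {w₀ : ℂ} {ε ρ : ℝ} (hε : 0 < ε)
    (hψ : HasDerivAt ψ (ω • xi f e (ψ w₀)) w₀) (h0 : nsq (ψ w₀) = ρ ^ 2)
    (hlt : ∀ w ∈ ball w₀ ε, w₀.im < w.im → nsq (ψ w) < ρ ^ 2)
    (hne : lam f e (ψ w₀) ≠ 0) (hω : ω ≠ 0) :
    ∃ y : ℝ, 0 < y ∧ ω * lam f e (ψ w₀) = y * Complex.I := by
  set Λ := ω * lam f e (ψ w₀) with hΛ
  have key : ∀ ζ : ℂ, 0 < ζ.im → (ζ * Λ).re ≤ 0 := by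
    intro ζ hζ
    have hl : HasDerivAt (fun t : ℝ => w₀ + (t : ℂ) * ζ) ζ 0 := by
      have h2 : HasDerivAt (fun t : ℝ => (t : ℂ)) 1 0 := Complex.ofRealCLM.hasDerivAt
      have := (h2.mul_const ζ).const_add w₀
      simpa using this
    have h3 : HasDerivAt (fun t : ℝ => ψ (w₀ + (t : ℂ) * ζ)) (ζ • (ω • xi f e (ψ w₀))) 0 := by
      have h4 : HasDerivAt ψ (ω • xi f e (ψ w₀)) (w₀ + ((0 : ℝ) : ℂ) * ζ) := by simpa using hψ
      exact h4.scomp (0 : ℝ) hl
    have h5 := hasDerivAt_nsq h3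
    have h6 : (∑ k, (ζ • (ω • xi f e (ψ w₀))) k *
        (starRingEnd ℂ) (ψ (w₀ + ((0 : ℝ) : ℂ) * ζ) k)) = ζ * Λ := by
      rw [hΛ, lam, Finset.mul_sum, Finset.mul_sum]
      refine Finset.sum_congr rfl fun k _ => ?_
      simp
      ring
    rw [h6] at h5
    -- the one-sided slope is nonpositive
    have h7 : Tendsto (slope (fun t : ℝ => nsq (ψ (w₀ + (t : ℂ) * ζ))) 0) (𝓝[>] 0)
        (𝓝 (2 * (ζ * Λ).re)) :=
      (hasDerivAt_iff_tendsto_slope.1 h5).mono_left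
        (nhdsWithin_mono _ fun t ht => ne_of_gt ht)
    have h8 : ∀ᶠ t : ℝ in 𝓝[>] 0, slope (fun t : ℝ => nsq (ψ (w₀ + (t : ℂ) * ζ))) 0 t ≤ 0 := by
      have h9 : ∀ᶠ t : ℝ in 𝓝[>] 0, w₀ + (t : ℂ) * ζ ∈ ball w₀ ε := by
        have : Tendsto (fun t : ℝ => w₀ + (t : ℂ) * ζ) (𝓝[>] 0) (𝓝 w₀) := by
          have := hl.continuousAt.tendsto
          simp only [Complex.ofReal_zero, zero_mul, add_zero] at this
          exact this.mono_left nhdsWithin_le_nhds
        exact this.eventually (ball_mem_nhds w₀ hε)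
      filter_upwards [h9, self_mem_nhdsWithin] with t ht1 ht2
      have ht2' : 0 < t := ht2
      have h10 := hlt _ ht1 (by simp; positivity)
      rw [slope_def_field]
      apply div_nonpos_of_nonpos_of_nonneg
      · simp only [Complex.ofReal_zero, zero_mul, add_zero]
        linarith
      · linarith
    have := le_of_tendsto h7 h8
    linarith
  have hre : Λ.re = 0 := by
    by_contra hcon
    have h1 := key ⟨(Λ.im + 1) / Λ.re, 1⟩ (by simp)
    rw [Complex.mul_re] at h1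
    have h2 : (Λ.im + 1) / Λ.re * Λ.re = Λ.im + 1 := by field_simp
    simp only at h1
    rw [h2] at h1
    linarith
  have him : 0 ≤ Λ.im := by
    have h1 := key Complex.I (by simp)
    rw [Complex.mul_re] at h1
    simp at h1
    exact h1
  have hΛ0 : Λ ≠ 0 := mul_ne_zero hω hne
  have him' : Λ.im ≠ 0 := fun h => hΛ0 (Complex.ext hre h)
  refine ⟨Λ.im, lt_of_le_of_ne him (Ne.symm him'), ?_⟩
  apply Complex.ext
  · simp [hre]
  · simp

/-- A function which is a first integral is constant along a solution. -/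
theorem first_integral {g : V → ℂ} {X : V → V} {U : Set ℂ} (hU : IsOpen U) (hc : IsPreconnected U)
    {φ : ℂ → V} (hφ : ∀ w ∈ U, HasDerivAt φ (X (φ w)) w)
    (hg : ∀ w ∈ U, DifferentiableAt ℂ g (φ w)) (h0 : ∀ w ∈ U, fderiv ℂ g (φ w) (X (φ w)) = 0)
    {w₁ w₂ : ℂ} (h₁ : w₁ ∈ U) (h₂ : w₂ ∈ U) : g (φ w₁) = g (φ w₂) := by
  have hd : ∀ w ∈ U, HasDerivAt (fun w => g (φ w)) 0 w := by
    intro w hw
    have := (hg w hw).hasFDerivAt.comp_hasDerivAt w (hφ w hw)
    rwa [h0 w hw] at this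
  exact hU.is_const_of_deriv_eq_zero hc
    (fun w hw => (hd w hw).differentiableAt.differentiableWithinAt)
    (fun w hw => (hd w hw).deriv) h₁ h₂

/-- The half plane property, with a solution defined near the foot. -/
def HalfPlaneS (f e : V → ℂ) (ρ₀ ρ : ℝ) : Prop :=
  ∀ q : V, nsq q = ρ ^ 2 → f q = 0 → e q = 0 → ∃ (Φ : ℂ → V) (ε : ℝ), 0 < ε ∧ Φ 0 = q ∧
    (∀ w : ℂ, ((w * lam f e q).re < 0 ∨ w ∈ ball (0 : ℂ) ε) → Φ w ∈ ball (0 : V) ρ₀ ∧
      f (Φ w) = 0 ∧ e (Φ w) = 0 ∧ Φ w ≠ 0 ∧ HasDerivAt Φ (xi f e (Φ w)) w) ∧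
    (∀ w : ℂ, (w * lam f e q).re < 0 → nsq (Φ w) < ρ ^ 2) ∧
    ∀ η > 0, ∃ T : ℝ, ∀ w : ℂ, (w * lam f e q).re < 0 → T ≤ ‖w‖ → nsq (Φ w) < η

/-- The half plane property, from the equality of the numbers of half planes. -/
theorem halfPlane_of_count (petals : PetalsStmt) {f e : V → ℂ} {ρ₀ ρ : ℝ} (hρ : 0 < ρ)
    (hρρ₀ : ρ < ρ₀) (hf : ∀ x ∈ ball (0 : V) ρ₀, AnalyticAt ℂ f x)
    (he : ∀ x ∈ ball (0 : V) ρ₀, AnalyticAt ℂ e x) (hxi0 : xi f e 0 = 0)
    {k : ℕ} {γ : Fin k → ℂ → V} {c : Fin k → ℕ} {u : Fin k → ℂ → ℂ} {R : ℝ}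
    (hB : Branches f e k γ c u R) (hc : ∀ i, 1 ≤ c i)
    (hlam : ∀ x : V, nsq x = ρ ^ 2 → f x = 0 → e x = 0 → lam f e x ≠ 0)
    (hcount : ∀ ω : ℂ, ‖ω‖ = 1 → ∀ S : Finset V, (∀ x ∈ S, Top f e ρ ω x) →
      S.card ≤ ∑ i, (c i - 1)) : HalfPlaneS f e ρ₀ ρ := by
  have hsub : ∀ x : V, nsq x ≤ ρ ^ 2 → x ∈ ball (0 : V) ρ₀ := by
    intro x hx
    rw [mem_ball, dist_zero_right]
    exact lt_of_le_of_lt (norm_le_of_nsq_le hρ.le hx) hρρ₀
  have hXa : ∀ ω : ℂ, ∀ x ∈ ball (0 : V) ρ₀, AnalyticAt ℂ (fun x => ω • xi f e x) x := by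
    intro ω x hx
    exact AnalyticAt.smul (f := fun _ : V => ω) analyticAt_const
      (analyticAt_xi (hf x hx) (he x hx))
  -- small parameters
  have hεi : ∀ i, ∃ ε > 0, ε ≤ R ∧ ∀ s ∈ ball (0 : ℂ) ε, nsq (γ i s) < ρ ^ 2 := by
    intro i
    have h1 : ContinuousAt (fun s => nsq (γ i s)) 0 :=
      continuous_nsq.continuousAt.comp (hB.hol i 0 (mem_ball_self hB.pos)).continuousAt
    have h2 : ∀ᶠ s in 𝓝 (0 : ℂ), nsq (γ i s) < ρ ^ 2 := by
      refine h1.eventually_lt_const ?_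
      change nsq (γ i 0) < _
      rw [hB.zero i, nsq_zero]
      positivity
    obtain ⟨ε, hε, h3⟩ := Metric.eventually_nhds_iff.1 h2
    exact ⟨min ε R, lt_min hε hB.pos, min_le_right _ _, fun s hs =>
      h3 (lt_of_lt_of_le hs (min_le_left _ _))⟩
  choose εi hεi0 hεiR hεi using hεi
  have hne0 : ∀ i, ∀ s ∈ ball (0 : ℂ) R, s ≠ 0 → γ i s ≠ 0 := by
    intro i s hs hs0 h
    rcases hB.inj i i s hs 0 (mem_ball_self hB.pos) (by rw [h, hB.zero i]) with h1 | h1
    · exact hs0 h1.1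
    · exact hs0 h1.2
  intro q hq hfq heq
  have hq' := hq
  have hΛ := hlam q hq hfq heq
  set Λ := lam f e q with hΛdef
  have hΛn : (‖Λ‖ : ℂ) ≠ 0 := by
    rw [Ne, Complex.ofReal_eq_zero, norm_eq_zero]
    exact hΛ
  set ω : ℂ := Complex.I * (starRingEnd ℂ) Λ / ‖Λ‖ with hω
  have hω1 : ‖ω‖ = 1 := by
    rw [hω, norm_div, norm_mul, Complex.norm_I, one_mul, Complex.norm_conj, Complex.norm_real,
      norm_norm, div_self]
    exact norm_ne_zero_iff.2 hΛ
  have hω0 : ω ≠ 0 := by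
    rw [← norm_ne_zero_iff, hω1]
    exact one_ne_zero
  have hωΛ : ω * Λ = (‖Λ‖ : ℝ) * Complex.I := by
    have h1 : (starRingEnd ℂ) Λ * Λ = ((‖Λ‖ : ℝ) : ℂ) ^ 2 := by
      rw [mul_comm, Complex.mul_conj, Complex.normSq_eq_norm_sq]
      push_cast
      ring
    rw [hω]
    calc Complex.I * (starRingEnd ℂ) Λ / ‖Λ‖ * Λ
        = Complex.I * ((starRingEnd ℂ) Λ * Λ) / ‖Λ‖ := by ring
      _ = Complex.I * ((‖Λ‖ : ℝ) : ℂ) ^ 2 / ‖Λ‖ := by rw [h1]
      _ = (‖Λ‖ : ℝ) * Complex.I := by field_simp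
  have hωω : (starRingEnd ℂ) ω * ω = 1 := by
    rw [mul_comm, Complex.mul_conj, Complex.normSq_eq_norm_sq, hω1]
    simp
  -- the petals
  have hpet := fun i => petals (c i) (u i) (εi i) ω (hc i) (hB.hol_u i 0 (mem_ball_self hB.pos))
    (hB.u_ne i 0 (mem_ball_self hB.pos)) (hεi0 i) hω1
  choose σ hσ1 hσ2 hσ3 using hpet
  have hφ : ∀ j : (i : Fin k) × Fin (c i - 1), ∀ w : ℂ, 0 < w.im →
      nsq (γ j.1 (σ j.1 j.2 w)) < ρ ^ 2 ∧ γ j.1 (σ j.1 j.2 w) ≠ 0 ∧
      HasDerivAt (fun w => γ j.1 (σ j.1 j.2 w)) (ω • xi f e (γ j.1 (σ j.1 j.2 w))) w := by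
    rintro ⟨i, l⟩ w hw
    obtain ⟨h1, h2, h3⟩ := hσ1 i l w hw
    have h1R : σ i l w ∈ ball (0 : ℂ) R := ball_subset_ball (hεiR i) h1
    refine ⟨hεi i _ h1, hne0 i _ h1R h2, ?_⟩
    have h4 := (hB.hol i _ h1R).differentiableAt.hasDerivAt.scomp w h3
    have h5 : (ω * σ i l w ^ c i / u i (σ i l w)) • deriv (γ i) (σ i l w) =
        ω • xi f e (γ i (σ i l w)) := by
      have h6 := hB.ode i _ h1R
      have h7 := hB.u_ne i _ h1R
      calc (ω * σ i l w ^ c i / u i (σ i l w)) • deriv (γ i) (σ i l w)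
          = (ω / u i (σ i l w)) • (σ i l w ^ c i • deriv (γ i) (σ i l w)) := by
            rw [smul_smul]
            congr 1
            ring
        _ = (ω / u i (σ i l w)) • (u i (σ i l w) • xi f e (γ i (σ i l w))) := by rw [h6]
        _ = ω • xi f e (γ i (σ i l w)) := by
            rw [smul_smul]
            congr 1
            field_simp
    rw [h5] at h4
    exact h4
  have hinf : ∀ j : (i : Fin k) × Fin (c i - 1), ∀ η > 0, ∃ T : ℝ, ∀ w : ℂ, 0 < w.im → T ≤ ‖w‖ →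
      nsq (γ j.1 (σ j.1 j.2 w)) < η := by
    rintro ⟨i, l⟩ η hη
    have h1 : ContinuousAt (fun s => nsq (γ i s)) 0 :=
      continuous_nsq.continuousAt.comp (hB.hol i 0 (mem_ball_self hB.pos)).continuousAt
    have h2 : ∀ᶠ s in 𝓝 (0 : ℂ), nsq (γ i s) < η := by
      refine h1.eventually_lt_const ?_
      change nsq (γ i 0) < _
      rw [hB.zero i, nsq_zero]
      exact hη
    obtain ⟨δ, hδ, h3⟩ := Metric.eventually_nhds_iff.1 h2
    obtain ⟨T, hT⟩ := hσ2 i l δ hδ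
    exact ⟨T, fun w hw hwT => h3 (by rw [dist_zero_right]; exact hT w hw hwT)⟩
  have hmax := fun j : (i : Fin k) × Fin (c i - 1) =>
    exists_maximal (X := fun x => ω • xi f e x) (D := ball (0 : V) ρ₀) (ρ := ρ)
      (φ := fun w => γ j.1 (σ j.1 j.2 w)) isOpen_ball (hXa ω) hsub (by simp only [hxi0, smul_zero])
      hρ (hφ j) (hinf j)
  choose m φ' w₀ ε ψ hm0 hw₀ hε hφ'1 hφ'2 hφ'3 hψρ hψ using hmax
  -- the first integrals vanish
  have hfφ : ∀ j, ∀ w : ℂ, m j < w.im → f (φ' j w) = 0 ∧ e (φ' j w) = 0 := by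
    intro j w hw
    have hball : ∀ w ∈ {w : ℂ | m j < w.im}, φ' j w ∈ ball (0 : V) ρ₀ := fun w hw =>
      hsub _ (hφ'2 j w hw).1.le
    have hI : Complex.I ∈ {w : ℂ | m j < w.im} := by
      change m j < Complex.I.im
      rw [Complex.I_im]
      linarith [hm0 j]
    have hmem : f (φ' j Complex.I) = 0 ∧ e (φ' j Complex.I) = 0 := by
      rw [hφ'1 j _ (by simp)]
      exact hB.mem j.1 _ (ball_subset_ball (hεiR j.1) (hσ1 j.1 j.2 _ (by simp)).1)
    constructor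
    · rw [← hmem.1]
      exact first_integral (isOpen_im_gt _) (convex_im_gt _).isPreconnected
        (X := fun x => ω • xi f e x) (fun w hw => (hφ'2 j w hw).2.2)
        (fun w hw => (hf _ (hball w hw)).differentiableAt)
        (fun w hw => by rw [map_smul, fderiv_xi_left, smul_zero]) hw hI
    · rw [← hmem.2]
      exact first_integral (isOpen_im_gt _) (convex_im_gt _).isPreconnected
        (X := fun x => ω • xi f e x) (fun w hw => (hφ'2 j w hw).2.2)
        (fun w hw => (he _ (hball w hw)).differentiableAt)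
        (fun w hw => by rw [map_smul, fderiv_xi_right, smul_zero]) hw hI
  -- the line point is approached from inside
  have happ : ∀ j, ∃ᶠ w in 𝓝 (w₀ j), w ∈ ball (w₀ j) (ε j) ∧ m j < w.im := by
    intro j
    rw [Metric.nhds_basis_ball.frequently_iff]
    intro δ hδ
    refine ⟨w₀ j + ((min δ (ε j) / 2 : ℝ) : ℂ) * Complex.I, ?_, ?_, ?_⟩
    · have h1 : 0 < min δ (ε j) := lt_min hδ (hε j)
      rw [mem_ball, dist_eq_norm, add_sub_cancel_left, norm_mul, Complex.norm_I, mul_one,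
        Complex.norm_real, Real.norm_eq_abs, abs_of_pos (by positivity)]
      have := min_le_left δ (ε j)
      linarith
    · have h1 : 0 < min δ (ε j) := lt_min hδ (hε j)
      rw [mem_ball, dist_eq_norm, add_sub_cancel_left, norm_mul, Complex.norm_I, mul_one,
        Complex.norm_real, Real.norm_eq_abs, abs_of_pos (by positivity)]
      have := min_le_right δ (ε j)
      linarith
    · have h1 : 0 < min δ (ε j) := lt_min hδ (hε j)
      have := hw₀ j
      simp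
      linarith
  have hψ0 : ∀ j, ψ j (w₀ j) ∈ ball (0 : V) ρ₀ := fun j => (hψ j _ (mem_ball_self (hε j))).1
  have hψc : ∀ j, ContinuousAt (ψ j) (w₀ j) := fun j =>
    (hψ j _ (mem_ball_self (hε j))).2.1.continuousAt
  have hfψ : ∀ j, f (ψ j (w₀ j)) = 0 ∧ e (ψ j (w₀ j)) = 0 := by
    intro j
    have hz : ∀ g : V → ℂ, ContinuousAt g (ψ j (w₀ j)) → (∀ w : ℂ, m j < w.im → g (φ' j w) = 0) →
        g (ψ j (w₀ j)) = 0 := by
      intro g hg hg0
      by_contra hcon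
      have h1 : ContinuousAt (fun w => g (ψ j w)) (w₀ j) := hg.comp (hψc j)
      have h2 := h1.eventually_ne hcon
      obtain ⟨w, ⟨hw1, hw2⟩, hw3⟩ := ((happ j).and_eventually h2).exists
      apply hw3
      rw [(hψ j w hw1).2.2 hw2]
      exact hg0 w hw2
    exact ⟨hz f (hf _ (hψ0 j)).continuousAt fun w hw => (hfφ j w hw).1,
      hz e (he _ (hψ0 j)).continuousAt fun w hw => (hfφ j w hw).2⟩
  have htop : ∀ j, Top f e ρ ω (ψ j (w₀ j)) := by
    intro j
    refine ⟨hψρ j, (hfψ j).1, (hfψ j).2, ?_⟩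
    refine touch (hε j) (hψ j _ (mem_ball_self (hε j))).2.1 (hψρ j) (fun w hw hwm => ?_)
      (hlam _ (hψρ j) (hfψ j).1 (hfψ j).2) hω0
    rw [hw₀ j] at hwm
    rw [(hψ j w hw).2.2 hwm]
    exact (hφ'2 j w hwm).1
  -- different half planes touch at different points
  have hinj : Function.Injective fun j => ψ j (w₀ j) := by
    intro j j' hjj
    by_contra hne
    have hjj' : ψ j (w₀ j) = ψ j' (w₀ j') := hjj
    -- equality on a small disc
    have hshift : ∀ (j : (i : Fin k) × Fin (c i - 1)) (χ : ℂ → V) (w z : ℂ),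
        HasDerivAt χ (ω • xi f e (χ (w + z))) (w + z) →
        HasDerivAt (fun z => χ (w + z)) (ω • xi f e (χ (w + z))) z := by
      intro j χ w z h
      have := h.scomp z ((hasDerivAt_id z).const_add w)
      rw [one_smul] at this
      exact this
    have hδpos : 0 < min (ε j) (ε j') := lt_min (hε j) (hε j')
    have hbm : ∀ j, ∀ z : ℂ, ∀ δ, δ ≤ ε j → z ∈ ball (0 : ℂ) δ → w₀ j + z ∈ ball (w₀ j) (ε j) := by
      intro j z δ hδ hz
      rw [mem_ball, dist_eq_norm, add_sub_cancel_left]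
      rw [mem_ball, dist_zero_right] at hz
      linarith
    have h1 := sol_unique (X := fun x => ω • xi f e x) (D := ball (0 : V) ρ₀) (hXa ω)
      (U := ball (0 : ℂ) (min (ε j) (ε j'))) isOpen_ball (convex_ball _ _).isPreconnected
      (φ := fun z => ψ j (w₀ j + z)) (ψ := fun z => ψ j' (w₀ j' + z)) (w₀ := 0)
      (fun z hz => ⟨(hψ j _ (hbm j z _ (min_le_left _ _) hz)).1,
        hshift j _ _ _ (hψ j _ (hbm j z _ (min_le_left _ _) hz)).2.1⟩)
      (fun z hz => ⟨(hψ j' _ (hbm j' z _ (min_le_right _ _) hz)).1,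
        hshift j _ _ _ (hψ j' _ (hbm j' z _ (min_le_right _ _) hz)).2.1⟩)
      (mem_ball_self hδpos) (by simpa using hjj')
    -- equality on the half plane
    set z₀ : ℂ := ((min (ε j) (ε j') / 2 : ℝ) : ℂ) * Complex.I with hz₀
    have hz₀im : z₀.im = min (ε j) (ε j') / 2 := by simp [hz₀]
    have hz₀m : z₀ ∈ ball (0 : ℂ) (min (ε j) (ε j')) := by
      rw [mem_ball, dist_zero_right, hz₀, norm_mul, Complex.norm_I, mul_one, Complex.norm_real,
        Real.norm_eq_abs, abs_of_pos (by positivity)]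
      linarith
    have hup : ∀ j, ∀ z : ℂ, 0 < z.im → m j < (w₀ j + z).im := by
      intro j z hz
      rw [Complex.add_im, hw₀ j]
      linarith
    have h2 := sol_unique (X := fun x => ω • xi f e x) (D := ball (0 : V) ρ₀) (hXa ω)
      (U := {z : ℂ | 0 < z.im}) (isOpen_im_gt 0) (convex_im_gt 0).isPreconnected
      (φ := fun z => φ' j (w₀ j + z)) (ψ := fun z => φ' j' (w₀ j' + z)) (w₀ := z₀)
      (fun z hz => ⟨hsub _ (hφ'2 j _ (hup j z hz)).1.le,
        hshift j _ _ _ (hφ'2 j _ (hup j z hz)).2.2⟩)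
      (fun z hz => ⟨hsub _ (hφ'2 j' _ (hup j' z hz)).1.le,
        hshift j _ _ _ (hφ'2 j' _ (hup j' z hz)).2.2⟩)
      (by change 0 < z₀.im; rw [hz₀im]; positivity)
      (by
        have h3 := h1 hz₀m
        have h4 := (hψ j _ (hbm j z₀ _ (min_le_left _ _) hz₀m)).2.2
          (hup j z₀ (by rw [hz₀im]; positivity))
        have h5 := (hψ j' _ (hbm j' z₀ _ (min_le_right _ _) hz₀m)).2.2
          (hup j' z₀ (by rw [hz₀im]; positivity))
        simp only at h3 ⊢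
        rw [← h4, ← h5, h3])
    -- the petals agree up to a translation
    set b : ℂ := w₀ j' - w₀ j with hb
    have h3 : ∀ w : ℂ, 0 < w.im → 0 < (w + b).im →
        γ j.1 (σ j.1 j.2 w) = γ j'.1 (σ j'.1 j'.2 (w + b)) := by
      intro w hw hwb
      have hz : w - w₀ j ∈ {z : ℂ | 0 < z.im} := by
        change 0 < (w - w₀ j).im
        rw [Complex.sub_im, hw₀ j]
        linarith [hm0 j]
      have h4 := h2 hz
      simp only [add_sub_cancel] at h4
      have h5 : w₀ j' + (w - w₀ j) = w + b := by rw [hb]; ring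
      rw [h5] at h4
      rw [hφ'1 j w hw, hφ'1 j' _ hwb] at h4
      exact h4
    obtain ⟨i, l⟩ := j
    obtain ⟨i', l'⟩ := j'
    simp only at h3
    have hmemR : ∀ i l, ∀ w : ℂ, 0 < w.im → σ i l w ∈ ball (0 : ℂ) R := fun i l w hw =>
      ball_subset_ball (hεiR i) (hσ1 i l w hw).1
    by_cases hii : i = i'
    · subst hii
      have hll : l ≠ l' := fun h => hne (by rw [h])
      obtain ⟨w, hw1, hw2, hw3⟩ := hσ3 i l l' hll b
      rcases hB.inj i i _ (hmemR i l w hw1) _ (hmemR i l' _ hw2) (h3 w hw1 hw2) with h4 | h4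
      · exact (hσ1 i l w hw1).2.1 h4.1
      · exact hw3 h4.2
    · set w : ℂ := ((|b.im| + 1 : ℝ) : ℂ) * Complex.I with hw
      have hwim : w.im = |b.im| + 1 := by simp [hw]
      have hw1 : 0 < w.im := by rw [hwim]; positivity
      have hw2 : 0 < (w + b).im := by
        rw [Complex.add_im, hwim]
        linarith [neg_abs_le b.im]
      rcases hB.inj i i' _ (hmemR i l w hw1) _ (hmemR i' l' _ hw2) (h3 w hw1 hw2) with h4 | h4
      · exact (hσ1 i l w hw1).2.1 h4.1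
      · exact hii h4.1
  -- the given point is one of the touching points
  have hq : ∃ j, ψ j (w₀ j) = q := by
    by_contra hcon
    push Not at hcon
    classical
    have h1 := hcount ω hω1 (insert q (Finset.univ.image fun j => ψ j (w₀ j))) (by
      intro x hx
      rw [Finset.mem_insert, Finset.mem_image] at hx
      rcases hx with rfl | ⟨j, -, rfl⟩
      · exact ⟨hq, hfq, heq, ‖Λ‖, norm_pos_iff.2 hΛ, hωΛ⟩
      · exact htop j)
    rw [Finset.card_insert_of_notMem (by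
      rw [Finset.mem_image]
      rintro ⟨j, -, hj⟩
      exact hcon j hj), Finset.card_image_of_injective _ hinj, Finset.card_univ,
      Fintype.card_sigma] at h1
    simp only [Fintype.card_fin] at h1
    omega
  obtain ⟨j, hj⟩ := hq
  have hcond : ∀ ζ : ℂ, (ζ * Λ).re < 0 → m j < (w₀ j + (starRingEnd ℂ) ω * ζ).im := by
    intro ζ hζ
    have h1 : (starRingEnd ℂ) ω * ζ = -Complex.I * (ζ * Λ) / ‖Λ‖ := by
      rw [hω, map_div₀, map_mul, Complex.conj_I, Complex.conj_conj, Complex.conj_ofReal]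
      ring
    have h2 : ((starRingEnd ℂ) ω * ζ).im = -(ζ * Λ).re / ‖Λ‖ := by
      rw [h1, Complex.div_ofReal_im]
      congr 1
      simp
    rw [Complex.add_im, hw₀ j, h2]
    have h3 : 0 < ‖Λ‖ := norm_pos_iff.2 hΛ
    have : 0 < -(ζ * Λ).re / ‖Λ‖ := by
      apply div_pos _ h3
      linarith
    linarith
  have hfψ' : ∀ w ∈ ball (w₀ j) (ε j), f (ψ j w) = 0 ∧ e (ψ j w) = 0 := by
    intro w hw
    have hw0 : w₀ j ∈ ball (w₀ j) (ε j) := mem_ball_self (hε j)
    constructor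
    · rw [← (hfψ j).1]
      exact first_integral isOpen_ball (convex_ball _ _).isPreconnected
        (X := fun x => ω • xi f e x) (fun w hw => (hψ j w hw).2.1)
        (fun w hw => (hf _ (hψ j w hw).1).differentiableAt)
        (fun w hw => by rw [map_smul, fderiv_xi_left, smul_zero]) hw hw0
    · rw [← (hfψ j).2]
      exact first_integral isOpen_ball (convex_ball _ _).isPreconnected
        (X := fun x => ω • xi f e x) (fun w hw => (hψ j w hw).2.1)
        (fun w hw => (he _ (hψ j w hw).1).differentiableAt)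
        (fun w hw => by rw [map_smul, fderiv_xi_right, smul_zero]) hw hw0
  have hq0 : q ≠ 0 := by
    rintro rfl
    rw [nsq_zero] at hq'
    have : 0 < ρ ^ 2 := by positivity
    linarith
  have hψne : ∀ w ∈ ball (w₀ j) (ε j), ψ j w ≠ 0 := by
    intro w hw hw0
    have h1 := sol_unique (X := fun x => ω • xi f e x) (D := ball (0 : V) ρ₀) (hXa ω)
      (U := ball (w₀ j) (ε j)) isOpen_ball (convex_ball _ _).isPreconnected
      (φ := ψ j) (ψ := fun _ => 0) (w₀ := w)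
      (fun z hz => ⟨(hψ j z hz).1, (hψ j z hz).2.1⟩)
      (fun z _ => ⟨mem_ball_self (by linarith), by
        simp only [hxi0, smul_zero]
        exact hasDerivAt_const z 0⟩) hw hw0
    exact hq0 (by rw [← hj]; exact h1 (mem_ball_self (hε j)))
  have hωn : ‖(starRingEnd ℂ) ω‖ = 1 := by rw [Complex.norm_conj, hω1]
  have hballmap : ∀ ζ ∈ ball (0 : ℂ) (ε j), w₀ j + (starRingEnd ℂ) ω * ζ ∈ ball (w₀ j) (ε j) := by
    intro ζ hζ
    rw [mem_ball, dist_eq_norm, add_sub_cancel_left, norm_mul, hωn, one_mul]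
    rwa [mem_ball, dist_zero_right] at hζ
  have hder : ∀ ζ : ℂ, HasDerivAt (fun ζ : ℂ => w₀ j + (starRingEnd ℂ) ω * ζ)
      ((starRingEnd ℂ) ω) ζ := by
    intro ζ
    have := ((hasDerivAt_id ζ).const_mul ((starRingEnd ℂ) ω)).const_add (w₀ j)
    simpa using this
  obtain ⟨Φ, hΦ1, hΦ2⟩ : ∃ Φ : ℂ → V,
      (∀ ζ : ℂ, (ζ * Λ).re < 0 → Φ ζ = φ' j (w₀ j + (starRingEnd ℂ) ω * ζ)) ∧
      ∀ ζ : ℂ, ¬ (ζ * Λ).re < 0 → Φ ζ = ψ j (w₀ j + (starRingEnd ℂ) ω * ζ) :=
    ⟨fun ζ => if (ζ * Λ).re < 0 then φ' j (w₀ j + (starRingEnd ℂ) ω * ζ) else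
      ψ j (w₀ j + (starRingEnd ℂ) ω * ζ), fun ζ hζ => if_pos hζ, fun ζ hζ => if_neg hζ⟩
  have hΦ3 : ∀ ζ ∈ ball (0 : ℂ) (ε j), Φ ζ = ψ j (w₀ j + (starRingEnd ℂ) ω * ζ) := by
    intro ζ hζ
    by_cases h : (ζ * Λ).re < 0
    · rw [hΦ1 ζ h]
      exact ((hψ j _ (hballmap ζ hζ)).2.2 (hcond ζ h)).symm
    · exact hΦ2 ζ h
  refine ⟨Φ, ε j, hε j, ?_, ?_, ?_, ?_⟩
  · rw [hΦ3 0 (mem_ball_self (hε j)), mul_zero, add_zero, hj]
  · intro ζ hζ
    by_cases hb : ζ ∈ ball (0 : ℂ) (ε j)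
    · have h1 := hballmap ζ hb
      rw [hΦ3 ζ hb]
      refine ⟨(hψ j _ h1).1, (hfψ' _ h1).1, (hfψ' _ h1).2, hψne _ h1, ?_⟩
      have h3 := (hψ j _ h1).2.1.scomp ζ (hder ζ)
      rw [smul_smul, hωω, one_smul] at h3
      refine h3.congr_of_eventuallyEq ?_
      filter_upwards [isOpen_ball.mem_nhds hb] with z hz
      exact hΦ3 z hz
    · have hζ' : (ζ * Λ).re < 0 := hζ.resolve_right hb
      have h1 := hcond ζ hζ'
      rw [hΦ1 ζ hζ']
      refine ⟨hsub _ (hφ'2 j _ h1).1.le, (hfφ j _ h1).1, (hfφ j _ h1).2, (hφ'2 j _ h1).2.1, ?_⟩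
      have h3 := (hφ'2 j _ h1).2.2.scomp ζ (hder ζ)
      rw [smul_smul, hωω, one_smul] at h3
      refine h3.congr_of_eventuallyEq ?_
      have hop : IsOpen {w : ℂ | (w * Λ).re < 0} := by
        refine isOpen_lt ?_ continuous_const
        fun_prop
      filter_upwards [hop.mem_nhds hζ'] with z hz
      exact hΦ1 z hz
  · intro ζ hζ
    rw [hΦ1 ζ hζ]
    exact (hφ'2 j _ (hcond ζ hζ)).1
  · intro η hη
    obtain ⟨T, hT⟩ := hφ'3 j η hη
    refine ⟨T + ‖w₀ j‖, fun ζ hζ hζT => ?_⟩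
    rw [hΦ1 ζ hζ]
    refine hT _ (hcond ζ hζ) ?_
    have h1 : ‖(starRingEnd ℂ) ω * ζ‖ = ‖ζ‖ := by
      rw [norm_mul, Complex.norm_conj, hω1, one_mul]
    have h2 := norm_sub_le (w₀ j + (starRingEnd ℂ) ω * ζ) (w₀ j)
    rw [add_sub_cancel_left, h1] at h2
    linarith

end Vale.Agent.P298.H462
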