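import Vale.Agent.P298.H462.Glue
import Vale.Agent.P298.H462.HalfP
import Vale.Agent.P298.H857.Prim

/-!
Extension of a branch from an annulus to the punctured disc.
-/

namespace Vale.Agent.P298.H462

open Filter Topology Metric Set

/-- Time `t` flow: half plane solutions in the logarithmic coordinate. -/
theorem extend_branch {f e : V → ℂ} {ρ₀ ρ : ℝ} (hρ : 0 < ρ) (hρρ₀ : ρ < ρ₀)
    (hf : ∀ x ∈ ball (0 : V) ρ₀, AnalyticAt ℂ f x)
    (he : ∀ x ∈ ball (0 : V) ρ₀, AnalyticAt ℂ e x) (hxi0 : xi f e 0 = 0)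
    (hH : HalfPlaneS f e ρ₀ ρ) {c : ℕ} (hc : 1 ≤ c) {w : ℂ → ℂ} {G : ℂ → V} {s₁ a₁ a₂ s₂ : ℝ}
    (hs₁ : 0 < s₁) (hsa : s₁ < a₁) (haa : a₁ < a₂) (has : a₂ < s₂)
    (hw : ∀ s ∈ ball (0 : ℂ) s₂, AnalyticAt ℂ w s)
    (hG : ∀ s : ℂ, s₁ < ‖s‖ → ‖s‖ < s₂ → DifferentiableAt ℂ G s ∧ G s ∈ ball (0 : V) ρ₀ ∧
      f (G s) = 0 ∧ e (G s) = 0 ∧ s ^ c • deriv G s = w s • xi f e (G s))
    (h1 : ∀ s : ℂ, ‖s‖ = a₁ → nsq (G s) < ρ ^ 2) (h2 : ∀ s : ℂ, ‖s‖ = a₂ → ρ ^ 2 < nsq (G s))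
    (hpos : ∀ s₀ : ℂ, a₁ ≤ ‖s₀‖ → ‖s₀‖ ≤ a₂ → ∀ s : ℂ, ‖s‖ ≤ a₂ →
      0 < (w s * (s₀ ^ (c - 1))⁻¹ * lam f e (G s₀)).re) :
    ∃ γ : ℂ → V, γ 0 = 0 ∧ DifferentiableOn ℂ γ (ball 0 s₂) ∧
      (∀ s : ℂ, a₁ ≤ ‖s‖ → ‖s‖ < s₂ → γ s = G s) ∧
      (∀ s ∈ ball (0 : ℂ) s₂, γ s ∈ ball (0 : V) ρ₀ ∧ f (γ s) = 0 ∧ e (γ s) = 0 ∧
        s ^ c • deriv γ s = w s • xi f e (γ s) ∧ (s ≠ 0 → γ s ≠ 0)) ∧
      ∀ s : ℂ, ‖s‖ ≤ a₁ → nsq (γ s) < ρ ^ 2 := by
  have hX : ∀ x ∈ ball (0 : V) ρ₀, AnalyticAt ℂ (xi f e) x := fun x hx =>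
    analyticAt_xi (hf x hx) (he x hx)
  have ha₁ : 0 < a₁ := hs₁.trans hsa
  have ha₂ : 0 < a₂ := ha₁.trans haa
  have hs₂ : 0 < s₂ := ha₂.trans has
  obtain ⟨n, rfl⟩ : ∃ n, c = n + 1 := ⟨c - 1, by omega⟩
  rw [Nat.add_sub_cancel] at hpos
  set β := Real.log s₂ with hβ
  set α := Real.log s₁ with hα
  set α' := Real.log a₁ with hα'
  have hαα' : α < α' := Real.log_lt_log hs₁ hsa
  have hα'β : α' < β := Real.log_lt_log ha₁ (haa.trans has)
  -- the time factor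
  set v : ℂ → ℂ := fun σ => w (Complex.exp σ) * (Complex.exp σ ^ n)⁻¹ with hv
  have hexp : ∀ σ : ℂ, ‖Complex.exp σ‖ = Real.exp σ.re := Complex.norm_exp
  have hltβ : ∀ σ : ℂ, σ.re < β ↔ ‖Complex.exp σ‖ < s₂ := by
    intro σ
    rw [hexp, hβ, Real.lt_log_iff_exp_lt hs₂]
  have hgtα : ∀ σ : ℂ, α < σ.re ↔ s₁ < ‖Complex.exp σ‖ := by
    intro σ
    rw [hexp, hα, Real.log_lt_iff_lt_exp hs₁]
  have hmemball : ∀ σ : ℂ, σ.re < β → Complex.exp σ ∈ ball (0 : ℂ) s₂ := by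
    intro σ hσ
    rw [mem_ball, dist_zero_right]
    exact (hltβ σ).1 hσ
  have hvd : ∀ σ : ℂ, σ.re < β → DifferentiableAt ℂ v σ := by
    intro σ hσ
    have h3 : DifferentiableAt ℂ (fun σ => w (Complex.exp σ)) σ :=
      (hw _ (hmemball σ hσ)).differentiableAt.comp σ Complex.differentiableAt_exp
    exact h3.mul ((Complex.differentiableAt_exp.pow n).inv (pow_ne_zero _ (Complex.exp_ne_zero σ)))
  have hvc : ContinuousOn v {σ : ℂ | σ.re < β} := fun σ hσ =>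
    (hvd σ hσ).continuousAt.continuousWithinAt
  -- the solution on the strip
  set Γ : ℂ → V := fun σ => G (Complex.exp σ) with hΓ
  have hΓd : ∀ σ : ℂ, α < σ.re → σ.re < β →
      Γ σ ∈ ball (0 : V) ρ₀ ∧ HasDerivAt Γ (v σ • xi f e (Γ σ)) σ := by
    intro σ h3 h4
    obtain ⟨g1, g2, g3, g4, g5⟩ := hG _ ((hgtα σ).1 h3) ((hltβ σ).1 h4)
    refine ⟨g2, ?_⟩
    have h5 := g1.hasDerivAt.scomp σ (Complex.hasDerivAt_exp σ)
    have h6 : Complex.exp σ • deriv G (Complex.exp σ) = v σ • xi f e (Γ σ) := by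
      have hne := Complex.exp_ne_zero σ
      have hpn : Complex.exp σ ^ n ≠ 0 := pow_ne_zero _ hne
      calc Complex.exp σ • deriv G (Complex.exp σ)
          = (Complex.exp σ ^ n)⁻¹ • (Complex.exp σ ^ (n + 1) • deriv G (Complex.exp σ)) := by
            rw [smul_smul, pow_succ, ← mul_assoc, inv_mul_cancel₀ hpn, one_mul]
        _ = (Complex.exp σ ^ n)⁻¹ • (w (Complex.exp σ) • xi f e (G (Complex.exp σ))) := by
            rw [g5]
        _ = v σ • xi f e (Γ σ) := by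
            rw [smul_smul, hv]
            congr 1
            ring
    rw [h6] at h5
    exact h5
  -- the primitive
  obtain ⟨W, hW⟩ : ∃ W : ℂ → ℂ, ∀ σ : ℂ, σ.re < β → HasDerivAt W (v σ) σ := by
    obtain ⟨W, hW⟩ := H857.exists_prim_half (f := v) (n := -1) (by norm_num) (K := -β)
      (fun σ hσ => (hvd σ (by
        have : -β < ((-1 : ℂ) * σ).re := hσ
        simp at this
        exact this)).differentiableWithinAt)
    refine ⟨W, fun σ hσ => hW σ ?_⟩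
    simp
    exact hσ
  -- the points on the sphere
  have hb : ∀ y : ℝ, ∃ b : ℝ, α' < b ∧ b < Real.log a₂ ∧ nsq (Γ ⟨b, y⟩) = ρ ^ 2 := by
    intro y
    have hcont : ContinuousOn (fun b : ℝ => nsq (Γ ⟨b, y⟩)) (Icc α' (Real.log a₂)) := by
      intro b hb
      have h3 : b < β := lt_of_le_of_lt hb.2 (Real.log_lt_log ha₂ has)
      have h4 : ContinuousAt Γ (⟨b, y⟩ : ℂ) :=
        (hΓd ⟨b, y⟩ (by change α < b; linarith [hb.1]) h3).2.continuousAt
      have h5 : ContinuousAt (fun b : ℝ => (⟨b, y⟩ : ℂ)) b := by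
        rw [mk_eq]
        fun_prop
      exact (continuous_nsq.continuousAt.comp (ContinuousAt.comp (f := fun b : ℝ => (⟨b, y⟩ : ℂ))
        h4 h5)).continuousWithinAt
    have hle : α' ≤ Real.log a₂ := (Real.log_lt_log ha₁ haa).le
    have hl : nsq (Γ ⟨α', y⟩) < ρ ^ 2 := by
      apply h1
      rw [hexp]
      exact Real.exp_log ha₁
    have hr : ρ ^ 2 < nsq (Γ ⟨Real.log a₂, y⟩) := by
      apply h2
      rw [hexp]
      exact Real.exp_log ha₂
    obtain ⟨b, hb, hbe⟩ := intermediate_value_Ioo hle hcont ⟨hl, hr⟩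
    exact ⟨b, hb.1, hb.2, hbe⟩
  choose b hb1 hb2 hb3 using hb
  have hbβ : ∀ y, b y < β := fun y => (hb2 y).trans (Real.log_lt_log ha₂ has)
  have hq : ∀ y, f (Γ ⟨b y, y⟩) = 0 ∧ e (Γ ⟨b y, y⟩) = 0 := by
    intro y
    have h3 := hG (Complex.exp ⟨b y, y⟩) ((hgtα _).1 (by change α < b y; linarith [hb1 y]))
      ((hltβ _).1 (hbβ y))
    exact ⟨h3.2.2.1, h3.2.2.2.1⟩
  have hHy := fun y => hH _ (hb3 y) (hq y).1 (hq y).2
  choose Φ ε hε hΦ0 hΦ1 hΦ2 hΦ3 using hHy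
  -- positivity of the velocity
  have hvpos : ∀ y b' : ℝ, b' ≤ b y →
      (w (Complex.exp ⟨b', y⟩) * (Complex.exp ⟨b y, y⟩ ^ n)⁻¹ * lam f e (Γ ⟨b y, y⟩)).re ≤
        (v ⟨b', y⟩ * lam f e (Γ ⟨b y, y⟩)).re ∧
      0 < (w (Complex.exp ⟨b', y⟩) * (Complex.exp ⟨b y, y⟩ ^ n)⁻¹ * lam f e (Γ ⟨b y, y⟩)).re := by
    intro y b' hb'
    have hn0 : ‖Complex.exp ⟨b y, y⟩‖ = Real.exp (b y) := hexp _
    have hp := hpos (Complex.exp ⟨b y, y⟩)
      (by rw [hn0]; exact ((Real.log_le_iff_le_exp ha₁).1 (hb1 y).le))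
      (by rw [hn0]; exact ((Real.le_log_iff_exp_le ha₂).1 (hb2 y).le))
      (Complex.exp ⟨b', y⟩) (by
        rw [hexp]
        exact (Real.le_log_iff_exp_le ha₂).1 (hb'.trans (hb2 y).le))
    refine ⟨?_, hp⟩
    set r : ℝ := Real.exp (b' - b y) with hr
    have hr0 : 0 < r := Real.exp_pos _
    have hr1 : r ≤ 1 := Real.exp_le_one_iff.2 (by linarith)
    have hs : Complex.exp ⟨b', y⟩ = (r : ℂ) * Complex.exp ⟨b y, y⟩ := by
      rw [hr, Complex.ofReal_exp, ← Complex.exp_add]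
      congr 1
      apply Complex.ext
      · simp
      · simp
    have h5 : v ⟨b', y⟩ * lam f e (Γ ⟨b y, y⟩) = ((r ^ n)⁻¹ : ℝ) *
        (w (Complex.exp ⟨b', y⟩) * (Complex.exp ⟨b y, y⟩ ^ n)⁻¹ * lam f e (Γ ⟨b y, y⟩)) := by
      rw [hv]
      simp only
      have h6 : (Complex.exp ⟨b', y⟩ ^ n)⁻¹ = (((r ^ n)⁻¹ : ℝ) : ℂ) *
          (Complex.exp ⟨b y, y⟩ ^ n)⁻¹ := by
        rw [hs, mul_pow, mul_inv]
        push_cast
        ring
      rw [h6]
      ring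
    rw [h5, Complex.re_ofReal_mul]
    have h7 : 1 ≤ (r ^ n)⁻¹ := by
      rw [one_le_inv₀ (pow_pos hr0 n)]
      exact pow_le_one₀ hr0.le hr1
    exact le_mul_of_one_le_left hp.le h7
  -- monotonicity along the rays
  have hmono : ∀ y b' : ℝ, b' < b y →
      ((W ⟨b', y⟩ - W ⟨b y, y⟩) * lam f e (Γ ⟨b y, y⟩)).re < 0 := by
    intro y b' hb'
    set Λ := lam f e (Γ ⟨b y, y⟩) with hΛ
    have hder : ∀ x : ℝ, x ≤ b y → HasDerivAt (fun x : ℝ => (W ⟨x, y⟩ * Λ).re)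
        (v ⟨x, y⟩ * Λ).re x := by
      intro x hx
      have h3 : HasDerivAt (fun x : ℝ => (⟨x, y⟩ : ℂ)) 1 x := by
        rw [mk_eq]
        exact (Complex.ofRealCLM.hasDerivAt (x := x)).add_const _
      have h4 : HasDerivAt W (v ⟨x, y⟩) (⟨x, y⟩ : ℂ) := hW _ (lt_of_le_of_lt hx (hbβ y))
      have h5 : HasDerivAt (fun x : ℝ => W ⟨x, y⟩) (v ⟨x, y⟩) x := by
        have := HasDerivAt.scomp (h := fun x : ℝ => (⟨x, y⟩ : ℂ)) x h4 h3
        rw [one_smul] at this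
        exact this
      have h6 := h5.mul_const Λ
      exact (Complex.reCLM.hasFDerivAt.comp_hasDerivAt x h6)
    have h3 : StrictMonoOn (fun x : ℝ => (W ⟨x, y⟩ * Λ).re) (Iic (b y)) := by
      refine strictMonoOn_of_deriv_pos (convex_Iic _)
        (fun x hx => (hder x hx).continuousAt.continuousWithinAt) (fun x hx => ?_)
      rw [interior_Iic] at hx
      rw [(hder x (le_of_lt hx)).deriv]
      exact lt_of_lt_of_le (hvpos y x (le_of_lt hx)).2 (hvpos y x (le_of_lt hx)).1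
    have h4 := h3 (mem_Iic.2 hb'.le) (mem_Iic.2 le_rfl) hb'
    rw [sub_mul, Complex.sub_re]
    simp only at h4
    linarith
  -- the domains of the radial solutions
  set O : ℝ → Set ℂ := fun y => {σ : ℂ | σ.re < β ∧
    (((W σ - W ⟨b y, y⟩) * lam f e (Γ ⟨b y, y⟩)).re < 0 ∨ W σ - W ⟨b y, y⟩ ∈ ball (0 : ℂ) (ε y))}
    with hO
  have hWc : ContinuousOn W {σ : ℂ | σ.re < β} := fun σ hσ => (hW σ hσ).continuousAt.continuousWithinAt
  have hopβ : IsOpen {σ : ℂ | σ.re < β} := isOpen_lt Complex.continuous_re continuous_const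
  have hOo : ∀ y, IsOpen (O y) := by
    intro y
    have hU : IsOpen {z : ℂ | ((z - W ⟨b y, y⟩) * lam f e (Γ ⟨b y, y⟩)).re < 0 ∨
        z - W ⟨b y, y⟩ ∈ ball (0 : ℂ) (ε y)} := by
      refine IsOpen.union ?_ ?_
      · have h3 : Continuous fun z : ℂ => ((z - W ⟨b y, y⟩) * lam f e (Γ ⟨b y, y⟩)).re := by
          fun_prop
        exact isOpen_lt h3 continuous_const
      · have h3 : IsOpen ((fun z : ℂ => z - W ⟨b y, y⟩) ⁻¹' ball (0 : ℂ) (ε y)) :=
          isOpen_ball.preimage (by fun_prop)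
        exact h3
    exact hWc.isOpen_inter_preimage hopβ hU
  have hOβ : ∀ y, ∀ σ ∈ O y, σ.re < β := fun y σ hσ => hσ.1
  have hrayb : ∀ y b' : ℝ, b' ≤ b y → (⟨b', y⟩ : ℂ) ∈ O y := by
    intro y b' hb'
    refine ⟨lt_of_le_of_lt hb' (hbβ y), ?_⟩
    rcases hb'.lt_or_eq with h | h
    · exact Or.inl (hmono y b' h)
    · right
      rw [h, sub_self]
      exact mem_ball_self (hε y)
  set Γy : ℝ → ℂ → V := fun y σ => Φ y (W σ - W ⟨b y, y⟩) with hΓy
  have hΓyd : ∀ y, ∀ σ ∈ O y, Γy y σ ∈ ball (0 : V) ρ₀ ∧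
      HasDerivAt (Γy y) (v σ • xi f e (Γy y σ)) σ := by
    intro y σ hσ
    obtain ⟨g1, g2, g3, g4, g5⟩ := hΦ1 y _ hσ.2
    exact ⟨g1, g5.scomp σ ((hW σ hσ.1).sub_const _)⟩
  have hopα : IsOpen {σ : ℂ | α < σ.re} := isOpen_lt continuous_const Complex.continuous_re
  have h0 : ∀ y, Γy y ⟨α', y⟩ = Γ ⟨α', y⟩ := by
    intro y
    have hK : hseg α' (b y) y ⊆ O y ∩ {σ : ℂ | α < σ.re} := by
      rintro _ ⟨x, hx, rfl⟩
      exact ⟨hrayb y x hx.2, by change α < x; linarith [hx.1]⟩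
    refine seg_agree hX ((hOo y).inter hopα) (hvc.mono fun σ hσ => hσ.1.1)
      (fun σ hσ => hΓyd y σ hσ.1) (fun σ hσ => hΓd σ hσ.2 hσ.1.1) hK
      (z₀ := ⟨b y, y⟩) (z := ⟨α', y⟩) ⟨b y, ⟨(hb1 y).le, le_rfl⟩, rfl⟩
      ⟨α', ⟨le_rfl, (hb1 y).le⟩, rfl⟩ ?_
    change Φ y (W ⟨b y, y⟩ - W ⟨b y, y⟩) = _
    rw [sub_self, hΦ0]
  obtain ⟨Γ', hΓ'1, hΓ'2, hΓ'3⟩ := radial_glue hX hαα' hα'β hvc hΓd hOo hOβ
    (fun y b' hb' => hrayb y b' (hb'.trans (hb1 y).le)) hΓyd h0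
  -- properties of the continued solution
  have hconv : Convex ℝ {σ : ℂ | σ.re < β} := convex_halfSpace_re_lt β
  have hfe : ∀ σ : ℂ, σ.re < β → f (Γ' σ) = 0 ∧ e (Γ' σ) = 0 := by
    intro σ hσ
    by_cases h : α' ≤ σ.re
    · rw [hΓ'2 σ h]
      have h3 := hG (Complex.exp σ) ((hgtα _).1 (by linarith)) ((hltβ _).1 hσ)
      exact ⟨h3.2.2.1, h3.2.2.2.1⟩
    · push Not at h
      rw [hΓ'3 σ h.le]
      have h3 : σ ∈ O σ.im := hrayb σ.im σ.re (h.le.trans (hb1 _).le)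
      obtain ⟨g1, g2, g3, g4, g5⟩ := hΦ1 σ.im _ h3.2
      exact ⟨g2, g3⟩
  have hin : ∀ σ : ℂ, σ.re ≤ α' → nsq (Γ' σ) < ρ ^ 2 := by
    intro σ hσ
    rw [hΓ'3 σ hσ]
    have h3 := hmono σ.im σ.re (lt_of_le_of_lt hσ (hb1 _))
    exact hΦ2 σ.im _ h3
  have hne : ∀ σ : ℂ, σ.re < β → Γ' σ ≠ 0 := by
    intro σ hσ h3
    have h4 := sol_unique_na hX hopβ hconv.isPreconnected hvc hΓ'1
      (ψ := fun _ => (0 : V)) (fun z _ => ⟨mem_ball_self (hρ.trans hρρ₀), by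
        rw [hxi0, smul_zero]; exact hasDerivAt_const z 0⟩) hσ h3
    have h5 := h4 (show (⟨b 0, 0⟩ : ℂ) ∈ {σ : ℂ | σ.re < β} from hbβ 0)
    rw [hΓ'2 ⟨b 0, 0⟩ (hb1 0).le] at h5
    have h6 := hb3 0
    rw [h5, nsq_zero] at h6
    have : 0 < ρ ^ 2 := by positivity
    linarith
  -- periodicity
  have hper : ∀ (m : ℤ) (σ : ℂ), σ.re < β → Γ' (σ + m * (2 * Real.pi * Complex.I)) = Γ' σ := by
    intro m
    set T : ℂ := m * (2 * Real.pi * Complex.I) with hT
    have hTre : T.re = 0 := by simp [hT]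
    have hexpT : ∀ σ, Complex.exp (σ + T) = Complex.exp σ := by
      intro σ
      rw [Complex.exp_add, hT, Complex.exp_int_mul_two_pi_mul_I, mul_one]
    have hvT : ∀ σ, v (σ + T) = v σ := by
      intro σ
      simp only [hv, hexpT]
    have h3 := sol_unique_na hX hopβ hconv.isPreconnected hvc
      (φ := fun σ => Γ' (σ + T)) (ψ := Γ') (w₀ := (⟨α', 0⟩ : ℂ))
      (fun σ hσ => by
        have hσT : (σ + T).re < β := by
          rw [Complex.add_re, hTre, add_zero]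
          exact hσ
        refine ⟨(hΓ'1 _ hσT).1, ?_⟩
        have h5 : HasDerivAt (fun σ : ℂ => σ + T) 1 σ := (hasDerivAt_id σ).add_const T
        have h4 := (hΓ'1 _ hσT).2.scomp σ h5
        rw [one_smul, hvT] at h4
        exact h4) hΓ'1 (show (⟨α', 0⟩ : ℂ).re < β from hα'β)
      (by
        have h5 : α' ≤ ((⟨α', 0⟩ : ℂ) + T).re := by
          rw [Complex.add_re, hTre, add_zero]
        rw [hΓ'2 _ h5, hΓ'2 (⟨α', 0⟩ : ℂ) le_rfl]
        simp only [hΓ, hexpT])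
    exact fun σ hσ => h3 hσ
  -- descent to the punctured disc
  set g : ℂ → V := fun s => if s = 0 then 0 else Γ' (Complex.log s) with hg
  have hg0 : g 0 = 0 := if_pos rfl
  have hlogre : ∀ s : ℂ, s ≠ 0 → ‖s‖ < s₂ → (Complex.log s).re < β := by
    intro s hs hs2
    rw [hltβ, Complex.exp_log hs]
    exact hs2
  have hgexp : ∀ σ : ℂ, σ.re < β → g (Complex.exp σ) = Γ' σ := by
    intro σ hσ
    rw [hg]
    simp only [Complex.exp_ne_zero, if_false]
    obtain ⟨m, hm⟩ := Complex.exp_eq_exp_iff_exists_int.1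
      (Complex.exp_log (Complex.exp_ne_zero σ))
    rw [hm]
    exact hper m σ hσ
  have hgd : ∀ s : ℂ, s ≠ 0 → ‖s‖ < s₂ → HasDerivAt g
      ((w s * (s ^ (n + 1))⁻¹) • xi f e (g s)) s := by
    intro s hs hs2
    set σ₀ := Complex.log s with hσ₀
    have hes : Complex.exp σ₀ = s := Complex.exp_log hs
    have hσ₀β : σ₀.re < β := hlogre s hs hs2
    have h3 : HasDerivAt (fun z : ℂ => σ₀ + Complex.log (z / s)) s⁻¹ s := by
      have h4 : HasDerivAt (fun z : ℂ => z / s) (1 / s) s := (hasDerivAt_id s).div_const s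
      have h5 : s / s ∈ Complex.slitPlane := by
        rw [div_self hs]
        exact Complex.one_mem_slitPlane
      have h6 := (h4.clog h5).const_add σ₀
      rw [div_self hs, div_one, one_div] at h6
      exact h6
    have hval : σ₀ + Complex.log (s / s) = σ₀ := by rw [div_self hs, Complex.log_one, add_zero]
    have h7 : HasDerivAt Γ' (v σ₀ • xi f e (Γ' σ₀)) (σ₀ + Complex.log (s / s)) := by
      rw [hval]
      exact (hΓ'1 σ₀ hσ₀β).2
    have h8 := HasDerivAt.scomp (h := fun z : ℂ => σ₀ + Complex.log (z / s)) s h7 h3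
    have h9 : s⁻¹ • v σ₀ • xi f e (Γ' σ₀) = (w s * (s ^ (n + 1))⁻¹) • xi f e (g s) := by
      have h10 : g s = Γ' σ₀ := by rw [← hes, hgexp _ hσ₀β]
      rw [h10, smul_smul, hv]
      simp only [hes]
      congr 1
      rw [pow_succ, mul_inv]
      ring
    rw [h9] at h8
    refine h8.congr_of_eventuallyEq ?_
    have hcont : Tendsto (fun z : ℂ => σ₀ + Complex.log (z / s)) (𝓝 s) (𝓝 σ₀) := by
      have := h3.continuousAt.tendsto
      rwa [hval] at this
    filter_upwards [hcont.eventually (hopβ.mem_nhds hσ₀β), isOpen_ne.mem_nhds hs] with z hz hz0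
    have h11 : Complex.exp (σ₀ + Complex.log (z / s)) = z := by
      rw [Complex.exp_add, hes, Complex.exp_log (div_ne_zero hz0 hs)]
      field_simp
    conv_lhs => rw [← h11]
    exact hgexp _ hz
  have hgball : ∀ s : ℂ, ‖s‖ < s₂ → g s ∈ ball (0 : V) ρ₀ := by
    intro s hs
    by_cases h : s = 0
    · rw [h, hg0]
      exact mem_ball_self (hρ.trans hρρ₀)
    · rw [← Complex.exp_log h, hgexp _ (hlogre s h hs)]
      exact (hΓ'1 _ (hlogre s h hs)).1
  -- the limit at the origin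
  have hray0 : Tendsto (fun x : ℝ => Γ' (⟨x, 0⟩ : ℂ)) atBot (𝓝 0) := by
    set Λ := lam f e (Γ ⟨b 0, 0⟩) with hΛ
    -- lower bound of the velocity
    set K : Set ℂ := (fun x : ℝ => (x : ℂ)) '' Icc 0 (Real.exp (b 0)) with hK
    have hKc : IsCompact K := isCompact_Icc.image Complex.continuous_ofReal
    have hKn : ∀ s ∈ K, ‖s‖ ≤ a₂ := by
      rintro _ ⟨x, hx, rfl⟩
      rw [Complex.norm_real, Real.norm_eq_abs, abs_of_nonneg hx.1]
      exact hx.2.trans ((Real.le_log_iff_exp_le ha₂).1 (hb2 0).le)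
    have hKne : K.Nonempty := ⟨_, 0, ⟨le_rfl, (Real.exp_pos _).le⟩, rfl⟩
    have hKcont : ContinuousOn (fun s => (w s * (Complex.exp ⟨b 0, 0⟩ ^ n)⁻¹ * Λ).re) K := by
      intro s hs
      have h3 : s ∈ ball (0 : ℂ) s₂ := by
        rw [mem_ball, dist_zero_right]
        exact lt_of_le_of_lt (hKn s hs) has
      have h4 := (hw s h3).continuousAt
      exact (Complex.continuous_re.continuousAt.comp
        ((h4.mul continuousAt_const).mul continuousAt_const)).continuousWithinAt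
    obtain ⟨sm, hsm, hmin⟩ := hKc.exists_isMinOn hKne hKcont
    set κ := (w sm * (Complex.exp ⟨b 0, 0⟩ ^ n)⁻¹ * Λ).re with hκ
    have hκ0 : 0 < κ := by
      refine hpos _ ?_ ?_ sm (hKn sm hsm)
      · rw [hexp]
        exact (Real.log_le_iff_le_exp ha₁).1 (hb1 0).le
      · rw [hexp]
        exact (Real.le_log_iff_exp_le ha₂).1 (hb2 0).le
    have hlow : ∀ x : ℝ, x ≤ b 0 → κ ≤ (v ⟨x, 0⟩ * Λ).re := by
      intro x hx
      refine le_trans ?_ (hvpos 0 x hx).1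
      refine hmin ?_
      refine ⟨Real.exp x, ⟨(Real.exp_pos _).le, Real.exp_le_exp.2 hx⟩, ?_⟩
      change ((Real.exp x : ℝ) : ℂ) = _
      rw [Complex.ofReal_exp]
      congr 1
    have hder : ∀ x : ℝ, x ≤ b 0 → HasDerivAt (fun x : ℝ => (W ⟨x, 0⟩ * Λ).re)
        (v ⟨x, 0⟩ * Λ).re x := by
      intro x hx
      have h3 : HasDerivAt (fun x : ℝ => (⟨x, 0⟩ : ℂ)) 1 x := by
        rw [mk_eq]
        exact (Complex.ofRealCLM.hasDerivAt (x := x)).add_const _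
      have h4 : HasDerivAt W (v ⟨x, 0⟩) (⟨x, 0⟩ : ℂ) := hW _ (lt_of_le_of_lt hx (hbβ 0))
      have h5 : HasDerivAt (fun x : ℝ => W ⟨x, 0⟩) (v ⟨x, 0⟩) x := by
        have := HasDerivAt.scomp (h := fun x : ℝ => (⟨x, 0⟩ : ℂ)) x h4 h3
        rw [one_smul] at this
        exact this
      have h6 := h5.mul_const Λ
      exact (Complex.reCLM.hasFDerivAt.comp_hasDerivAt x h6)
    have hgrow : ∀ x : ℝ, x ≤ b 0 →
        κ * (b 0 - x) ≤ (W ⟨b 0, 0⟩ * Λ).re - (W ⟨x, 0⟩ * Λ).re := by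
      intro x hx
      have h3 : MonotoneOn (fun x : ℝ => (W ⟨x, 0⟩ * Λ).re - κ * x) (Iic (b 0)) := by
        refine monotoneOn_of_deriv_nonneg (convex_Iic _)
          (fun x hx => ((hder x hx).continuousAt.sub
            (continuousAt_const.mul continuousAt_id)).continuousWithinAt)
          (fun x hx => ?_) (fun x hx => ?_)
        · rw [interior_Iic] at hx
          exact ((hder x (le_of_lt hx)).sub
            ((hasDerivAt_id x).const_mul κ)).differentiableAt.differentiableWithinAt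
        · rw [interior_Iic] at hx
          have h4 := ((hder x (le_of_lt hx)).sub ((hasDerivAt_id x).const_mul κ)).deriv
          have h5 : deriv (fun x : ℝ => (W ⟨x, 0⟩ * Λ).re - κ * x) x =
              (v ⟨x, 0⟩ * Λ).re - κ * 1 := h4
          rw [h5]
          linarith [hlow x (le_of_lt hx)]
      have h4 := h3 (mem_Iic.2 hx) (mem_Iic.2 le_rfl) hx
      simp only at h4
      linarith
    have hinf : Tendsto (fun x : ℝ => ‖W ⟨x, 0⟩ - W ⟨b 0, 0⟩‖) atBot atTop := by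
      have hΛ0 : 0 < ‖Λ‖ := by
        rw [norm_pos_iff]
        intro h3
        have := (hvpos 0 (b 0) le_rfl).2
        rw [← hΛ, h3, mul_zero] at this
        simp at this
      have h3 : ∀ᶠ x : ℝ in atBot, κ * (b 0 - x) / ‖Λ‖ ≤ ‖W ⟨x, 0⟩ - W ⟨b 0, 0⟩‖ := by
        filter_upwards [eventually_le_atBot (b 0)] with x hx
        rw [div_le_iff₀ hΛ0, ← norm_mul]
        refine (hgrow x hx).trans ?_
        have h4 : (W ⟨b 0, 0⟩ * Λ).re - (W ⟨x, 0⟩ * Λ).re =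
            -((W ⟨x, 0⟩ - W ⟨b 0, 0⟩) * Λ).re := by
          rw [sub_mul, Complex.sub_re]
          ring
        rw [h4]
        have := Complex.abs_re_le_norm ((W ⟨x, 0⟩ - W ⟨b 0, 0⟩) * Λ)
        exact (neg_le_abs _).trans this
      refine tendsto_atTop_mono' _ h3 ?_
      have h5 : Tendsto (fun x : ℝ => b 0 - x) atBot atTop := by
        have h6 : Tendsto (fun x : ℝ => -x) atBot atTop := tendsto_neg_atBot_atTop
        exact (tendsto_atTop_add_const_left _ (b 0) h6).congr fun x => by ring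
      exact (h5.const_mul_atTop hκ0).atTop_div_const hΛ0
    -- conclusion
    have hnsq : Tendsto (fun x : ℝ => nsq (Γ' (⟨x, 0⟩ : ℂ))) atBot (𝓝 0) := by
      rw [Metric.tendsto_nhds]
      intro η hη
      obtain ⟨T, hT⟩ := hΦ3 0 η hη
      filter_upwards [hinf.eventually_ge_atTop T, eventually_le_atBot α'] with x hx1 hx2
      rw [Real.dist_eq, sub_zero, abs_of_nonneg (nsq_nonneg _), hΓ'3 (⟨x, 0⟩ : ℂ) hx2]
      exact hT _ (hmono 0 x (lt_of_le_of_lt hx2 (hb1 0))) hx1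
    rw [tendsto_zero_iff_norm_tendsto_zero]
    have h6 : Tendsto (fun x : ℝ => Real.sqrt (nsq (Γ' (⟨x, 0⟩ : ℂ)))) atBot (𝓝 0) := by
      have := (Real.continuous_sqrt.tendsto 0).comp hnsq
      rw [Real.sqrt_zero] at this
      exact this
    refine squeeze_zero (fun _ => norm_nonneg _) (fun x => ?_) h6
    exact Real.le_sqrt_of_sq_le (norm_sq_le_nsq _)
  have hsub : ball (0 : ℂ) s₂ ∈ 𝓝 (0 : ℂ) := ball_mem_nhds 0 hs₂
  have hgdo : DifferentiableOn ℂ g (ball (0 : ℂ) s₂ \ {0}) := by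
    rintro s ⟨hs, hs0⟩
    rw [mem_ball, dist_zero_right] at hs
    exact (hgd s hs0 hs).differentiableAt.differentiableWithinAt
  have hbdd : BddAbove (norm ∘ g '' (ball (0 : ℂ) s₂ \ {0})) := by
    refine ⟨ρ₀, ?_⟩
    rintro _ ⟨s, ⟨hs, hs0⟩, rfl⟩
    rw [mem_ball, dist_zero_right] at hs
    have := hgball s hs
    rw [mem_ball, dist_zero_right] at this
    exact this.le
  have hupd := Complex.differentiableOn_update_limUnder_of_bddAbove hsub hgdo hbdd
  set l := limUnder (𝓝[≠] (0 : ℂ)) g with hl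
  have hl0 : l = 0 := by
    have h3 : ContinuousAt (Function.update g 0 l) 0 :=
      (hupd.differentiableAt hsub).continuousAt
    have h4 : Tendsto g (𝓝[≠] 0) (𝓝 l) := continuousAt_update_same.1 h3
    have h5 : Tendsto (fun x : ℝ => Complex.exp (⟨x, 0⟩ : ℂ)) atBot (𝓝[≠] 0) := by
      refine tendsto_nhdsWithin_iff.2 ⟨?_, Eventually.of_forall fun x => Complex.exp_ne_zero _⟩
      rw [tendsto_zero_iff_norm_tendsto_zero]
      simp only [hexp]
      exact Real.tendsto_exp_atBot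
    have h6 : Tendsto (fun x : ℝ => Γ' (⟨x, 0⟩ : ℂ)) atBot (𝓝 l) := by
      refine (h4.comp h5).congr' ?_
      filter_upwards [eventually_lt_atBot β] with x hx
      exact hgexp _ hx
    exact tendsto_nhds_unique h6 hray0
  have hgupd : Function.update g 0 l = g := by
    rw [hl0]
    conv_lhs => rw [← hg0]
    exact Function.update_eq_self 0 g
  rw [hgupd] at hupd
  refine ⟨g, hg0, hupd, fun s hs1 hs2 => ?_, fun s hs => ?_, fun s hs => ?_⟩
  · have hs0 : s ≠ 0 := by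
      intro h
      rw [h, norm_zero] at hs1
      linarith
    conv_lhs => rw [← Complex.exp_log hs0]
    rw [hgexp _ (hlogre s hs0 hs2), hΓ'2 _ (by
      rw [hα', Real.log_le_iff_le_exp ha₁, ← hexp, Complex.exp_log hs0]
      exact hs1)]
    simp only [hΓ, Complex.exp_log hs0]
  · rw [mem_ball, dist_zero_right] at hs
    by_cases hs0 : s = 0
    · subst hs0
      rw [hg0]
      refine ⟨mem_ball_self (hρ.trans hρρ₀), ?_, ?_, ?_, fun h => absurd rfl h⟩
      · have h3 : ContinuousAt f 0 := (hf 0 (mem_ball_self (hρ.trans hρρ₀))).continuousAt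
        have h4 : Tendsto (fun x : ℝ => f (Γ' (⟨x, 0⟩ : ℂ))) atBot (𝓝 (f 0)) := h3.tendsto.comp hray0
        refine tendsto_nhds_unique h4 (tendsto_const_nhds.congr' ?_)
        filter_upwards [eventually_lt_atBot β] with x hx
        exact (hfe _ hx).1.symm
      · have h3 : ContinuousAt e 0 := (he 0 (mem_ball_self (hρ.trans hρρ₀))).continuousAt
        have h4 : Tendsto (fun x : ℝ => e (Γ' (⟨x, 0⟩ : ℂ))) atBot (𝓝 (e 0)) := h3.tendsto.comp hray0
        refine tendsto_nhds_unique h4 (tendsto_const_nhds.congr' ?_)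
        filter_upwards [eventually_lt_atBot β] with x hx
        exact (hfe _ hx).2.symm
      · rw [zero_pow (Nat.succ_ne_zero n), zero_smul, hxi0, smul_zero]
    · have hσ := hlogre s hs0 hs
      have h3 : g s = Γ' (Complex.log s) := by
        conv_lhs => rw [← Complex.exp_log hs0]
        exact hgexp _ hσ
      refine ⟨hgball s hs, ?_, ?_, ?_, fun _ => ?_⟩
      · rw [h3]
        exact (hfe _ hσ).1
      · rw [h3]
        exact (hfe _ hσ).2
      · rw [(hgd s hs0 hs).deriv, smul_smul]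
        congr 1
        field_simp
      · rw [h3]
        exact hne _ hσ
  · by_cases hs0 : s = 0
    · rw [hs0, hg0, nsq_zero]
      positivity
    · have h3 : g s = Γ' (Complex.log s) := by
        conv_lhs => rw [← Complex.exp_log hs0]
        exact hgexp _ (hlogre s hs0 (by linarith))
      rw [h3]
      apply hin
      rw [hα', Real.le_log_iff_exp_le ha₁, ← hexp, Complex.exp_log hs0]
      exact hs

end Vale.Agent.P298.H462
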