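import Vale.Agent.P298.H462.Ode

/-!
Uniqueness for `φ' = v X(φ)` in complex time, and radial continuation of solutions.
-/

namespace Vale.Agent.P298.H462

open Filter Topology Metric Set
open scoped NNReal

variable {E : Type*} [NormedAddCommGroup E] [NormedSpace ℂ E] [CompleteSpace E]

/-- Uniqueness for holomorphic ordinary differential equations with a time factor. -/
theorem sol_unique_na {X : E → E} {D : Set E} (hX : ∀ x ∈ D, AnalyticAt ℂ X x) {v : ℂ → ℂ}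
    {U : Set ℂ} (hU : IsOpen U) (hc : IsPreconnected U) (hv : ContinuousOn v U) {φ ψ : ℂ → E}
    (hφ : ∀ w ∈ U, φ w ∈ D ∧ HasDerivAt φ (v w • X (φ w)) w)
    (hψ : ∀ w ∈ U, ψ w ∈ D ∧ HasDerivAt ψ (v w • X (ψ w)) w) {w₀ : ℂ} (hw₀ : w₀ ∈ U)
    (h : φ w₀ = ψ w₀) : EqOn φ ψ U := by
  have hφa : AnalyticOnNhd ℂ φ U := DifferentiableOn.analyticOnNhd
    (fun w hw => (hφ w hw).2.differentiableAt.differentiableWithinAt) hU
  have hψa : AnalyticOnNhd ℂ ψ U := DifferentiableOn.analyticOnNhd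
    (fun w hw => (hψ w hw).2.differentiableAt.differentiableWithinAt) hU
  refine hφa.eqOn_of_preconnected_of_frequently_eq hψa hc hw₀ ?_
  -- the restriction to the real direction
  obtain ⟨K, s, hs, hK⟩ := ((hX _ (hφ w₀ hw₀).1).contDiffAt (n := 1)).exists_lipschitzOnWith
  let _ : NormedSpace ℝ E := NormedSpace.restrictScalars ℝ ℂ E
  have hline : ∀ t : ℝ, HasDerivAt (fun t : ℝ => w₀ + (t : ℂ)) 1 t := fun t =>
    (Complex.ofRealCLM.hasDerivAt (x := t)).const_add w₀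
  have hcl : Tendsto (fun t : ℝ => w₀ + (t : ℂ)) (𝓝 0) (𝓝 w₀) := by
    have : Continuous (fun t : ℝ => w₀ + (t : ℂ)) := by fun_prop
    simpa using this.tendsto 0
  have key : ∀ χ : ℂ → E, (∀ w ∈ U, χ w ∈ D ∧ HasDerivAt χ (v w • X (χ w)) w) → χ w₀ = φ w₀ →
      ∀ᶠ t : ℝ in 𝓝 0, HasDerivAt (fun t : ℝ => χ (w₀ + t)) (v (w₀ + t) • X (χ (w₀ + t))) t ∧
        χ (w₀ + t) ∈ s := by
    intro χ hχ hχ0
    have h1 : ∀ᶠ t : ℝ in 𝓝 0, w₀ + (t : ℂ) ∈ U := hcl.eventually (hU.mem_nhds hw₀)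
    have h2 : ∀ᶠ t : ℝ in 𝓝 0, χ (w₀ + (t : ℂ)) ∈ s := by
      have h3 := (hχ w₀ hw₀).2.continuousAt
      rw [ContinuousAt, hχ0] at h3
      exact (h3.comp hcl).eventually hs
    filter_upwards [h1, h2] with t ht1 ht2
    refine ⟨?_, ht2⟩
    have h4 := (hχ _ ht1).2.scomp t (hline t)
    rw [one_smul] at h4
    exact h4
  obtain ⟨M, hM⟩ : ∃ M : ℝ≥0, ∀ᶠ t : ℝ in 𝓝 0, ‖v (w₀ + t)‖₊ ≤ M := by
    have h3 : ContinuousAt v w₀ := hv.continuousAt (hU.mem_nhds hw₀)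
    have h4 : Tendsto (fun t : ℝ => ‖v (w₀ + t)‖₊) (𝓝 0) (𝓝 ‖v w₀‖₊) :=
      (h3.tendsto.comp hcl).nnnorm
    refine ⟨‖v w₀‖₊ + 1, ?_⟩
    filter_upwards [h4.eventually_lt_const (show ‖v w₀‖₊ < ‖v w₀‖₊ + 1 by simp)] with t ht
    exact ht.le
  have h5 := ODE_solution_unique_of_eventually (v := fun t x => v (w₀ + t) • X x)
    (s := fun _ => s) (K := M * K)
    (t₀ := (0 : ℝ)) (f := fun t : ℝ => φ (w₀ + t)) (g := fun t : ℝ => ψ (w₀ + t))
    (by
      filter_upwards [hM] with t ht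
      have h6 : LipschitzOnWith (‖v (w₀ + t)‖₊ * K) (fun x => v (w₀ + t) • X x) s :=
        (lipschitzWith_smul (v (w₀ + t))).comp_lipschitzOnWith hK
      exact h6.weaken (by gcongr)) (key φ hφ rfl) (key ψ hψ h.symm) (by simpa using h)
  have h6 : ∃ᶠ t : ℝ in 𝓝[≠] 0, φ (w₀ + t) = ψ (w₀ + t) :=
    (h5.filter_mono nhdsWithin_le_nhds).frequently
  have h7 : Tendsto (fun t : ℝ => w₀ + (t : ℂ)) (𝓝[≠] 0) (𝓝[≠] w₀) := by
    refine tendsto_nhdsWithin_iff.2 ⟨hcl.mono_left nhdsWithin_le_nhds, ?_⟩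
    filter_upwards [self_mem_nhdsWithin] with t ht
    simpa using ht
  exact h7.frequently h6

/-- The horizontal segment. -/
def hseg (a b y : ℝ) : Set ℂ := (fun x : ℝ => (⟨x, y⟩ : ℂ)) '' Icc a b

theorem mk_eq (y : ℝ) : (fun x : ℝ => (⟨x, y⟩ : ℂ)) = fun x : ℝ => (x : ℂ) + (y : ℂ) * Complex.I := by
  funext x
  apply Complex.ext <;> simp

theorem isCompact_hseg (a b y : ℝ) : IsCompact (hseg a b y) := by
  unfold hseg
  rw [mk_eq]
  exact isCompact_Icc.image (by fun_prop)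

theorem convex_hseg (a b y : ℝ) : Convex ℝ (hseg a b y) := by
  rintro _ ⟨x, hx, rfl⟩ _ ⟨x', hx', rfl⟩ s t hs ht hst
  refine ⟨s * x + t * x', convex_Icc a b hx hx' hs ht hst, ?_⟩
  apply Complex.ext
  · simp
  · simp [← add_mul, hst]

/-- Agreement of two solutions along a horizontal segment. -/
theorem seg_agree {X : E → E} {D : Set E} (hX : ∀ x ∈ D, AnalyticAt ℂ X x) {v : ℂ → ℂ}
    {U : Set ℂ} (hU : IsOpen U) (hv : ContinuousOn v U) {φ ψ : ℂ → E}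
    (hφ : ∀ w ∈ U, φ w ∈ D ∧ HasDerivAt φ (v w • X (φ w)) w)
    (hψ : ∀ w ∈ U, ψ w ∈ D ∧ HasDerivAt ψ (v w • X (ψ w)) w) {a b y : ℝ}
    (hs : hseg a b y ⊆ U) {z₀ z : ℂ} (hz₀ : z₀ ∈ hseg a b y) (hz : z ∈ hseg a b y)
    (h : φ z₀ = ψ z₀) : φ z = ψ z := by
  obtain ⟨δ, hδ, hδU⟩ := (isCompact_hseg a b y).exists_thickening_subset_open hU hs
  have hself : hseg a b y ⊆ thickening δ (hseg a b y) := self_subset_thickening hδ _
  exact sol_unique_na hX isOpen_thickening ((convex_hseg a b y).thickening δ).isPreconnected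
    (hv.mono hδU) (fun w hw => hφ w (hδU hw)) (fun w hw => hψ w (hδU hw)) (hself hz₀) h (hself hz)

/-- Radial continuation. -/
theorem radial_glue {X : E → E} {D : Set E} (hX : ∀ x ∈ D, AnalyticAt ℂ X x) {v : ℂ → ℂ}
    {β α α' : ℝ} (hα : α < α') (hβ : α' < β) (hv : ContinuousOn v {σ : ℂ | σ.re < β})
    {Γ : ℂ → E} (hΓ : ∀ σ : ℂ, α < σ.re → σ.re < β →
      Γ σ ∈ D ∧ HasDerivAt Γ (v σ • X (Γ σ)) σ)
    {O : ℝ → Set ℂ} (hO : ∀ y, IsOpen (O y)) (hOβ : ∀ y, ∀ σ ∈ O y, σ.re < β)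
    (hray : ∀ y b : ℝ, b ≤ α' → (⟨b, y⟩ : ℂ) ∈ O y)
    {Γy : ℝ → ℂ → E} (hΓy : ∀ y, ∀ σ ∈ O y, Γy y σ ∈ D ∧
      HasDerivAt (Γy y) (v σ • X (Γy y σ)) σ)
    (h0 : ∀ y, Γy y ⟨α', y⟩ = Γ ⟨α', y⟩) :
    ∃ Γ' : ℂ → E, (∀ σ : ℂ, σ.re < β → Γ' σ ∈ D ∧ HasDerivAt Γ' (v σ • X (Γ' σ)) σ) ∧
      (∀ σ : ℂ, α' ≤ σ.re → Γ' σ = Γ σ) ∧ ∀ σ : ℂ, σ.re ≤ α' → Γ' σ = Γy σ.im σ := by
  obtain ⟨Γ', h1, h2⟩ : ∃ Γ' : ℂ → E, (∀ σ : ℂ, α' < σ.re → Γ' σ = Γ σ) ∧
      ∀ σ : ℂ, ¬ α' < σ.re → Γ' σ = Γy σ.im σ :=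
    ⟨fun σ => if α' < σ.re then Γ σ else Γy σ.im σ, fun σ h => if_pos h, fun σ h => if_neg h⟩
  have hopre : IsOpen {σ : ℂ | α' < σ.re} := isOpen_lt continuous_const Complex.continuous_re
  have hopβ : IsOpen {σ : ℂ | σ.re < β} := isOpen_lt Complex.continuous_re continuous_const
  have hopα : IsOpen {σ : ℂ | α < σ.re} := isOpen_lt continuous_const Complex.continuous_re
  refine ⟨Γ', fun σ hσ => ?_, fun σ hσ => ?_, fun σ hσ => h2 σ (not_lt.2 hσ)⟩
  · by_cases hσα : α' < σ.re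
    · rw [h1 σ hσα]
      refine ⟨(hΓ σ (hα.trans hσα) hσ).1, (hΓ σ (hα.trans hσα) hσ).2.congr_of_eventuallyEq ?_⟩
      filter_upwards [hopre.mem_nhds hσα] with z hz
      exact h1 z hz
    · have hσα' : σ.re ≤ α' := not_lt.1 hσα
      rw [h2 σ hσα]
      have hσO : σ ∈ O σ.im := hray σ.im σ.re hσα'
      refine ⟨(hΓy _ σ hσO).1, (hΓy _ σ hσO).2.congr_of_eventuallyEq ?_⟩
      -- a tube around the radial segment
      have hKO : hseg σ.re α' σ.im ⊆ O σ.im := by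
        rintro _ ⟨x, hx, rfl⟩
        exact hray _ _ hx.2
      obtain ⟨δ₀, hδ₀, hδO⟩ := (isCompact_hseg σ.re α' σ.im).exists_thickening_subset_open (hO _) hKO
      set δ := min δ₀ (min (α' - α) (β - α')) with hδ
      have hδpos : 0 < δ := lt_min hδ₀ (lt_min (by linarith) (by linarith))
      have hδ1 : δ ≤ δ₀ := min_le_left _ _
      have hδ2 : δ ≤ α' - α := (min_le_right _ _).trans (min_le_left _ _)
      have hδ3 : δ ≤ β - α' := (min_le_right _ _).trans (min_le_right _ _)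
      set c : ℂ := ⟨α', σ.im⟩ with hc
      have hcK : c ∈ hseg σ.re α' σ.im := ⟨α', ⟨hσα', le_rfl⟩, rfl⟩
      have hball : ∀ z ∈ ball c δ, z ∈ O σ.im ∧ α < z.re ∧ z.re < β := by
        intro z hz
        have hz' : dist z c < δ := hz
        have hre : |z.re - α'| < δ := by
          have : |(z - c).re| ≤ ‖z - c‖ := Complex.abs_re_le_norm _
          rw [← dist_eq_norm] at this
          exact lt_of_le_of_lt this hz'
        rw [abs_lt] at hre
        exact ⟨hδO (mem_thickening_iff.2 ⟨c, hcK, lt_of_lt_of_le hz' hδ1⟩), by linarith, by linarith⟩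
      have hag : ∀ z ∈ ball c δ, Γy σ.im z = Γ z := by
        intro z hz
        exact sol_unique_na hX isOpen_ball (convex_ball c δ).isPreconnected
          (hv.mono fun z hz => (hball z hz).2.2) (fun z hz => hΓy _ z (hball z hz).1)
          (fun z hz => hΓ z (hball z hz).2.1 (hball z hz).2.2) (mem_ball_self hδpos) (h0 _) hz
      filter_upwards [ball_mem_nhds σ hδpos] with z hz
      have hz' : dist z σ < δ := hz
      have hdsq : ∀ p q : ℂ, |p.re - q.re| ≤ |z.re - σ.re| → |p.im - q.im| ≤ |z.im - σ.im| →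
          dist p q < δ := by
        intro p q h3 h4
        refine lt_of_le_of_lt ?_ hz'
        rw [Complex.dist_eq_re_im, Complex.dist_eq_re_im]
        apply Real.sqrt_le_sqrt
        have h5 := sq_le_sq.2 h3
        have h6 := sq_le_sq.2 h4
        linarith
      by_cases hzα : α' < z.re
      · rw [h1 z hzα]
        refine (hag z ?_).symm
        refine hdsq z c ?_ le_rfl
        change |z.re - α'| ≤ |z.re - σ.re|
        rw [abs_of_pos (by linarith), abs_of_pos (by linarith)]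
        linarith
      · rw [h2 z hzα]
        have hzα' : z.re ≤ α' := not_lt.1 hzα
        have hK1 : hseg z.re α' z.im ⊆ O z.im := by
          rintro _ ⟨x, hx, rfl⟩
          exact hray _ _ hx.2
        have hK2 : hseg z.re α' z.im ⊆ O σ.im := by
          rintro _ ⟨x, hx, rfl⟩
          refine hδO (mem_thickening_iff.2 ?_)
          by_cases hxσ : σ.re ≤ x
          · refine ⟨⟨x, σ.im⟩, ⟨x, ⟨hxσ, hx.2⟩, rfl⟩, lt_of_lt_of_le (hdsq _ _ ?_ ?_) hδ1⟩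
            · simp
            · exact le_rfl
          · push Not at hxσ
            refine ⟨⟨σ.re, σ.im⟩, ⟨σ.re, ⟨le_rfl, hσα'⟩, rfl⟩, lt_of_lt_of_le (hdsq _ _ ?_ ?_) hδ1⟩
            · change |x - σ.re| ≤ |z.re - σ.re|
              rw [abs_of_neg (by linarith), abs_of_neg (by linarith [hx.1])]
              linarith [hx.1]
            · exact le_rfl
        have hz1 : (⟨α', z.im⟩ : ℂ) ∈ hseg z.re α' z.im := ⟨α', ⟨hzα', le_rfl⟩, rfl⟩
        have hz2 : z ∈ hseg z.re α' z.im := ⟨z.re, ⟨le_rfl, hzα'⟩, rfl⟩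
        refine seg_agree hX ((hO z.im).inter (hO σ.im)) (hv.mono fun z hz => hOβ _ z hz.1)
          (fun w hw => hΓy _ w hw.1) (fun w hw => hΓy _ w hw.2)
          (subset_inter hK1 hK2) hz1 hz2 ?_
        rw [h0, hag]
        refine hdsq _ _ ?_ le_rfl
        simp [hc]
  · rcases hσ.lt_or_eq with h | h
    · exact h1 σ h
    · rw [h2 σ (by rw [← h]; exact lt_irrefl _)]
      have h3 : σ = ⟨α', σ.im⟩ := Complex.ext h.symm rfl
      conv_lhs => rw [h3]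
      conv_rhs => rw [h3]
      exact h0 _

end Vale.Agent.P298.H462
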