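import Vale.Agent.P298.H462.Ode
import Vale.Agent.P298.H462.Defs

/-!
Maximal half planes of solutions of holomorphic differential equations.
-/

namespace Vale.Agent.P298.H462

open Filter Topology Metric Set

theorem continuous_nsq : Continuous nsq := by
  unfold nsq
  fun_prop

theorem nsq_nonneg (x : V) : 0 ≤ nsq x := Finset.sum_nonneg fun _ _ => by positivity

theorem norm_sq_le_nsq (x : V) : ‖x‖ ^ 2 ≤ nsq x := by
  have h : ∀ k, ‖x k‖ ^ 2 ≤ nsq x := fun k =>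
    Finset.single_le_sum (f := fun k => ‖x k‖ ^ 2) (fun _ _ => by positivity) (Finset.mem_univ k)
  have h2 : ‖x‖ ≤ Real.sqrt (nsq x) := by
    rw [pi_norm_le_iff_of_nonneg (Real.sqrt_nonneg _)]
    intro k
    exact Real.le_sqrt_of_sq_le (h k)
  calc ‖x‖ ^ 2 ≤ Real.sqrt (nsq x) ^ 2 := by gcongr
    _ = nsq x := Real.sq_sqrt (nsq_nonneg x)

theorem nsq_le (x : V) : nsq x ≤ 3 * ‖x‖ ^ 2 := by
  unfold nsq
  calc ∑ k, ‖x k‖ ^ 2 ≤ ∑ _k : Fin 3, ‖x‖ ^ 2 := by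
        refine Finset.sum_le_sum fun k _ => ?_
        have := norm_le_pi_norm x k
        gcongr
    _ = 3 * ‖x‖ ^ 2 := by simp

theorem nsq_eq_zero {x : V} (h : nsq x = 0) : x = 0 := by
  have := norm_sq_le_nsq x
  rw [h] at this
  have h2 : ‖x‖ = 0 := by nlinarith [norm_nonneg x]
  exact norm_eq_zero.1 h2

theorem nsq_zero : nsq 0 = 0 := by simp [nsq]

theorem nsq_pos {x : V} (h : x ≠ 0) : 0 < nsq x :=
  lt_of_le_of_ne (nsq_nonneg x) fun h2 => h (nsq_eq_zero h2.symm)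

theorem norm_le_of_nsq_le {x : V} {ρ : ℝ} (hρ : 0 ≤ ρ) (h : nsq x ≤ ρ ^ 2) : ‖x‖ ≤ ρ :=
  abs_le_of_sq_le_sq' ((norm_sq_le_nsq x).trans h) hρ |>.2

theorem isCompact_nsq_le (r : ℝ) : IsCompact {x : V | nsq x ≤ r} := by
  refine Metric.isCompact_of_isClosed_isBounded (isClosed_le continuous_nsq continuous_const) ?_
  refine (isBounded_iff_subset_closedBall 0).2 ⟨Real.sqrt (max r 0), fun x hx => ?_⟩
  rw [mem_closedBall, dist_zero_right]
  refine norm_le_of_nsq_le (Real.sqrt_nonneg _) ?_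
  rw [Real.sq_sqrt (le_max_right _ _)]
  exact le_trans hx (le_max_left _ _)

section general

variable {E : Type*} [NormedAddCommGroup E] [NormedSpace ℂ E] [FiniteDimensional ℂ E]

/-- Uniform local existence. -/
theorem local_unif {X : E → E} {O K : Set E} (hO : IsOpen O) (hX : ∀ x ∈ O, AnalyticAt ℂ X x)
    (hK : IsCompact K) (hKO : K ⊆ O) :
    ∃ ε > 0, ∀ q ∈ K, ∀ w₁ : ℂ, ∃ ψ : ℂ → E, ψ w₁ = q ∧ ∀ w ∈ ball w₁ ε,
      ψ w ∈ O ∧ HasDerivAt ψ (X (ψ w)) w := by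
  have : CompleteSpace E := FiniteDimensional.complete ℂ E
  have : ProperSpace E := FiniteDimensional.proper ℂ E
  obtain ⟨a, ha, haO⟩ := hK.exists_cthickening_subset_open hO hKO
  have hC : IsCompact (cthickening a K) := hK.cthickening
  obtain ⟨M, hM⟩ := hC.exists_bound_of_continuousOn (f := X)
    fun x hx => (hX x (haO hx)).continuousAt.continuousWithinAt
  obtain ⟨L, hL⟩ := hC.exists_bound_of_continuousOn (f := fderiv ℂ X)
    fun x hx => (hX x (haO hx)).fderiv.continuousAt.continuousWithinAt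
  have hsub : ∀ q ∈ K, closedBall q a ⊆ cthickening a K := fun q hq =>
    closedBall_subset_cthickening hq a
  set M' := max M 0 with hM'
  set L' := max L 0 with hL'
  have hM0 : 0 ≤ M' := le_max_right _ _
  have hL0 : 0 ≤ L' := le_max_right _ _
  set ε := min (a / (M' + 1)) (1 / (2 * (L' + 1))) with hε
  have hεpos : 0 < ε := lt_min (by positivity) (by positivity)
  refine ⟨ε, hεpos, fun q hq w₁ => ?_⟩
  obtain ⟨φ, h0, hφ⟩ := exists_sol (X := X) (q := q) (a := a) (K := L') (M := M') (ε := ε) ha hεpos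
    hL0 (fun x hx => (hM x (hsub q hq hx)).trans (le_max_left _ _))
    (fun x hx y hy => by
      have := (convex_closedBall q a).norm_image_sub_le_of_norm_fderiv_le (𝕜 := ℂ) (f := X)
        (C := L') (fun z hz => (hX z (haO (hsub q hq hz))).differentiableAt)
        (fun z hz => (hL z (hsub q hq hz)).trans (le_max_left _ _)) hy hx
      exact this)
    (fun x hx => (hX x (haO (hsub q hq hx))).differentiableAt)
    (by
      calc M' * ε ≤ (M' + 1) * (a / (M' + 1)) := by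
            have := min_le_left (a / (M' + 1)) (1 / (2 * (L' + 1)))
            gcongr
            linarith
        _ = a := by field_simp)
    (by
      calc L' * ε ≤ (L' + 1) * (1 / (2 * (L' + 1))) := by
            have := min_le_right (a / (M' + 1)) (1 / (2 * (L' + 1)))
            gcongr
            linarith
        _ = 1 / 2 := by field_simp)
  refine ⟨fun w => φ (w - w₁), by simpa using h0, fun w hw => ?_⟩
  have hw' : w - w₁ ∈ ball (0 : ℂ) ε := by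
    rw [mem_ball, dist_zero_right]
    rwa [mem_ball, dist_eq_norm] at hw
  refine ⟨haO (hsub q hq (hφ _ hw').1), ?_⟩
  have h3 := (hφ _ hw').2.scomp w ((hasDerivAt_id w).sub_const w₁)
  rw [one_smul] at h3
  exact h3

end general

section half

variable {X : V → V} {D : Set V} {ρ : ℝ} {φ : ℂ → V}

/-- `φ` extends to a solution on the half plane `Im w > m`. -/
def Ext (X : V → V) (ρ : ℝ) (φ : ℂ → V) (m : ℝ) (φ' : ℂ → V) : Prop :=
  (∀ w : ℂ, 0 < w.im → φ' w = φ w) ∧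
    ∀ w : ℂ, m < w.im → nsq (φ' w) < ρ ^ 2 ∧ HasDerivAt φ' (X (φ' w)) w

theorem isOpen_nsq_lt (r : ℝ) : IsOpen {x : V | nsq x < r} :=
  isOpen_lt continuous_nsq continuous_const

theorem isOpen_im_gt (m : ℝ) : IsOpen {w : ℂ | m < w.im} :=
  isOpen_lt continuous_const Complex.continuous_im

theorem convex_im_gt (m : ℝ) : Convex ℝ {w : ℂ | m < w.im} := convex_halfSpace_im_gt m

theorem ext_unique (hX : ∀ x : V, nsq x ≤ ρ ^ 2 → AnalyticAt ℂ X x) {m₁ m₂ : ℝ} {φ₁ φ₂ : ℂ → V}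
    (h₁ : Ext X ρ φ m₁ φ₁) (h₂ : Ext X ρ φ m₂ φ₂) (hm₁ : m₁ ≤ 0) (hm₂ : m₂ ≤ 0) {w : ℂ}
    (hw₁ : m₁ < w.im) (hw₂ : m₂ < w.im) : φ₁ w = φ₂ w := by
  have := sol_unique (X := X) (D := {x | nsq x < ρ ^ 2}) (fun x hx => hX x (le_of_lt hx))
    (U := {w : ℂ | max m₁ m₂ < w.im}) (isOpen_im_gt _) (convex_im_gt _).isPreconnected
    (φ := φ₁) (ψ := φ₂) (w₀ := Complex.I)
    (fun w hw => h₁.2 w (lt_of_le_of_lt (le_max_left _ _) hw))
    (fun w hw => h₂.2 w (lt_of_le_of_lt (le_max_right _ _) hw))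
    (by
      change max m₁ m₂ < Complex.I.im
      rw [Complex.I_im]
      exact lt_of_le_of_lt (max_le hm₁ hm₂) one_pos)
    (by rw [h₁.1 _ (by simp), h₂.1 _ (by simp)])
  exact this (max_lt hw₁ hw₂)

/-- Gluing of extensions. -/
theorem ext_glue (hX : ∀ x : V, nsq x ≤ ρ ^ 2 → AnalyticAt ℂ X x) {S : Set ℂ}
    (h : ∀ w ∈ S, ∃ m, m ≤ 0 ∧ m < w.im ∧ ∃ φ', Ext X ρ φ m φ') (hS : IsOpen S) :
    ∃ φ' : ℂ → V, (∀ w ∈ S, 0 < w.im → φ' w = φ w) ∧
      ∀ w ∈ S, nsq (φ' w) < ρ ^ 2 ∧ HasDerivAt φ' (X (φ' w)) w := by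
  choose! m hm0 hm g hg using h
  refine ⟨fun w => g w w, fun w hw h0 => (hg w hw).1 w h0, fun w hw => ?_⟩
  refine ⟨((hg w hw).2 w (hm w hw)).1, ?_⟩
  refine ((hg w hw).2 w (hm w hw)).2.congr_of_eventuallyEq ?_
  filter_upwards [hS.mem_nhds hw, (isOpen_im_gt (m w)).mem_nhds (hm w hw)] with w' hw' hw''
  exact ext_unique hX (hg w' hw') (hg w hw) (hm0 w' hw') (hm0 w hw) (hm w' hw') hw''

/-- Linear bound. -/
theorem exists_lin (hX : ∀ x : V, nsq x ≤ ρ ^ 2 → AnalyticAt ℂ X x) (hX0 : X 0 = 0) :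
    ∃ L, 0 ≤ L ∧ ∀ x : V, nsq x ≤ ρ ^ 2 → ‖X x‖ ≤ L * ‖x‖ := by
  obtain ⟨C, hC⟩ := ((hX 0 (by rw [nsq_zero]; positivity)).differentiableAt.isBigO_sub).bound
  simp only [hX0, sub_zero] at hC
  obtain ⟨r, hr, hrC⟩ := Metric.eventually_nhds_iff.1 hC
  obtain ⟨M, hM⟩ := (isCompact_nsq_le (ρ ^ 2)).exists_bound_of_continuousOn (f := X)
    fun x hx => (hX x hx).continuousAt.continuousWithinAt
  refine ⟨max (max C (M / r)) 0, le_max_right _ _, fun x hx => ?_⟩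
  by_cases h : ‖x‖ < r
  · refine (hrC (by rwa [dist_zero_right])).trans ?_
    gcongr
    exact (le_max_left _ _).trans (le_max_left _ _)
  · push Not at h
    have hM0 : 0 ≤ M := (norm_nonneg _).trans (hM x hx)
    calc ‖X x‖ ≤ M := hM x hx
      _ = M / r * r := by field_simp
      _ ≤ M / r * ‖x‖ := by gcongr
      _ ≤ _ := by
        gcongr
        exact (le_max_right _ _).trans (le_max_left _ _)

/-- Gronwall: the values at height `Im w` are controlled by those higher up. -/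
theorem gron {L : ℝ} (hL : ∀ x : V, nsq x ≤ ρ ^ 2 → ‖X x‖ ≤ L * ‖x‖) {m : ℝ}
    {φ' : ℂ → V} (h : ∀ w : ℂ, m < w.im → nsq (φ' w) < ρ ^ 2 ∧ HasDerivAt φ' (X (φ' w)) w)
    {T₀ : ℝ} (hT₀ : 0 ≤ T₀) {w : ℂ} (hw : m < w.im) :
    ‖φ' w‖ ≤ ‖φ' (w + T₀ * Complex.I)‖ * Real.exp (L * T₀) := by
  have him : ∀ t : ℝ, t ≤ T₀ → m < (w + ((T₀ - t : ℝ) : ℂ) * Complex.I).im := by
    intro t ht
    simp
    linarith
  have hder : ∀ t : ℝ, t ≤ T₀ → HasDerivAt (fun t : ℝ => φ' (w + ((T₀ - t : ℝ) : ℂ) * Complex.I))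
      ((-Complex.I) • X (φ' (w + ((T₀ - t : ℝ) : ℂ) * Complex.I))) t := by
    intro t ht
    have h1 : HasDerivAt (fun t : ℝ => w + ((T₀ - t : ℝ) : ℂ) * Complex.I) (-Complex.I) t := by
      have h2 : HasDerivAt (fun t : ℝ => ((T₀ - t : ℝ) : ℂ)) (-1) t := by
        have := ((hasDerivAt_id t).const_sub T₀).ofReal_comp
        simpa using this
      have := (h2.mul_const Complex.I).const_add w
      simpa using this
    exact (h _ (him t ht)).2.scomp t h1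
  have := norm_le_gronwallBound_of_norm_deriv_right_le
    (f := fun t : ℝ => φ' (w + ((T₀ - t : ℝ) : ℂ) * Complex.I))
    (f' := fun t : ℝ => (-Complex.I) • X (φ' (w + ((T₀ - t : ℝ) : ℂ) * Complex.I)))
    (δ := ‖φ' (w + T₀ * Complex.I)‖) (K := L) (ε := 0) (a := 0) (b := T₀)
    (fun t ht => (hder t ht.2).continuousAt.continuousWithinAt)
    (fun t ht => (hder t ht.2.le).hasDerivWithinAt)
    (by simp)
    (fun t ht => by
      rw [norm_smul, norm_neg, Complex.norm_I, one_mul, add_zero]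
      exact hL _ (h _ (him t ht.2.le)).1.le) T₀ ⟨hT₀, le_rfl⟩
  simpa [gronwallBound_ε0] using this

/-- A solution on a half plane which tends to `0` at infinity is not constant. -/
theorem ext_bddBelow (hX : ∀ x : V, nsq x ≤ ρ ^ 2 → AnalyticAt ℂ X x)
    (h0 : ∀ w : ℂ, 0 < w.im → φ w ≠ 0)
    (hinf : ∀ η > 0, ∃ T : ℝ, ∀ w : ℂ, 0 < w.im → T ≤ ‖w‖ → nsq (φ w) < η) :
    BddBelow {m : ℝ | m ≤ 0 ∧ ∃ φ', Ext X ρ φ m φ'} := by
  by_contra hb
  rw [not_bddBelow_iff] at hb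
  obtain ⟨Φ, hΦ1, hΦ2⟩ := ext_glue (X := X) (ρ := ρ) (φ := φ) hX (S := univ) (fun w _ => by
    obtain ⟨m, ⟨hm0, φ', hφ'⟩, hm⟩ := hb w.im
    exact ⟨m, hm0, hm, φ', hφ'⟩) isOpen_univ
  have hd : Differentiable ℂ Φ := fun w => (hΦ2 w (mem_univ _)).2.differentiableAt
  have hbd : Bornology.IsBounded (range Φ) := by
    refine (isCompact_nsq_le (ρ ^ 2)).isBounded.subset ?_
    rintro _ ⟨w, rfl⟩
    exact (hΦ2 w (mem_univ _)).1.le
  have hc := hd.apply_eq_apply_of_bounded hbd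
  obtain ⟨T, hT⟩ := hinf (nsq (φ Complex.I)) (nsq_pos (h0 _ (by simp)))
  set w : ℂ := ((|T| + 1 : ℝ) : ℂ) * Complex.I with hw
  have hwim : w.im = |T| + 1 := by simp [hw]
  have hwn : ‖w‖ = |T| + 1 := by
    rw [hw, norm_mul, Complex.norm_I, mul_one, Complex.norm_real, Real.norm_eq_abs,
      abs_of_nonneg (by positivity)]
  have h1 : 0 < w.im := by rw [hwim]; positivity
  have h2 := hT w h1 (by rw [hwn]; linarith [le_abs_self T])
  rw [← hΦ1 w (mem_univ _) h1, ← hΦ1 Complex.I (mem_univ _) (by simp), hc w Complex.I] at h2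
  exact lt_irrefl _ h2

/-- Extension across a line on which the solution stays away from the sphere. -/
theorem ext_step (hX : ∀ x : V, nsq x ≤ ρ ^ 2 → AnalyticAt ℂ X x) {m : ℝ} (hm : m ≤ 0)
    {φ' : ℂ → V} (h : Ext X ρ φ m φ') {η r : ℝ} (hη : 0 < η) (hr : r < ρ ^ 2)
    (hb : ∀ w : ℂ, m < w.im → w.im ≤ m + η → nsq (φ' w) ≤ r) :
    ∃ m' < m, ∃ φ'', Ext X ρ φ m' φ'' := by
  obtain ⟨ε, hε, hloc⟩ := local_unif (X := X) (O := {x | nsq x < ρ ^ 2}) (K := {x | nsq x ≤ r})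
    (isOpen_nsq_lt _) (fun x hx => hX x (le_of_lt hx)) (isCompact_nsq_le r)
    (fun x hx => lt_of_le_of_lt hx hr)
  set κ := min η (ε / 4) with hκ
  have hκ0 : 0 < κ := lt_min hη (by positivity)
  have hκη : κ ≤ η := min_le_left _ _
  have hκε : κ ≤ ε / 4 := min_le_right _ _
  have hex : ∀ x : ℝ, ∃ ψ : ℂ → V, ψ ⟨x, m + κ⟩ = φ' ⟨x, m + κ⟩ ∧ ∀ w ∈ ball (⟨x, m + κ⟩ : ℂ) ε,
      nsq (ψ w) < ρ ^ 2 ∧ HasDerivAt ψ (X (ψ w)) w := fun x =>
    hloc _ (hb ⟨x, m + κ⟩ (by change m < m + κ; linarith) (by change m + κ ≤ m + η; linarith)) _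
  choose ψ hψ0 hψ using hex
  -- agreement with the given solution
  have c1 : ∀ x : ℝ, ∀ w ∈ ball (⟨x, m + κ⟩ : ℂ) ε, m < w.im → ψ x w = φ' w := by
    intro x w hw hwm
    have := sol_unique (X := X) (D := {x | nsq x < ρ ^ 2}) (fun x hx => hX x (le_of_lt hx))
      (U := ball (⟨x, m + κ⟩ : ℂ) ε ∩ {w : ℂ | m < w.im}) (isOpen_ball.inter (isOpen_im_gt _))
      ((convex_ball _ _).inter (convex_im_gt _)).isPreconnected
      (φ := ψ x) (ψ := φ') (w₀ := ⟨x, m + κ⟩)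
      (fun w hw => hψ x w hw.1) (fun w hw => h.2 w hw.2)
      ⟨mem_ball_self hε, by change m < m + κ; linarith⟩ (hψ0 x)
    exact this ⟨hw, hwm⟩
  have hdist : ∀ x : ℝ, ∀ w : ℂ, w.re = x → dist w (⟨x, m + κ⟩ : ℂ) = |w.im - (m + κ)| := by
    intro x w hwx
    have : w - (⟨x, m + κ⟩ : ℂ) = ((w.im - (m + κ) : ℝ) : ℂ) * Complex.I := by
      apply Complex.ext
      · simp [hwx]
      · simp
    rw [dist_eq_norm, this, norm_mul, Complex.norm_I, mul_one, Complex.norm_real,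
      Real.norm_eq_abs]
  have hself : ∀ w : ℂ, m - κ < w.im → w.im ≤ m → w ∈ ball (⟨w.re, m + κ⟩ : ℂ) ε := by
    intro w h1 h2
    rw [mem_ball, hdist _ w rfl, abs_lt]
    constructor <;> linarith
  obtain ⟨χ, hχ1, hχ2⟩ : ∃ χ : ℂ → V, (∀ w : ℂ, m < w.im → χ w = φ' w) ∧
      ∀ w : ℂ, ¬ m < w.im → χ w = ψ w.re w :=
    ⟨fun w => if m < w.im then φ' w else ψ w.re w, fun w hw => if_pos hw, fun w hw => if_neg hw⟩
  refine ⟨m - κ, by linarith, χ, ?_, ?_⟩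
  · intro w hw
    rw [hχ1 w (lt_of_le_of_lt hm hw)]
    exact h.1 w hw
  · intro w hw
    by_cases hwm : m < w.im
    · rw [hχ1 w hwm]
      refine ⟨(h.2 w hwm).1, (h.2 w hwm).2.congr_of_eventuallyEq ?_⟩
      filter_upwards [(isOpen_im_gt m).mem_nhds hwm] with w' hw'
      rw [hχ1 w' hw']
    · rw [hχ2 w hwm]
      push Not at hwm
      have hwb := hself w hw hwm
      refine ⟨(hψ w.re w hwb).1, (hψ w.re w hwb).2.congr_of_eventuallyEq ?_⟩
      have hopen : IsOpen {w' : ℂ | m - κ < w'.im ∧ dist (⟨w'.re, m + κ⟩ : ℂ) ⟨w.re, m + κ⟩ < ε} := by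
        refine (isOpen_im_gt _).inter ?_
        have hcont : Continuous fun w' : ℂ => (⟨w'.re, m + κ⟩ : ℂ) := by
          have : (fun w' : ℂ => (⟨w'.re, m + κ⟩ : ℂ)) =
              fun w' : ℂ => (w'.re : ℂ) + ((m + κ : ℝ) : ℂ) * Complex.I := by
            funext w'
            apply Complex.ext <;> simp
          rw [this]
          fun_prop
        exact isOpen_lt (hcont.dist continuous_const) continuous_const
      filter_upwards [hopen.mem_nhds ⟨hw, by simpa using hε⟩, isOpen_ball.mem_nhds hwb]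
        with w' hw' hwb'
      by_cases hw'm : m < w'.im
      · rw [hχ1 w' hw'm]
        exact (c1 w.re w' hwb' hw'm).symm
      · rw [hχ2 w' hw'm]
        push Not at hw'm
        have hz : (⟨w'.re, m + κ⟩ : ℂ) ∈ ball (⟨w.re, m + κ⟩ : ℂ) ε := hw'.2
        have := sol_unique (X := X) (D := {x | nsq x < ρ ^ 2}) (fun x hx => hX x (le_of_lt hx))
          (U := ball (⟨w'.re, m + κ⟩ : ℂ) ε ∩ ball (⟨w.re, m + κ⟩ : ℂ) ε)
          (isOpen_ball.inter isOpen_ball) ((convex_ball _ _).inter (convex_ball _ _)).isPreconnected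
          (φ := ψ w'.re) (ψ := ψ w.re) (w₀ := ⟨w'.re, m + κ⟩)
          (fun w hw => hψ _ w hw.1) (fun w hw => hψ _ w hw.2)
          ⟨mem_ball_self hε, hz⟩
          (by rw [hψ0, c1 w.re _ hz (by change m < m + κ; linarith)])
        exact this ⟨hself w' hw'.1 hw'm, hwb'⟩

/-- The maximal half plane. -/
theorem exists_maximal {D : Set V} (hD : IsOpen D) (hXD : ∀ x ∈ D, AnalyticAt ℂ X x)
    (hsub : ∀ x : V, nsq x ≤ ρ ^ 2 → x ∈ D) (hX0 : X 0 = 0) (hρ : 0 < ρ)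
    (hφ : ∀ w : ℂ, 0 < w.im → nsq (φ w) < ρ ^ 2 ∧ φ w ≠ 0 ∧ HasDerivAt φ (X (φ w)) w)
    (hinf : ∀ η > 0, ∃ T : ℝ, ∀ w : ℂ, 0 < w.im → T ≤ ‖w‖ → nsq (φ w) < η) :
    ∃ (m : ℝ) (φ' : ℂ → V) (w₀ : ℂ) (ε : ℝ) (ψ : ℂ → V), m ≤ 0 ∧ w₀.im = m ∧ 0 < ε ∧
      (∀ w : ℂ, 0 < w.im → φ' w = φ w) ∧
      (∀ w : ℂ, m < w.im → nsq (φ' w) < ρ ^ 2 ∧ φ' w ≠ 0 ∧ HasDerivAt φ' (X (φ' w)) w) ∧
      (∀ η > 0, ∃ T : ℝ, ∀ w : ℂ, m < w.im → T ≤ ‖w‖ → nsq (φ' w) < η) ∧
      nsq (ψ w₀) = ρ ^ 2 ∧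
      ∀ w ∈ ball w₀ ε, ψ w ∈ D ∧ HasDerivAt ψ (X (ψ w)) w ∧ (m < w.im → ψ w = φ' w) := by
  have hX : ∀ x : V, nsq x ≤ ρ ^ 2 → AnalyticAt ℂ X x := fun x hx => hXD x (hsub x hx)
  set A : Set ℝ := {m : ℝ | m ≤ 0 ∧ ∃ φ', Ext X ρ φ m φ'} with hA
  have h0A : (0 : ℝ) ∈ A := ⟨le_rfl, φ, fun _ _ => rfl, fun w hw => ⟨(hφ w hw).1, (hφ w hw).2.2⟩⟩
  have hbdd : BddBelow A := ext_bddBelow hX (fun w hw => (hφ w hw).2.1) hinf
  set m := sInf A with hm
  have hm0 : m ≤ 0 := csInf_le hbdd h0A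
  obtain ⟨φ', hφ'1, hφ'2⟩ := ext_glue (X := X) (ρ := ρ) (φ := φ) hX (S := {w : ℂ | m < w.im})
    (fun w hw => by
      obtain ⟨m', hm'A, hm'⟩ := exists_lt_of_csInf_lt ⟨0, h0A⟩ hw
      exact ⟨m', hm'A.1, hm', hm'A.2⟩) (isOpen_im_gt _)
  have hE : Ext X ρ φ m φ' := ⟨fun w hw => hφ'1 w (lt_of_le_of_lt hm0 hw) hw, hφ'2⟩
  obtain ⟨L, hL0, hL⟩ := exists_lin hX hX0
  -- behaviour at infinity
  set T₀ : ℝ := 1 - m with hT₀
  have hT₀p : 0 < T₀ := by linarith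
  set C : ℝ := Real.exp (L * T₀) with hC
  have hCpos : 0 < C := Real.exp_pos _
  have hgr : ∀ w : ℂ, m < w.im → ‖φ' w‖ ≤ ‖φ (w + T₀ * Complex.I)‖ * C := by
    intro w hw
    have h1 := gron hL hφ'2 hT₀p.le hw
    rwa [hE.1 (w + T₀ * Complex.I) (by simp; linarith)] at h1
  have hinf' : ∀ η > 0, ∃ T : ℝ, ∀ w : ℂ, m < w.im → T ≤ ‖w‖ → nsq (φ' w) < η := by
    intro η hη
    obtain ⟨T, hT⟩ := hinf (η / (3 * C ^ 2)) (by positivity)
    refine ⟨T + T₀, fun w hw hwT => ?_⟩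
    have h1 : T ≤ ‖w + T₀ * Complex.I‖ := by
      have := norm_sub_le (w + T₀ * Complex.I) (T₀ * Complex.I)
      rw [add_sub_cancel_right, norm_mul, Complex.norm_I, mul_one, Complex.norm_real,
        Real.norm_eq_abs, abs_of_pos hT₀p] at this
      linarith
    have h2 := hT (w + T₀ * Complex.I) (by simp; linarith) h1
    calc nsq (φ' w) ≤ 3 * ‖φ' w‖ ^ 2 := nsq_le _
      _ ≤ 3 * (‖φ (w + T₀ * Complex.I)‖ * C) ^ 2 := by
        have := hgr w hw
        gcongr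
      _ = 3 * C ^ 2 * ‖φ (w + T₀ * Complex.I)‖ ^ 2 := by ring
      _ ≤ 3 * C ^ 2 * nsq (φ (w + T₀ * Complex.I)) := by
        have := norm_sq_le_nsq (φ (w + T₀ * Complex.I))
        gcongr
      _ < 3 * C ^ 2 * (η / (3 * C ^ 2)) := by gcongr
      _ = η := by field_simp
  -- the solution does not vanish
  have hne : ∀ w : ℂ, m < w.im → φ' w ≠ 0 := by
    intro w hw hw0
    have := sol_unique (X := X) (D := {x | nsq x < ρ ^ 2}) (fun x hx => hX x (le_of_lt hx))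
      (U := {w : ℂ | m < w.im}) (isOpen_im_gt _) (convex_im_gt _).isPreconnected
      (φ := φ') (ψ := fun _ => 0) (w₀ := w) hφ'2
      (fun w _ => ⟨by change nsq 0 < ρ ^ 2; rw [nsq_zero]; positivity, by
        rw [hX0]; exact hasDerivAt_const w 0⟩) hw hw0
    have h1 := this (show m < (Complex.I).im by rw [Complex.I_im]; linarith)
    rw [hE.1 _ (by simp)] at h1
    exact (hφ _ (by simp)).2.1 h1
  -- points near the line at which the norm is almost maximal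
  have hseq : ∀ n : ℕ, ∃ w : ℂ, m < w.im ∧ w.im ≤ m + 1 / (n + 1) ∧
      ρ ^ 2 - 1 / (n + 1) < nsq (φ' w) := by
    intro n
    by_contra hcon
    push Not at hcon
    obtain ⟨m', hm', hEx⟩ := ext_step hX hm0 hE (η := 1 / (n + 1)) (r := ρ ^ 2 - 1 / (n + 1))
      (by positivity) (by have : (0 : ℝ) < 1 / (n + 1) := by positivity
                          linarith) (fun w hw1 hw2 => hcon w hw1 hw2)
    have : m ≤ m' := csInf_le hbdd ⟨by linarith, hEx⟩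
    linarith
  choose w hw1 hw2 hw3 using hseq
  obtain ⟨T, hT⟩ := hinf' (ρ ^ 2 / 2) (by positivity)
  have hlim0 : Tendsto (fun n : ℕ => 1 / ((n : ℝ) + 1)) atTop (𝓝 0) :=
    tendsto_one_div_add_atTop_nhds_zero_nat
  have hbw : ∃ᶠ n in atTop, w n ∈ closedBall (0 : ℂ) T := by
    refine Eventually.frequently ?_
    filter_upwards [hlim0.eventually_lt_const (show 0 < ρ ^ 2 / 2 by positivity)] with n hn
    rw [mem_closedBall, dist_zero_right]
    by_contra hcon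
    push Not at hcon
    have h1 := hT (w n) (hw1 n) hcon.le
    have h2 := hw3 n
    linarith
  obtain ⟨w₀, -, θ, hθ, hlim⟩ := (isCompact_closedBall (0 : ℂ) T).tendsto_subseq' hbw
  have hθa := hθ.tendsto_atTop
  have him : w₀.im = m := by
    have h1 : Tendsto (fun n => (w (θ n)).im) atTop (𝓝 w₀.im) :=
      (Complex.continuous_im.tendsto w₀).comp hlim
    have h2 : Tendsto (fun n => (w (θ n)).im) atTop (𝓝 m) := by
      refine tendsto_of_tendsto_of_tendsto_of_le_of_le tendsto_const_nhds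
        (h := fun n => m + 1 / ((θ n : ℝ) + 1)) ?_ (fun n => (hw1 _).le) (fun n => hw2 _)
      have := (hlim0.comp hθa).const_add m
      simpa using this
    exact tendsto_nhds_unique h1 h2
  obtain ⟨ε, hε, hloc⟩ := local_unif (X := X) (O := D) (K := {x | nsq x ≤ ρ ^ 2}) hD hXD
    (isCompact_nsq_le _) hsub
  obtain ⟨N, hN⟩ := (hlim.eventually (ball_mem_nhds w₀ (show 0 < ε / 2 by positivity))).exists
  set z := w (θ N) with hz
  obtain ⟨ψ, hψ0, hψ⟩ := hloc (φ' z) (hφ'2 z (hw1 _)).1.le z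
  have hsubb : ball w₀ (ε / 2) ⊆ ball z ε := by
    intro x hx
    rw [mem_ball] at hx ⊢
    have h1 : dist z w₀ < ε / 2 := hN
    calc dist x z ≤ dist x w₀ + dist w₀ z := dist_triangle _ _ _
      _ < ε / 2 + ε / 2 := by rw [dist_comm w₀ z]; gcongr
      _ = ε := by ring
  have hagree : ∀ x ∈ ball z ε, m < x.im → ψ x = φ' x := by
    intro x hx hxm
    have := sol_unique (X := X) (D := D) hXD
      (U := ball z ε ∩ {w : ℂ | m < w.im}) (isOpen_ball.inter (isOpen_im_gt _))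
      ((convex_ball _ _).inter (convex_im_gt _)).isPreconnected
      (φ := ψ) (ψ := φ') (w₀ := z)
      (fun w hw => hψ w hw.1) (fun w hw => ⟨hsub _ (hφ'2 w hw.2).1.le, (hφ'2 w hw.2).2⟩)
      ⟨mem_ball_self hε, hw1 _⟩ hψ0
    exact this ⟨hx, hxm⟩
  refine ⟨m, φ', w₀, ε / 2, ψ, hm0, him, by positivity, hE.1,
    fun w hw => ⟨(hφ'2 w hw).1, hne w hw, (hφ'2 w hw).2⟩, hinf', ?_,
    fun x hx => ⟨(hψ x (hsubb hx)).1, (hψ x (hsubb hx)).2, hagree x (hsubb hx)⟩⟩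
  have hcψ : ContinuousAt (fun x => nsq (ψ x)) w₀ := by
    have h1 := (hψ w₀ (hsubb (mem_ball_self (by positivity)))).2.continuousAt
    exact continuous_nsq.continuousAt.comp h1
  have h3 : Tendsto (fun n => nsq (ψ (w (θ n)))) atTop (𝓝 (nsq (ψ w₀))) :=
    hcψ.tendsto.comp hlim
  have h4 : Tendsto (fun n => nsq (ψ (w (θ n)))) atTop (𝓝 (ρ ^ 2)) := by
    have h5 : ∀ᶠ n in atTop, nsq (φ' (w (θ n))) = nsq (ψ (w (θ n))) := by
      filter_upwards [hlim.eventually (ball_mem_nhds w₀ (show 0 < ε / 2 by positivity))] with n hn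
      rw [hagree (w (θ n)) (hsubb hn) (hw1 _)]
    refine Tendsto.congr' h5 ?_
    refine tendsto_of_tendsto_of_tendsto_of_le_of_le (g := fun n => ρ ^ 2 - 1 / ((θ n : ℝ) + 1))
      (h := fun _ => ρ ^ 2) ?_ tendsto_const_nhds (fun n => (hw3 _).le)
      (fun n => (hφ'2 _ (hw1 _)).1.le)
    have := (hlim0.comp hθa).const_sub (ρ ^ 2)
    simpa using this
  exact tendsto_nhds_unique h3 h4

end half

end Vale.Agent.P298.H462
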