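import Vale.Agent.P298.H462.Ext
import Vale.Agent.P298.H365.Count1
import Vale.Agent.P298.H652.Annulus

/-!
Local parametrization of the curves, and the absence of local maxima of the norm.
-/

namespace Vale.Agent.P298.H462

open Filter Topology Metric Set

theorem hasFDerivAt_slice {F : V → ℂ → ℂ} {x₀ : V} {t₀ : ℂ}
    (hF : AnalyticAt ℂ (fun p : V × ℂ => F p.1 p.2) (x₀, t₀)) (w : V) :
    fderiv ℂ (F · t₀) x₀ w = fderiv ℂ (fun p : V × ℂ => F p.1 p.2) (x₀, t₀) (w, 0) := by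
  have h1 : HasFDerivAt (fun x : V => (x, t₀)) (ContinuousLinearMap.inl ℂ V ℂ) x₀ :=
    hasFDerivAt_prodMk_left x₀ t₀
  have h2 := hF.differentiableAt.hasFDerivAt.comp x₀ h1
  have h3 : fderiv ℂ (F · t₀) x₀ = (fderiv ℂ (fun p : V × ℂ => F p.1 p.2) (x₀, t₀)).comp
      (ContinuousLinearMap.inl ℂ V ℂ) := h2.fderiv
  rw [h3]
  rfl

/-- Local parametrization of the family of curves by a family of arcs. -/
theorem local_cover {F E : V → ℂ → ℂ} {x₀ : V} {t₀ : ℂ}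
    (hF : AnalyticAt ℂ (fun p : V × ℂ => F p.1 p.2) (x₀, t₀))
    (hE : AnalyticAt ℂ (fun p : V × ℂ => E p.1 p.2) (x₀, t₀))
    (hxi : xi (F · t₀) (E · t₀) x₀ ≠ 0)
    {G : ℂ → ℂ → V} {s₀ : ℂ} (hG : AnalyticAt ℂ (fun q : ℂ × ℂ => G q.1 q.2) (s₀, t₀))
    (hG0 : G s₀ t₀ = x₀) (hGF : ∀ᶠ q : ℂ × ℂ in 𝓝 (s₀, t₀), F (G q.1 q.2) q.2 = 0)
    (hGE : ∀ᶠ q : ℂ × ℂ in 𝓝 (s₀, t₀), E (G q.1 q.2) q.2 = 0)
    (hd : deriv (G · t₀) s₀ ≠ 0) :
    (∀ U ∈ 𝓝 s₀, ∀ᶠ p : V × ℂ in 𝓝 (x₀, t₀), F p.1 p.2 = 0 → E p.1 p.2 = 0 →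
      ∃ s ∈ U, p.1 = G s p.2) ∧
    ∃ U ∈ 𝓝 (s₀, t₀), InjOn (fun q : ℂ × ℂ => (G q.1 q.2, q.2)) U := by
  set Gc : ℂ × ℂ → V := fun q => G q.1 q.2 with hGc
  set dG := fderiv ℂ Gc (s₀, t₀) with hdG
  have hGs : HasStrictFDerivAt Gc dG (s₀, t₀) := hG.hasStrictFDerivAt
  set v := deriv (G · t₀) s₀ with hv
  have hslice : HasDerivAt (fun s : ℂ => ((s, t₀) : ℂ × ℂ)) ((1 : ℂ), (0 : ℂ)) s₀ :=
    (hasDerivAt_id s₀).prodMk (hasDerivAt_const s₀ t₀)
  have hvd : HasDerivAt (G · t₀) (dG (1, 0)) s₀ := by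
    have h1 : HasFDerivAt Gc dG (s₀, t₀) := hGs.hasFDerivAt
    exact h1.comp_hasDerivAt s₀ hslice
  have hv1 : dG (1, 0) = v := hvd.deriv.symm
  have hdGa : ∀ a : ℂ, dG (a, 0) = a • v := by
    intro a
    have : ((a, 0) : ℂ × ℂ) = a • ((1, 0) : ℂ × ℂ) := by simp
    rw [this, map_smul, hv1]
  -- the derivative is a multiple of the Hamiltonian field
  have hslc : Tendsto (fun s : ℂ => ((s, t₀) : ℂ × ℂ)) (𝓝 s₀) (𝓝 (s₀, t₀)) :=
    hslice.continuousAt.tendsto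
  have hker : ∀ {H : V → ℂ → ℂ} (_ : AnalyticAt ℂ (fun p : V × ℂ => H p.1 p.2) (x₀, t₀))
      (_ : ∀ᶠ q : ℂ × ℂ in 𝓝 (s₀, t₀), H (G q.1 q.2) q.2 = 0), fderiv ℂ (H · t₀) x₀ v = 0 := by
    intro H hH hz
    have h1 : DifferentiableAt ℂ (H · t₀) (G s₀ t₀) := by
      rw [hG0]
      have h6 : HasFDerivAt (fun x : V => (x, t₀)) (ContinuousLinearMap.inl ℂ V ℂ) x₀ :=
        hasFDerivAt_prodMk_left x₀ t₀
      exact (hH.differentiableAt.hasFDerivAt.comp x₀ h6).differentiableAt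
    have h2 := h1.hasFDerivAt.comp_hasDerivAt s₀ hvd
    have h3 : ((fun x => H x t₀) ∘ fun s => G s t₀) =ᶠ[𝓝 s₀] fun _ => (0 : ℂ) := hslc.eventually hz
    have h4 := h2.congr_of_eventuallyEq h3.symm
    have h5 := h4.unique (hasDerivAt_const s₀ (0 : ℂ))
    rw [hG0, hv1] at h5
    exact h5
  obtain ⟨k, hk⟩ : ∃ k, xi (F · t₀) (E · t₀) x₀ k ≠ 0 := by
    by_contra hcon
    push Not at hcon
    exact hxi (funext hcon)
  have hvk : v k ≠ 0 := by
    intro h0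
    apply hd
    funext i
    have h1 := ker_parallel (hker hF hGF) (hker hE hGE) i k
    rw [h0, mul_zero] at h1
    exact (mul_eq_zero.1 h1.symm).resolve_left hk
  constructor
  · -- local surjectivity
    intro U hU
    set dA : ℂ × ℂ →L[ℂ] ℂ × ℂ := ((ContinuousLinearMap.proj (R := ℂ) k).comp dG).prod
      (ContinuousLinearMap.snd ℂ ℂ ℂ) with hdA
    have hA : HasStrictFDerivAt (fun q : ℂ × ℂ => (Gc q k, q.2)) dA (s₀, t₀) := by
      refine HasStrictFDerivAt.prodMk ?_ hasStrictFDerivAt_snd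
      exact (ContinuousLinearMap.proj (R := ℂ) (φ := fun _ : Fin 3 => ℂ) k).hasStrictFDerivAt.comp
        (s₀, t₀) hGs
    have hAinj : Function.Injective dA := by
      rw [injective_iff_map_eq_zero]
      rintro ⟨a, b⟩ hab
      have hb : b = 0 := congrArg Prod.snd hab
      subst hb
      have ha : (dG (a, 0)) k = 0 := congrArg Prod.fst hab
      rw [hdGa] at ha
      have : a = 0 := by
        have h1 : a * v k = 0 := ha
        exact (mul_eq_zero.1 h1).resolve_right hvk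
      rw [this]
      rfl
    have hAsurj : (dA : ℂ × ℂ →ₗ[ℂ] ℂ × ℂ).range = ⊤ :=
      LinearMap.range_eq_top.2 (LinearMap.injective_iff_surjective.1 hAinj)
    have hmap := hA.map_nhds_eq_of_surj hAsurj
    -- injectivity of the coordinates
    set Ψ : V × ℂ → (ℂ × ℂ) × (ℂ × ℂ) := fun p => ((F p.1 p.2, E p.1 p.2), (p.1 k, p.2)) with hΨ
    set dΨ : V × ℂ →L[ℂ] (ℂ × ℂ) × (ℂ × ℂ) :=
      ((fderiv ℂ (fun p : V × ℂ => F p.1 p.2) (x₀, t₀)).prod
        (fderiv ℂ (fun p : V × ℂ => E p.1 p.2) (x₀, t₀))).prod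
      (((ContinuousLinearMap.proj (R := ℂ) k).comp (ContinuousLinearMap.fst ℂ V ℂ)).prod
        (ContinuousLinearMap.snd ℂ V ℂ)) with hdΨ
    have hΨd : HasStrictFDerivAt Ψ dΨ (x₀, t₀) := by
      refine HasStrictFDerivAt.prodMk (HasStrictFDerivAt.prodMk hF.hasStrictFDerivAt
        hE.hasStrictFDerivAt) (HasStrictFDerivAt.prodMk ?_ hasStrictFDerivAt_snd)
      exact ((ContinuousLinearMap.proj (R := ℂ) (φ := fun _ : Fin 3 => ℂ) k).comp
        (ContinuousLinearMap.fst ℂ V ℂ)).hasStrictFDerivAt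
    have hΨinj : Function.Injective dΨ := by
      rw [injective_iff_map_eq_zero]
      rintro ⟨w, b⟩ hwb
      have hb : b = 0 := congrArg (fun z => z.2.2) hwb
      subst hb
      have h1 : w k = 0 := congrArg (fun z => z.2.1) hwb
      have h2 : fderiv ℂ (F · t₀) x₀ w = 0 := by
        rw [hasFDerivAt_slice hF]
        exact congrArg (fun z => z.1.1) hwb
      have h3 : fderiv ℂ (E · t₀) x₀ w = 0 := by
        rw [hasFDerivAt_slice hE]
        exact congrArg (fun z => z.1.2) hwb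
      have h4 : w = 0 := by
        funext i
        have h5 := ker_parallel h2 h3 i k
        rw [h1, mul_zero] at h5
        exact (mul_eq_zero.1 h5.symm).resolve_left hk
      rw [h4]
      rfl
    obtain ⟨N, hN, hNinj⟩ := H365.exists_injOn_of_injective (hΨd.restrictScalars ℝ)
      (show Function.Injective (dΨ.restrictScalars ℝ) from hΨinj)
    -- choice of the neighbourhood in the source
    have hGN : ∀ᶠ q : ℂ × ℂ in 𝓝 (s₀, t₀), (Gc q, q.2) ∈ N := by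
      have h1 : ContinuousAt (fun q : ℂ × ℂ => (Gc q, q.2)) (s₀, t₀) :=
        hGs.continuousAt.prodMk continuousAt_snd
      have h2 : (Gc (s₀, t₀), ((s₀, t₀) : ℂ × ℂ).2) = (x₀, t₀) := by
        simp only [hGc, hG0]
      have h3 := h1.tendsto
      rw [h2] at h3
      exact h3.eventually hN
    have hU' : ∀ᶠ q : ℂ × ℂ in 𝓝 (s₀, t₀), q.1 ∈ U :=
      continuousAt_fst.tendsto.eventually hU
    have hgood : {q : ℂ × ℂ | q.1 ∈ U ∧ (Gc q, q.2) ∈ N ∧ F (G q.1 q.2) q.2 = 0 ∧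
        E (G q.1 q.2) q.2 = 0} ∈ 𝓝 (s₀, t₀) := by
      filter_upwards [hU', hGN, hGF, hGE] with q h1 h2 h3 h4 using ⟨h1, h2, h3, h4⟩
    have himg : (fun q : ℂ × ℂ => (Gc q k, q.2)) '' {q : ℂ × ℂ | q.1 ∈ U ∧ (Gc q, q.2) ∈ N ∧
        F (G q.1 q.2) q.2 = 0 ∧ E (G q.1 q.2) q.2 = 0} ∈ 𝓝 ((x₀ k, t₀) : ℂ × ℂ) := by
      have h1 := image_mem_map (m := fun q : ℂ × ℂ => (Gc q k, q.2)) hgood
      rw [hmap] at h1
      have h2 : (Gc (s₀, t₀) k, ((s₀, t₀) : ℂ × ℂ).2) = (x₀ k, t₀) := by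
        simp only [hGc, hG0]
      rw [h2] at h1
      exact h1
    have hcoord : Tendsto (fun p : V × ℂ => (p.1 k, p.2)) (𝓝 (x₀, t₀)) (𝓝 (x₀ k, t₀)) := by
      have : Continuous fun p : V × ℂ => (p.1 k, p.2) := by fun_prop
      exact this.tendsto (x₀, t₀)
    filter_upwards [hcoord.eventually himg, hN] with p hp hpN hpF hpE
    obtain ⟨q, ⟨hq1, hq2, hq3, hq4⟩, hq5⟩ := hp
    have hq6 : q.2 = p.2 := congrArg Prod.snd hq5
    have hq7 : Gc q k = p.1 k := congrArg Prod.fst hq5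
    refine ⟨q.1, hq1, ?_⟩
    have h1 : Ψ p = Ψ (Gc q, q.2) := by
      simp only [hΨ]
      rw [hpF, hpE, hq7, hq6]
      rw [hq6] at hq3 hq4
      simp only [hGc]
      rw [hq6, hq3, hq4]
    have h2 := hNinj hpN hq2 h1
    rw [← hq6]
    exact congrArg Prod.fst h2
  · -- local injectivity
    have hB : HasStrictFDerivAt (fun q : ℂ × ℂ => (Gc q, q.2))
        (dG.prod (ContinuousLinearMap.snd ℂ ℂ ℂ)) (s₀, t₀) :=
      HasStrictFDerivAt.prodMk hGs hasStrictFDerivAt_snd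
    have hBinj : Function.Injective (dG.prod (ContinuousLinearMap.snd ℂ ℂ ℂ)) := by
      rw [injective_iff_map_eq_zero]
      rintro ⟨a, b⟩ hab
      have hb : b = 0 := congrArg Prod.snd hab
      subst hb
      have ha : dG (a, 0) = 0 := congrArg Prod.fst hab
      rw [hdGa] at ha
      have h1 : a = 0 := (smul_eq_zero.1 ha).resolve_right hd
      rw [h1]
      rfl
    exact H365.exists_injOn_of_injective (hB.restrictScalars ℝ)
      (show Function.Injective ((dG.prod (ContinuousLinearMap.snd ℂ ℂ ℂ)).restrictScalars ℝ)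
        from hBinj)

theorem nsq_sub (a b : V) :
    nsq (a - b) = nsq a - 2 * (∑ k, a k * (starRingEnd ℂ) (b k)).re + nsq b := by
  unfold nsq
  rw [Complex.re_sum, Finset.mul_sum, ← Finset.sum_sub_distrib, ← Finset.sum_add_distrib]
  refine Finset.sum_congr rfl fun k _ => ?_
  rw [Pi.sub_apply, ← Complex.normSq_eq_norm_sq, ← Complex.normSq_eq_norm_sq,
    ← Complex.normSq_eq_norm_sq, Complex.normSq_sub]
  ring

/-- The norm has no local maximum on the curve at a smooth point. -/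
theorem nomax {f e : V → ℂ} {ρ₀ : ℝ} {x₀ : V} (hx₀ : x₀ ∈ ball (0 : V) ρ₀)
    (hf : ∀ x ∈ ball (0 : V) ρ₀, AnalyticAt ℂ f x)
    (he : ∀ x ∈ ball (0 : V) ρ₀, AnalyticAt ℂ e x) (hf0 : f x₀ = 0) (he0 : e x₀ = 0)
    (hxi : xi f e x₀ ≠ 0) : ∃ᶠ x in 𝓝 x₀, f x = 0 ∧ e x = 0 ∧ nsq x₀ < nsq x := by
  obtain ⟨ε, hε, hloc⟩ := local_unif (X := xi f e) (O := ball (0 : V) ρ₀) (K := {x₀}) isOpen_ball
    (fun x hx => analyticAt_xi (hf x hx) (he x hx)) isCompact_singleton (by simpa using hx₀)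
  obtain ⟨ψ, hψ0, hψ⟩ := hloc x₀ rfl 0
  have h0 : (0 : ℂ) ∈ ball (0 : ℂ) ε := mem_ball_self hε
  have hfψ : ∀ w ∈ ball (0 : ℂ) ε, f (ψ w) = 0 := by
    intro w hw
    rw [← hf0, ← hψ0]
    exact first_integral isOpen_ball (convex_ball _ _).isPreconnected (fun w hw => (hψ w hw).2)
      (fun w hw => (hf _ (hψ w hw).1).differentiableAt) (fun w hw => fderiv_xi_left _ _ _) hw h0
  have heψ : ∀ w ∈ ball (0 : ℂ) ε, e (ψ w) = 0 := by
    intro w hw
    rw [← he0, ← hψ0]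
    exact first_integral isOpen_ball (convex_ball _ _).isPreconnected (fun w hw => (hψ w hw).2)
      (fun w hw => (he _ (hψ w hw).1).differentiableAt) (fun w hw => fderiv_xi_right _ _ _) hw h0
  by_contra hcon
  rw [not_frequently] at hcon
  have hψc : Tendsto ψ (𝓝 0) (𝓝 x₀) := by
    have := (hψ 0 h0).2.continuousAt.tendsto
    rwa [hψ0] at this
  have hle : ∀ᶠ w in 𝓝 (0 : ℂ), nsq (ψ w) ≤ nsq x₀ := by
    filter_upwards [hψc.eventually hcon, ball_mem_nhds (0 : ℂ) hε] with w h1 h2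
    by_contra h3
    push Not at h3
    exact h1 ⟨hfψ w h2, heψ w h2, h3⟩
  set g : ℂ → ℂ := fun w => ∑ k, ψ w k * (starRingEnd ℂ) (x₀ k) with hg
  have hg0 : (g 0).re = nsq x₀ := by
    have h1 := nsq_sub x₀ x₀
    rw [sub_self, nsq_zero] at h1
    rw [hg]
    simp only [hψ0]
    linarith
  have hgre : ∀ w, (g w).re = (nsq (ψ w) + nsq x₀ - nsq (ψ w - x₀)) / 2 := by
    intro w
    have h1 := nsq_sub (ψ w) x₀
    rw [hg]
    simp only
    linarith
  have hgd : ∀ᶠ w in 𝓝 (0 : ℂ), DifferentiableAt ℂ (fun w => Complex.exp (g w)) w := by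
    filter_upwards [ball_mem_nhds (0 : ℂ) hε] with w hw
    have h1 : ∀ k, DifferentiableAt ℂ (fun w => ψ w k) w := fun k =>
      (hasDerivAt_pi.1 (hψ w hw).2 k).differentiableAt
    have h2 : DifferentiableAt ℂ g w := by
      rw [hg]
      exact DifferentiableAt.fun_sum fun k _ => (h1 k).mul_const _
    exact h2.cexp
  have hmax : IsLocalMax (norm ∘ fun w => Complex.exp (g w)) 0 := by
    filter_upwards [hle] with w hw
    simp only [Function.comp, Complex.norm_exp]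
    apply Real.exp_le_exp.2
    rw [hg0, hgre w]
    linarith [nsq_nonneg (ψ w - x₀)]
  have heq := Complex.eventually_eq_of_isLocalMax_norm hgd hmax
  have hconst : ∀ᶠ w in 𝓝 (0 : ℂ), ψ w = x₀ := by
    filter_upwards [heq, hle] with w h1 h2
    have h3 : (g w).re = nsq x₀ := by
      rw [← hg0]
      have := congrArg norm h1
      rw [Complex.norm_exp, Complex.norm_exp] at this
      exact Real.exp_injective this
    rw [hgre w] at h3
    have h4 : nsq (ψ w - x₀) = 0 := le_antisymm (by linarith) (nsq_nonneg _)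
    exact sub_eq_zero.1 (nsq_eq_zero h4)
  have h5 : HasDerivAt ψ 0 0 := (hasDerivAt_const (0 : ℂ) x₀).congr_of_eventuallyEq hconst
  have h6 := (hψ 0 h0).2.unique h5
  rw [hψ0] at h6
  exact hxi h6

end Vale.Agent.P298.H462
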