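import Vale.Agent.P298.H462.Pos
import Vale.Agent.P298.H365.Count5
import Vale.Agent.P298.H857.Petals

/-!
Assembly of the block T1: simultaneous parametrization of the curves.
-/

namespace Vale.Agent.P298.H462

open Filter Topology Metric Set

theorem analyticAt_slice {F : V → ℂ → ℂ} {x : V} {t : ℂ}
    (h : AnalyticAt ℂ (fun p : V × ℂ => F p.1 p.2) (x, t)) : AnalyticAt ℂ (F · t) x := by
  have h1 : AnalyticAt ℂ (fun x : V => (x, t)) x := analyticAt_id.prod analyticAt_const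
  exact AnalyticAt.fun_comp (g := fun p : V × ℂ => F p.1 p.2) (f := fun x : V => (x, t)) h h1

theorem differentiableAt_slice {G : ℂ → ℂ → V} {s t : ℂ}
    (h : AnalyticAt ℂ (fun p : ℂ × ℂ => G p.1 p.2) (s, t)) : DifferentiableAt ℂ (G · t) s := by
  have h1 : AnalyticAt ℂ (fun x : ℂ => (x, t)) s := analyticAt_id.prod analyticAt_const
  exact (AnalyticAt.fun_comp (g := fun p : ℂ × ℂ => G p.1 p.2) (f := fun x : ℂ => (x, t))
    h h1).differentiableAt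

theorem continuousAt_lam {F E : V → ℂ → ℂ} {x : V} {t : ℂ}
    (hF : AnalyticAt ℂ (fun p : V × ℂ => F p.1 p.2) (x, t))
    (hE : AnalyticAt ℂ (fun p : V × ℂ => E p.1 p.2) (x, t)) :
    ContinuousAt (fun p : V × ℂ => lam (F · p.2) (E · p.2) p.1) (x, t) := by
  have h1 : ContinuousAt (fun p : V × ℂ => xi (F · p.2) (E · p.2) p.1) (x, t) :=
    (H652.xi_analytic hF hE).continuousAt
  unfold lam
  refine tendsto_finsetSum _ fun k _ => ?_
  have h2 : ContinuousAt (fun p : V × ℂ => xi (F · p.2) (E · p.2) p.1 k) (x, t) :=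
    (continuous_apply k).continuousAt.comp' h1
  have h3 : ContinuousAt (fun p : V × ℂ => (starRingEnd ℂ) (p.1 k)) (x, t) := by
    have : Continuous fun p : V × ℂ => (starRingEnd ℂ) (p.1 k) :=
      Complex.continuous_conj.comp ((continuous_apply k).comp continuous_fst)
    exact this.continuousAt
  exact h2.mul h3

/-- The closed annulus. -/
theorem isCompact_ann (a b : ℝ) : IsCompact {s : ℂ | a ≤ ‖s‖ ∧ ‖s‖ ≤ b} := by
  refine (isCompact_closedBall (0 : ℂ) b).of_isClosed_subset ?_ fun s hs => ?_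
  · exact (isClosed_le continuous_const continuous_norm).inter
      (isClosed_le continuous_norm continuous_const)
  · rw [mem_closedBall, dist_zero_right]
    exact hs.2

theorem isCompact_nsq_eq (r : ℝ) : IsCompact {x : V | nsq x = r} :=
  (isCompact_nsq_le r).of_isClosed_subset (isClosed_eq continuous_nsq continuous_const)
    fun _ hx => le_of_eq hx

theorem assemble {F E : V → ℂ → ℂ} {ρ₀ δ₀ : ℝ} (hFam : Fam F E ρ₀ δ₀) {N : ℕ}
    (hb : ∀ t ∈ ball (0 : ℂ) δ₀, ∃ (k : ℕ) (γ : Fin k → ℂ → V) (c : Fin k → ℕ)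
      (u : Fin k → ℂ → ℂ) (R : ℝ), Branches (F · t) (E · t) k γ c u R ∧ (∀ i, 1 ≤ c i) ∧
      ∑ i, (c i - 1) = N)
    {k : ℕ} {γ : Fin k → ℂ → V} {c : Fin k → ℕ} {u : Fin k → ℂ → ℂ} {R : ℝ}
    (hB : Branches (F · 0) (E · 0) k γ c u R) (hc : ∀ i, 2 ≤ c i) (hN : ∑ i, (c i - 1) = N) :
    ∃ (γ' : Fin k → ℂ → ℂ → V) (ρ : ℝ), H119.ParamCurves F E γ' ρ := by
  have hρ₀ := hFam.rpos
  have hδ₀ := hFam.dpos
  have h0R : (0 : ℂ) ∈ ball (0 : ℂ) R := mem_ball_self hB.pos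
  have h0δ : (0 : ℂ) ∈ ball (0 : ℂ) δ₀ := mem_ball_self hδ₀
  have hc1 : ∀ i, 1 ≤ c i := fun i => le_trans (by norm_num) (hc i)
  have hfa : ∀ t ∈ ball (0 : ℂ) δ₀, ∀ x ∈ ball (0 : V) ρ₀, AnalyticAt ℂ (F · t) x :=
    fun t ht x hx => analyticAt_slice (hFam.holF x hx t ht)
  have hea : ∀ t ∈ ball (0 : ℂ) δ₀, ∀ x ∈ ball (0 : V) ρ₀, AnalyticAt ℂ (E · t) x :=
    fun t ht x hx => analyticAt_slice (hFam.holE x hx t ht)
  have hne0 : ∀ i, ∀ s ∈ ball (0 : ℂ) R, s ≠ 0 → γ i s ≠ 0 := by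
    intro i s hs hs0 h
    rcases hB.inj i i s hs 0 h0R (by rw [h, hB.zero i]) with h1 | h1
    · exact hs0 h1.1
    · exact hs0 h1.2
  -- 1. a radius on which the branches stay in the ball
  obtain ⟨R', hR', hR'R, hR'ball⟩ : ∃ R' > 0, R' ≤ R ∧ ∀ s ∈ ball (0 : ℂ) R', ∀ i,
      γ i s ∈ ball (0 : V) ρ₀ := by
    have h1 : ∀ᶠ s in 𝓝 (0 : ℂ), ∀ i, γ i s ∈ ball (0 : V) ρ₀ := by
      refine eventually_all.2 fun i => ?_
      have h2 : Tendsto (γ i) (𝓝 0) (𝓝 (γ i 0)) := (hB.hol i 0 h0R).continuousAt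
      rw [hB.zero i] at h2
      exact h2.eventually (ball_mem_nhds 0 hρ₀)
    obtain ⟨r, hr, h3⟩ := Metric.eventually_nhds_iff.1 h1
    exact ⟨min r R, lt_min hr hB.pos, min_le_right _ _, fun s hs => h3 (lt_of_lt_of_le hs
      (min_le_left _ _))⟩
  have hR'mem : ∀ s ∈ ball (0 : ℂ) R', s ∈ ball (0 : ℂ) R := fun s hs => ball_subset_ball hR'R hs
  -- 2. annuli
  have hA := fun i => H652.annulusStmt F E ρ₀ δ₀ hFam (γ i) (c i) (u i) R' hR'
    (fun s hs => ⟨hB.hol i s (hR'mem s hs), hB.hol_u i s (hR'mem s hs), hB.u_ne i s (hR'mem s hs),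
      hR'ball s hs i, (hB.mem i s (hR'mem s hs)).1, (hB.mem i s (hR'mem s hs)).2,
      hne0 i s (hR'mem s hs), hB.ode i s (hR'mem s hs)⟩) (hc1 i) (hB.zero i)
  choose R₁ hR₁ hA using hA
  -- 3. signs
  have hP0 := fun i => pos0 (f := (F · 0)) (e := (E · 0)) (hB.hol i 0 h0R) (hB.zero i)
    (by
      have h1 : ∀ᶠ s in 𝓝[≠] (0 : ℂ), γ i s ≠ 0 := by
        filter_upwards [self_mem_nhdsWithin, nhdsWithin_le_nhds (ball_mem_nhds (0 : ℂ) hB.pos)]
          with s hs hsR using hne0 i s hsR hs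
      exact (h1.frequently).filter_mono nhdsWithin_le_nhds)
    (hB.hol_u i 0 h0R) (hB.u_ne i 0 h0R) (hc1 i)
    (by filter_upwards [ball_mem_nhds (0 : ℂ) hB.pos] with s hs using hB.ode i s hs)
  choose r₁ hr₁ hP0 using hP0
  -- 4. common radii
  obtain ⟨s₂, hs₂0, hs₂R', hs₂⟩ : ∃ s₂ : ℝ, 0 < s₂ ∧ s₂ < R' ∧ ∀ i, s₂ < R₁ i ∧ s₂ < r₁ i := by
    have h1 : ∀ᶠ s in 𝓝[>] (0 : ℝ), ∀ i, s < R₁ i ∧ s < r₁ i := by
      refine eventually_all.2 fun i => ?_
      have h2 : ∀ᶠ s in 𝓝[>] (0 : ℝ), s < R₁ i := nhdsWithin_le_nhds (Iio_mem_nhds (hR₁ i))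
      have h3 : ∀ᶠ s in 𝓝[>] (0 : ℝ), s < r₁ i := nhdsWithin_le_nhds (Iio_mem_nhds (hr₁ i))
      exact h2.and h3
    have h2 : ∀ᶠ s in 𝓝[>] (0 : ℝ), s < R' := nhdsWithin_le_nhds (Iio_mem_nhds hR')
    obtain ⟨s, ⟨hs1, hs2⟩, hs3⟩ := ((h1.and h2).and self_mem_nhdsWithin).exists
    exact ⟨s, hs3, hs2, hs1⟩
  set a₃ : ℝ := 3 / 4 * s₂ with ha₃
  set a₂ : ℝ := s₂ / 2 with ha₂
  have ha₂0 : 0 < a₂ := by positivity
  have ha₂₃ : a₂ < a₃ := by rw [ha₂, ha₃]; linarith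
  have ha₃₂ : a₃ < s₂ := by rw [ha₃]; linarith
  have hs₂mem : ∀ s : ℂ, ‖s‖ < s₂ → s ∈ ball (0 : ℂ) R := by
    intro s hs
    apply hR'mem
    rw [mem_ball, dist_zero_right]
    linarith
  -- 5. lower bound on the sphere
  have hm : ∀ i, ∃ m, 0 < m ∧ ∀ s ∈ sphere (0 : ℂ) a₂, m ≤ nsq (γ i s) := by
    intro i
    refine (isCompact_sphere (0 : ℂ) a₂).exists_forall_le' (a := 0) (fun s hs => ?_) fun s hs => ?_
    · rw [mem_sphere, dist_zero_right] at hs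
      exact (continuous_nsq.continuousAt.comp' (hB.hol i s (hs₂mem s
        (by rw [hs]; linarith))).continuousAt).continuousWithinAt
    · rw [mem_sphere, dist_zero_right] at hs
      refine nsq_pos (hne0 i s (hs₂mem s (by rw [hs]; linarith)) ?_)
      intro h
      rw [h, norm_zero] at hs
      linarith
  choose m hm0 hm using hm
  -- 6. the radius of the sphere
  obtain ⟨ρ₁, hρ₁, hcount⟩ := H365.count F E ρ₀ δ₀ hFam k γ c u R hB hc
  obtain ⟨η, hη, hcov⟩ := Metric.eventually_nhds_iff.1 (hB.cover a₂ ha₂0)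
  obtain ⟨ρ, hρ, hρρ₁, hρρ₀, hρη, hρm⟩ : ∃ ρ : ℝ, 0 < ρ ∧ ρ < ρ₁ ∧ ρ < ρ₀ ∧ ρ < η ∧
      ∀ i, ρ ^ 2 < m i := by
    have h1 : ∀ᶠ s in 𝓝[>] (0 : ℝ), ∀ i, s ^ 2 < m i := by
      refine eventually_all.2 fun i => ?_
      have h2 : Tendsto (fun s : ℝ => s ^ 2) (𝓝 0) (𝓝 (0 ^ 2)) := (continuous_pow 2).tendsto 0
      rw [zero_pow (by norm_num)] at h2
      exact nhdsWithin_le_nhds (h2.eventually_lt_const (hm0 i))
    have h2 : ∀ᶠ s in 𝓝[>] (0 : ℝ), s < ρ₁ := nhdsWithin_le_nhds (Iio_mem_nhds hρ₁)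
    have h3 : ∀ᶠ s in 𝓝[>] (0 : ℝ), s < ρ₀ := nhdsWithin_le_nhds (Iio_mem_nhds hρ₀)
    have h4 : ∀ᶠ s in 𝓝[>] (0 : ℝ), s < η := nhdsWithin_le_nhds (Iio_mem_nhds hη)
    obtain ⟨s, ⟨⟨⟨hs1, hs2⟩, hs3⟩, hs4⟩, hs5⟩ :=
      ((((h1.and h2).and h3).and h4).and self_mem_nhdsWithin).exists
    exact ⟨s, hs5, hs2, hs3, hs4, hs1⟩
  -- 7. the inner radius
  obtain ⟨a₁, ha₁0, ha₁₂, ha₁⟩ : ∃ a₁ : ℝ, 0 < a₁ ∧ a₁ < a₂ ∧ ∀ i, ∀ s : ℂ, ‖s‖ ≤ a₁ →
      nsq (γ i s) < ρ ^ 2 := by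
    have h1 : ∀ᶠ s in 𝓝 (0 : ℂ), ∀ i, nsq (γ i s) < ρ ^ 2 := by
      refine eventually_all.2 fun i => ?_
      have h2 : Tendsto (fun s => nsq (γ i s)) (𝓝 0) (𝓝 (nsq (γ i 0))) :=
        (continuous_nsq.continuousAt.comp' (hB.hol i 0 h0R).continuousAt)
      rw [hB.zero i, nsq_zero] at h2
      exact h2.eventually_lt_const (by positivity)
    obtain ⟨r, hr, h3⟩ := Metric.eventually_nhds_iff.1 h1
    refine ⟨min r a₂ / 2, by have := lt_min hr ha₂0; positivity, ?_, fun i s hs => ?_⟩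
    · have h4 := min_le_right r a₂
      have h5 := lt_min hr ha₂0
      linarith
    · refine h3 ?_ i
      rw [dist_zero_right]
      have h4 := min_le_left r a₂
      have h5 := lt_min hr ha₂0
      linarith
  set s₁ : ℝ := a₁ / 2 with hs₁
  have hs₁0 : 0 < s₁ := by positivity
  have hs₁a : s₁ < a₁ := by rw [hs₁]; linarith
  have ha₂s : a₂ < s₂ := by linarith
  -- 8. the families over the annuli
  have hA2 := fun i => hA i s₁ s₂ hs₁0 (by linarith) (hs₂ i).1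
  choose δA hδA G P hPzero hPc hG0 hG using hA2
  -- 9. the count
  obtain ⟨δc, hδc, hcnt⟩ := hcount ρ hρ hρρ₁
  -- the arcs of the annuli are immersed for t = 0
  have hGd0 : ∀ i, ∀ s : ℂ, s₁ < ‖s‖ → ‖s‖ < s₂ → deriv (G i · 0) s ≠ 0 := by
    intro i s hs1 hs2 h0
    have hs0 : s ≠ 0 := by
      intro h
      rw [h, norm_zero] at hs1
      linarith
    obtain ⟨-, g2, g3, g4, g5⟩ := hG i s hs1 hs2 0 (mem_ball_self (hδA i))
    rw [h0, smul_zero, hPzero, zero_mul, add_zero] at g5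
    have h1 := (smul_eq_zero.1 g5.symm).resolve_left (hB.u_ne i s (hs₂mem s hs2))
    rw [hG0 i s hs1 hs2] at h1 g2 g3 g4
    exact hFam.xi_ne _ g2 0 h0δ g3 g4 (hne0 i s (hs₂mem s hs2) hs0) h1
  have hannopen : IsOpen {s : ℂ | s₁ < ‖s‖ ∧ ‖s‖ < s₂} :=
    (isOpen_lt continuous_const continuous_norm).inter (isOpen_lt continuous_norm continuous_const)
  have hGev : ∀ i, ∀ s : ℂ, s₁ < ‖s‖ → ‖s‖ < s₂ → ∀ᶠ q : ℂ × ℂ in 𝓝 (s, (0 : ℂ)),
      F (G i q.1 q.2) q.2 = 0 ∧ E (G i q.1 q.2) q.2 = 0 := by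
    intro i s hs1 hs2
    filter_upwards [(hannopen.prod isOpen_ball).mem_nhds
      (show ((s, (0 : ℂ)) : ℂ × ℂ) ∈ {s : ℂ | s₁ < ‖s‖ ∧ ‖s‖ < s₂} ×ˢ ball (0 : ℂ) (δA i) from
        ⟨⟨hs1, hs2⟩, mem_ball_self (hδA i)⟩)] with q hq
    obtain ⟨-, -, g3, g4, -⟩ := hG i q.1 hq.1.1 hq.1.2 q.2 hq.2
    exact ⟨g3, g4⟩
  have hGan : ∀ i, ∀ s : ℂ, s₁ < ‖s‖ → ‖s‖ < s₂ →
      AnalyticAt ℂ (fun q : ℂ × ℂ => G i q.1 q.2) (s, 0) := fun i s hs1 hs2 =>
    (hG i s hs1 hs2 0 (mem_ball_self (hδA i))).1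
  have hlc : ∀ i, ∀ s : ℂ, s₁ < ‖s‖ → ‖s‖ < s₂ →
      (∀ U ∈ 𝓝 s, ∀ᶠ p : V × ℂ in 𝓝 (γ i s, 0), F p.1 p.2 = 0 → E p.1 p.2 = 0 →
        ∃ s' ∈ U, p.1 = G i s' p.2) ∧
      ∃ U ∈ 𝓝 (s, (0 : ℂ)), InjOn (fun q : ℂ × ℂ => (G i q.1 q.2, q.2)) U := by
    intro i s hs1 hs2
    have hs0 : s ≠ 0 := by
      intro h
      rw [h, norm_zero] at hs1
      linarith
    have hgb : γ i s ∈ ball (0 : V) ρ₀ := hR'ball s (by
      rw [mem_ball, dist_zero_right]; linarith) i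
    have hgm := hB.mem i s (hs₂mem s hs2)
    exact local_cover (hFam.holF _ hgb 0 h0δ) (hFam.holE _ hgb 0 h0δ)
      (hFam.xi_ne _ hgb 0 h0δ hgm.1 hgm.2 (hne0 i s (hs₂mem s hs2) hs0))
      (hGan i s hs1 hs2) (hG0 i s hs1 hs2) ((hGev i s hs1 hs2).mono fun q hq => hq.1)
      ((hGev i s hs1 hs2).mono fun q hq => hq.2) (hGd0 i s hs1 hs2)
  -- continuity of the families in the order (t, s)
  have hGcont : ∀ i, ∀ s : ℂ, s₁ < ‖s‖ → ‖s‖ < s₂ →
      ContinuousAt (fun z : ℂ × ℂ => G i z.2 z.1) (0, s) := by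
    intro i s hs1 hs2
    exact ContinuousAt.comp' (f := fun z : ℂ × ℂ => (z.2, z.1))
      (g := fun q : ℂ × ℂ => G i q.1 q.2) (hGan i s hs1 hs2).continuousAt
      continuous_swap.continuousAt
  -- E1
  have E1 : ∀ᶠ t in 𝓝 (0 : ℂ), ∀ i, ∀ q ∈ {s : ℂ | a₁ ≤ ‖s‖ ∧ ‖s‖ ≤ a₂} ×ˢ closedBall (0 : ℂ) a₃,
      0 < ((u i q.2 + P i t * q.2 ^ (c i - 1)) * (q.1 ^ (c i - 1))⁻¹ *
        lam (F · t) (E · t) (G i q.1 t)).re := by
    refine eventually_all.2 fun i => ?_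
    refine ((isCompact_ann a₁ a₂).prod
      (isCompact_closedBall (0 : ℂ) a₃)).eventually_forall_of_forall_eventually ?_
    rintro ⟨s₀, s⟩ ⟨⟨hs1, hs2⟩, hs3⟩
    simp only at hs1 hs2
    rw [mem_closedBall, dist_zero_right] at hs3
    simp only at hs3
    have hs₀1 : s₁ < ‖s₀‖ := by linarith
    have hs₀2 : ‖s₀‖ < s₂ := by linarith
    have hs₀0 : s₀ ≠ 0 := by
      intro h
      rw [h, norm_zero] at hs₀1
      linarith
    have hpos : 0 < (u i s * (s₀ ^ (c i - 1))⁻¹ * lam (F · 0) (E · 0) (γ i s₀)).re :=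
      hP0 i s₀ hs₀0 (by linarith [(hs₂ i).2]) s (by linarith [(hs₂ i).2])
    have k1 : ContinuousAt (fun z : ℂ × (ℂ × ℂ) => u i z.2.2) (0, (s₀, s)) :=
      ContinuousAt.comp' (f := fun z : ℂ × (ℂ × ℂ) => z.2.2) (g := u i)
        (hB.hol_u i s (hs₂mem s (by linarith))).continuousAt (by fun_prop)
    have k2 : ContinuousAt (fun z : ℂ × (ℂ × ℂ) => P i z.1) (0, (s₀, s)) :=
      ContinuousAt.comp' (f := fun z : ℂ × (ℂ × ℂ) => z.1) (g := P i)
        ((hPc i).continuousAt (ball_mem_nhds 0 (hδA i))) (by fun_prop)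
    have k3 : ContinuousAt (fun z : ℂ × (ℂ × ℂ) => z.2.2 ^ (c i - 1)) (0, (s₀, s)) := by fun_prop
    have k4 : ContinuousAt (fun z : ℂ × (ℂ × ℂ) => (z.2.1 ^ (c i - 1))⁻¹) (0, (s₀, s)) :=
      ContinuousAt.inv₀ (by fun_prop) (pow_ne_zero _ hs₀0)
    have k5 : ContinuousAt (fun z : ℂ × (ℂ × ℂ) => (G i z.2.1 z.1, z.1)) (0, (s₀, s)) := by
      refine ContinuousAt.prodMk ?_ (by fun_prop)
      exact ContinuousAt.comp' (f := fun z : ℂ × (ℂ × ℂ) => (z.1, z.2.1))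
        (g := fun z : ℂ × ℂ => G i z.2 z.1) (hGcont i s₀ hs₀1 hs₀2) (by fun_prop)
    have hgb : γ i s₀ ∈ ball (0 : V) ρ₀ := hR'ball s₀ (by
      rw [mem_ball, dist_zero_right]; linarith) i
    have k6 : ContinuousAt (fun z : ℂ × (ℂ × ℂ) => lam (F · z.1) (E · z.1) (G i z.2.1 z.1))
        (0, (s₀, s)) := by
      refine ContinuousAt.comp' (f := fun z : ℂ × (ℂ × ℂ) => (G i z.2.1 z.1, z.1))
        (g := fun p : V × ℂ => lam (F · p.2) (E · p.2) p.1) ?_ k5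
      simp only [hG0 i s₀ hs₀1 hs₀2]
      exact continuousAt_lam (hFam.holF _ hgb 0 h0δ) (hFam.holE _ hgb 0 h0δ)
    have k7 : ContinuousAt (fun z : ℂ × (ℂ × ℂ) => ((u i z.2.2 + P i z.1 * z.2.2 ^ (c i - 1)) *
        (z.2.1 ^ (c i - 1))⁻¹ * lam (F · z.1) (E · z.1) (G i z.2.1 z.1)).re) (0, (s₀, s)) :=
      Complex.continuous_re.continuousAt.comp' (((k1.add (k2.mul k3)).mul k4).mul k6)
    refine k7.eventually_const_lt ?_
    simp only [hPzero, zero_mul, add_zero, hG0 i s₀ hs₀1 hs₀2]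
    exact hpos
  -- E2, E3
  have E2 : ∀ᶠ t in 𝓝 (0 : ℂ), ∀ i, ∀ s ∈ sphere (0 : ℂ) a₁, nsq (G i s t) < ρ ^ 2 := by
    refine eventually_all.2 fun i => ?_
    refine (isCompact_sphere (0 : ℂ) a₁).eventually_forall_of_forall_eventually fun s hs => ?_
    rw [mem_sphere, dist_zero_right] at hs
    have k1 : ContinuousAt (fun z : ℂ × ℂ => nsq (G i z.2 z.1)) (0, s) :=
      continuous_nsq.continuousAt.comp' (hGcont i s (by linarith) (by linarith))
    refine k1.eventually_lt_const ?_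
    simp only [hG0 i s (by linarith) (by linarith)]
    exact ha₁ i s hs.le
  have E3 : ∀ᶠ t in 𝓝 (0 : ℂ), ∀ i, ∀ s ∈ sphere (0 : ℂ) a₂, ρ ^ 2 < nsq (G i s t) := by
    refine eventually_all.2 fun i => ?_
    refine (isCompact_sphere (0 : ℂ) a₂).eventually_forall_of_forall_eventually fun s hs => ?_
    have hs' := hs
    rw [mem_sphere, dist_zero_right] at hs
    have k1 : ContinuousAt (fun z : ℂ × ℂ => nsq (G i z.2 z.1)) (0, s) :=
      continuous_nsq.continuousAt.comp' (hGcont i s (by linarith) (by linarith))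
    refine k1.eventually_const_lt ?_
    simp only [hG0 i s (by linarith) (by linarith)]
    exact lt_of_lt_of_le (hρm i) (hm i s hs')
  -- E4
  have E4 : ∀ᶠ t in 𝓝 (0 : ℂ), ∀ x ∈ {x : V | nsq x = ρ ^ 2}, F x t = 0 → E x t = 0 →
      ∃ i, ∃ s : ℂ, (a₁ < ‖s‖ ∧ ‖s‖ < a₂) ∧ x = G i s t := by
    refine (isCompact_nsq_eq (ρ ^ 2)).eventually_forall_of_forall_eventually fun x hx => ?_
    have hxn : ‖x‖ ≤ ρ := norm_le_of_nsq_le hρ.le (le_of_eq hx)
    have hxb : x ∈ ball (0 : V) ρ₀ := by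
      rw [mem_ball, dist_zero_right]
      linarith
    have hswap : Tendsto (fun z : ℂ × V => (z.2, z.1)) (𝓝 (0, x)) (𝓝 (x, 0)) := by
      have : Continuous fun z : ℂ × V => (z.2, z.1) := by fun_prop
      exact this.tendsto (0, x)
    by_cases hF0 : F x 0 = 0
    · by_cases hE0 : E x 0 = 0
      · obtain ⟨i, s, hs, hxs⟩ := hcov (y := x) (by rw [dist_zero_right]; linarith) hF0 hE0
        rw [mem_ball, dist_zero_right] at hs
        have hs1 : a₁ < ‖s‖ := by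
          by_contra h
          push Not at h
          have := ha₁ i s h
          rw [← hxs] at this
          exact absurd hx (ne_of_lt this)
        have hU : {s : ℂ | a₁ < ‖s‖ ∧ ‖s‖ < a₂} ∈ 𝓝 s :=
          ((isOpen_lt continuous_const continuous_norm).inter
            (isOpen_lt continuous_norm continuous_const)).mem_nhds ⟨hs1, hs⟩
        have h1 := (hlc i s (by linarith) (by linarith)).1 _ hU
        rw [← hxs] at h1
        filter_upwards [hswap.eventually h1] with z hz hzF hzE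
        obtain ⟨s', hs', hzs⟩ := hz hzF hzE
        exact ⟨i, s', hs', hzs⟩
      · have h1 : ∀ᶠ p : V × ℂ in 𝓝 (x, 0), E p.1 p.2 ≠ 0 :=
          (hFam.holE x hxb 0 h0δ).continuousAt.eventually_ne hE0
        filter_upwards [hswap.eventually h1] with z hz _ hzE
        exact absurd hzE hz
    · have h1 : ∀ᶠ p : V × ℂ in 𝓝 (x, 0), F p.1 p.2 ≠ 0 :=
        (hFam.holF x hxb 0 h0δ).continuousAt.eventually_ne hF0
      filter_upwards [hswap.eventually h1] with z hz hzF _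
      exact absurd hzF hz
  -- E5
  have E5 : ∀ᶠ t in 𝓝 (0 : ℂ), ∀ i j, ∀ q ∈ {s : ℂ | a₁ ≤ ‖s‖ ∧ ‖s‖ ≤ a₂} ×ˢ
      {s : ℂ | a₁ ≤ ‖s‖ ∧ ‖s‖ ≤ a₂}, G i q.1 t = G j q.2 t → i = j ∧ q.1 = q.2 := by
    refine eventually_all.2 fun i => eventually_all.2 fun j => ?_
    refine ((isCompact_ann a₁ a₂).prod
      (isCompact_ann a₁ a₂)).eventually_forall_of_forall_eventually ?_
    rintro ⟨s, s'⟩ ⟨⟨hs1, hs2⟩, ⟨hs3, hs4⟩⟩
    simp only at hs1 hs2 hs3 hs4
    have hs0 : s ≠ 0 := by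
      intro h
      rw [h, norm_zero] at hs1
      linarith
    by_cases h : i = j ∧ s = s'
    · obtain ⟨rfl, rfl⟩ := h
      obtain ⟨U, hU, hUi⟩ := (hlc i s (by linarith) (by linarith)).2
      have k1 : Tendsto (fun z : ℂ × (ℂ × ℂ) => (z.2.1, z.1)) (𝓝 (0, (s, s))) (𝓝 (s, 0)) := by
        have : Continuous fun z : ℂ × (ℂ × ℂ) => (z.2.1, z.1) := by fun_prop
        exact this.tendsto (0, (s, s))
      have k2 : Tendsto (fun z : ℂ × (ℂ × ℂ) => (z.2.2, z.1)) (𝓝 (0, (s, s))) (𝓝 (s, 0)) := by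
        have : Continuous fun z : ℂ × (ℂ × ℂ) => (z.2.2, z.1) := by fun_prop
        exact this.tendsto (0, (s, s))
      filter_upwards [k1.eventually hU, k2.eventually hU] with z hz1 hz2 hz
      refine ⟨rfl, ?_⟩
      have h3 : ((G i z.2.1 z.1, z.1) : V × ℂ) = (G i z.2.2 z.1, z.1) := by rw [hz]
      exact congrArg Prod.fst (hUi hz1 hz2 h3)
    · have hne : γ i s ≠ γ j s' := by
        intro h1
        rcases hB.inj i j s (hs₂mem s (by linarith)) s' (hs₂mem s' (by linarith)) h1 with h2 | h2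
        · exact hs0 h2.1
        · exact h h2
      have k1 : ContinuousAt (fun z : ℂ × (ℂ × ℂ) => G i z.2.1 z.1) (0, (s, s')) :=
        ContinuousAt.comp' (f := fun z : ℂ × (ℂ × ℂ) => (z.1, z.2.1))
          (g := fun z : ℂ × ℂ => G i z.2 z.1) (hGcont i s (by linarith) (by linarith))
          (by fun_prop)
      have k2 : ContinuousAt (fun z : ℂ × (ℂ × ℂ) => G j z.2.2 z.1) (0, (s, s')) :=
        ContinuousAt.comp' (f := fun z : ℂ × (ℂ × ℂ) => (z.1, z.2.2))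
          (g := fun z : ℂ × ℂ => G j z.2 z.1) (hGcont j s' (by linarith) (by linarith))
          (by fun_prop)
      have k4 : G i s 0 - G j s' 0 ≠ 0 := by
        rw [hG0 i s (by linarith) (by linarith), hG0 j s' (by linarith) (by linarith)]
        exact sub_ne_zero.2 hne
      have k3 : ∀ᶠ z : ℂ × (ℂ × ℂ) in 𝓝 (0, (s, s')), G i z.2.1 z.1 - G j z.2.2 z.1 ≠ 0 :=
        (k1.sub k2).eventually_ne k4
      filter_upwards [k3] with z hz hz2
      exact absurd (sub_eq_zero.2 hz2) hz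
  -- E6
  have E6 : ∀ᶠ t in 𝓝 (0 : ℂ), (∀ i, t ∈ ball (0 : ℂ) (δA i)) ∧ t ∈ ball (0 : ℂ) δ₀ ∧
      t ∈ ball (0 : ℂ) δc := by
    have k1 : ∀ᶠ t in 𝓝 (0 : ℂ), t ∈ ball (0 : ℂ) δ₀ := ball_mem_nhds (0 : ℂ) hδ₀
    have k2 : ∀ᶠ t in 𝓝 (0 : ℂ), t ∈ ball (0 : ℂ) δc := ball_mem_nhds (0 : ℂ) hδc
    have k3 : ∀ᶠ t in 𝓝 (0 : ℂ), ∀ i, t ∈ ball (0 : ℂ) (δA i) :=
      eventually_all.2 fun i => ball_mem_nhds (0 : ℂ) (hδA i)
    exact k3.and (k1.and k2)
  obtain ⟨δ, hδ, hall⟩ := Metric.eventually_nhds_iff.1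
    (E1.and (E2.and (E3.and (E4.and (E5.and E6)))))
  have hall' : ∀ t ∈ ball (0 : ℂ) δ, _ := fun t ht => hall (y := t) ht
  -- 11. extension
  have hext : ∀ t ∈ ball (0 : ℂ) δ, ∀ i, ∃ g : ℂ → V, g 0 = 0 ∧ DifferentiableOn ℂ g (ball 0 s₂) ∧
      (∀ s : ℂ, a₁ ≤ ‖s‖ → ‖s‖ < s₂ → g s = G i s t) ∧
      (∀ s ∈ ball (0 : ℂ) s₂, g s ∈ ball (0 : V) ρ₀ ∧ F (g s) t = 0 ∧ E (g s) t = 0 ∧
        s ^ c i • deriv g s = (u i s + P i t * s ^ (c i - 1)) • xi (F · t) (E · t) (g s) ∧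
        (s ≠ 0 → g s ≠ 0)) ∧
      ∀ s : ℂ, ‖s‖ ≤ a₁ → nsq (g s) < ρ ^ 2 := by
    intro t ht i
    obtain ⟨e1, e2, e3, e4, e5, e6, e7, e8⟩ := hall' t ht
    obtain ⟨kt, γt, ct, ut, Rt, hBt, hct, hNt⟩ := hb t e7
    have hcntt := hcnt t e8
    have hH : HalfPlaneS (F · t) (E · t) ρ₀ ρ :=
      halfPlane_of_count H857.petals hρ hρρ₀ (hfa t e7) (hea t e7) (hFam.xi0 t e7) hBt hct
        hcntt.1 (fun ω hω S hS => by
          rw [hNt, ← hN]
          exact hcntt.2 ω hω S hS)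
    refine extend_branch (w := fun s => u i s + P i t * s ^ (c i - 1)) hρ hρρ₀ (hfa t e7)
      (hea t e7) (hFam.xi0 t e7) hH (hc1 i) hs₁0 hs₁a ha₁₂ ha₂s ?_ ?_ ?_ ?_ ?_
    · intro s hs
      rw [mem_ball, dist_zero_right] at hs
      exact (hB.hol_u i s (hs₂mem s hs)).add (analyticAt_const.mul (analyticAt_id.pow _))
    · intro s hs1 hs2
      obtain ⟨g1, g2, g3, g4, g5⟩ := hG i s hs1 hs2 t (e6 i)
      exact ⟨differentiableAt_slice g1, g2, g3, g4, g5⟩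
    · intro s hs
      exact e2 i s (by rw [mem_sphere, dist_zero_right]; exact hs)
    · intro s hs
      exact e3 i s (by rw [mem_sphere, dist_zero_right]; exact hs)
    · intro s₀ h1 h2 s hs
      exact e1 i (s₀, s) ⟨⟨h1, h2⟩, by rw [mem_closedBall, dist_zero_right]; exact hs.trans ha₂₃.le⟩
  choose! g hg0 hgd hgG hgm hgin using hext
  -- the derivative of the extended arcs
  have hgder : ∀ t ∈ ball (0 : ℂ) δ, ∀ i, ∀ s : ℂ, ‖s‖ < a₃ → s ≠ 0 → deriv (g t i) s ≠ 0 := by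
    intro t ht i s hs hs0 h0
    obtain ⟨e1, e2, e3, e4, e5, e6, e7, e8⟩ := hall' t ht
    obtain ⟨g1, g2, g3, g4, g5⟩ := hgm t ht i s (by rw [mem_ball, dist_zero_right]; linarith)
    rw [h0, smul_zero] at g4
    rcases smul_eq_zero.1 g4.symm with h1 | h1
    · have h2 := e1 i ((a₁ : ℂ), s) ⟨⟨by
        simp only [Complex.norm_real, Real.norm_eq_abs, abs_of_pos ha₁0]
        exact le_rfl, by
        simp only [Complex.norm_real, Real.norm_eq_abs, abs_of_pos ha₁0]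
        exact ha₁₂.le⟩, by rw [mem_closedBall, dist_zero_right]; exact hs.le⟩
      simp only at h2
      rw [h1, zero_mul, zero_mul] at h2
      simp at h2
    · exact hFam.xi_ne _ g1 t e7 g2 g3 (g5 hs0) h1
  -- 12. bijectivity
  have hbij : ∀ t ∈ ball (0 : ℂ) δ,
      (∀ x, nsq x ≤ ρ ^ 2 → F x t = 0 → E x t = 0 → x ≠ 0 → ∃ i, ∃ s : ℂ, ‖s‖ < a₂ ∧
        g t i s = x) ∧
      ∀ i j, ∀ s s' : ℂ, ‖s‖ < a₂ → ‖s'‖ < a₂ → g t i s = g t j s' → nsq (g t i s) ≤ ρ ^ 2 →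
        g t i s ≠ 0 → i = j ∧ s = s' := by
    intro t ht
    obtain ⟨e1, e2, e3, e4, e5, e6, e7, e8⟩ := hall' t ht
    refine biject (f := (F · t)) (e := (E · t)) hρ hρρ₀ (hfa t e7) (hea t e7)
      (fun x hx h1 h2 h3 => hFam.xi_ne x hx t e7 h1 h2 h3) (s₂ := a₃) ha₂₃
      (fun i => (hgd t ht i).mono (ball_subset_ball ha₃₂.le)) (hg0 t ht) ?_ ?_ ?_ ?_
    · intro i s hs
      rw [mem_ball, dist_zero_right] at hs
      obtain ⟨g1, g2, g3, g4, g5⟩ := hgm t ht i s (by rw [mem_ball, dist_zero_right]; linarith)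
      exact ⟨g1, g2, g3, fun h => ⟨g5 h, hgder t ht i s hs h⟩⟩
    · intro i s hs
      rw [hgG t ht i s (by rw [hs]; exact ha₁₂.le) (by rw [hs]; exact ha₂s)]
      exact e3 i s (by rw [mem_sphere, dist_zero_right]; exact hs)
    · intro x hx h1 h2
      obtain ⟨i, s, ⟨hs1, hs2⟩, hxs⟩ := e4 x hx h1 h2
      refine ⟨i, s, hs2, ?_⟩
      rw [hgG t ht i s hs1.le (by linarith), hxs]
    · intro i j s s' hs hs' hss hn
      have h1 : a₁ < ‖s‖ := by
        by_contra h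
        push Not at h
        have := hgin t ht i s h
        linarith
      have h2 : a₁ < ‖s'‖ := by
        by_contra h
        push Not at h
        have := hgin t ht j s' h
        rw [← hss] at this
        linarith
      rw [hgG t ht i s h1.le (by linarith), hgG t ht j s' h2.le (by linarith)] at hss
      exact e5 i j (s, s') ⟨⟨h1.le, hs.le⟩, ⟨h2.le, hs'.le⟩⟩ hss
  -- joint analyticity
  have hjoint : ∀ i, ∀ s ∈ ball (0 : ℂ) a₃, ∀ t ∈ ball (0 : ℂ) δ,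
      AnalyticAt ℂ (fun q : ℂ × ℂ => g q.2 i q.1) (s, t) := by
    intro i
    refine joint_cauchy (G := G i) (g := fun s t => g t i s) (r := a₃) (δ := δ) (by linarith)
      ?_ ?_ ?_
    · intro z hz t ht
      obtain ⟨e1, e2, e3, e4, e5, e6, e7, e8⟩ := hall' t ht
      exact (hG i z (by linarith) (by linarith) t (e6 i)).1
    · intro t ht
      exact (hgd t ht i).mono (closedBall_subset_ball ha₃₂)
    · intro t ht z hz
      exact hgG t ht i z (by linarith) (by linarith)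
  set ρf : ℝ := min a₁ δ with hρf
  have hρf0 : 0 < ρf := lt_min ha₁0 hδ
  have hρfa : ∀ s ∈ ball (0 : ℂ) ρf, ‖s‖ < a₁ := by
    intro s hs
    rw [mem_ball, dist_zero_right] at hs
    exact lt_of_lt_of_le hs (min_le_left _ _)
  have hρfδ : ∀ t ∈ ball (0 : ℂ) ρf, t ∈ ball (0 : ℂ) δ := fun t ht =>
    ball_subset_ball (min_le_right _ _) ht
  refine ⟨fun i s t => g t i s, ρf, hρf0, ?_, ?_, ?_, ?_, ?_, ?_⟩
  · intro i s hs t ht
    exact hjoint i s (by rw [mem_ball, dist_zero_right]; linarith [hρfa s hs]) t (hρfδ t ht)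
  · intro i t ht
    exact hg0 t (hρfδ t ht) i
  · intro i s hs t ht
    obtain ⟨g1, g2, g3, g4, g5⟩ := hgm t (hρfδ t ht) i s (by
      rw [mem_ball, dist_zero_right]; linarith [hρfa s hs])
    exact ⟨g2, g3⟩
  · intro i s hs t ht hs0
    exact hgder t (hρfδ t ht) i s (by linarith [hρfa s hs]) hs0
  · intro i j s hs s' hs' t ht hss
    have h1 := hρfa s hs
    have h2 := hρfa s' hs'
    have htδ := hρfδ t ht
    by_cases h0 : g t i s = 0
    · left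
      constructor
      · by_contra h
        obtain ⟨g1, g2, g3, g4, g5⟩ := hgm t htδ i s (by
          rw [mem_ball, dist_zero_right]; linarith)
        exact g5 h h0
      · by_contra h
        obtain ⟨g1, g2, g3, g4, g5⟩ := hgm t htδ j s' (by
          rw [mem_ball, dist_zero_right]; linarith)
        exact g5 h (by rw [← h0]; exact hss.symm)
    · right
      exact (hbij t htδ).2 i j s s' (by linarith) (by linarith) hss (hgin t htδ i s h1.le).le h0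
  · -- covering
    intro ε hε
    have h0δ' : (0 : ℂ) ∈ ball (0 : ℂ) δ := mem_ball_self hδ
    -- lower bound for t = 0
    have hlow : ∀ i, ∃ μ, 0 < μ ∧ ∀ s ∈ {s : ℂ | ε ≤ ‖s‖ ∧ ‖s‖ ≤ a₂}, μ ≤ nsq (g 0 i s) := by
      intro i
      refine (isCompact_ann ε a₂).exists_forall_le' (a := 0) (fun s hs => ?_) fun s hs => ?_
      · exact (continuous_nsq.continuousAt.comp' (((hgd 0 h0δ' i).differentiableAt
          (isOpen_ball.mem_nhds (by
            rw [mem_ball, dist_zero_right]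
            linarith [hs.2]))).continuousAt)).continuousWithinAt
      · obtain ⟨g1, g2, g3, g4, g5⟩ := hgm 0 h0δ' i s (by
          rw [mem_ball, dist_zero_right]; linarith [hs.2])
        refine nsq_pos (g5 ?_)
        intro h
        have := hs.1
        rw [h, norm_zero] at this
        linarith
    choose μ hμ0 hμ using hlow
    have E7 : ∀ᶠ t in 𝓝 (0 : ℂ), ∀ i, ∀ s ∈ {s : ℂ | ε ≤ ‖s‖ ∧ ‖s‖ ≤ a₂},
        μ i / 2 < nsq (g t i s) := by
      refine eventually_all.2 fun i => ?_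
      refine (isCompact_ann ε a₂).eventually_forall_of_forall_eventually fun s hs => ?_
      have k1 : ContinuousAt (fun q : ℂ × ℂ => g q.2 i q.1) (s, 0) :=
        (hjoint i s (by rw [mem_ball, dist_zero_right]; linarith [hs.2]) 0 h0δ').continuousAt
      have k2 : ContinuousAt (fun z : ℂ × ℂ => g z.1 i z.2) (0, s) :=
        ContinuousAt.comp' (f := fun z : ℂ × ℂ => (z.2, z.1))
          (g := fun q : ℂ × ℂ => g q.2 i q.1) k1 continuous_swap.continuousAt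
      have k3 : ContinuousAt (fun z : ℂ × ℂ => nsq (g z.1 i z.2)) (0, s) :=
        continuous_nsq.continuousAt.comp' k2
      refine k3.eventually_const_lt ?_
      have := hμ i s hs
      have := hμ0 i
      simp only
      linarith
    have hnear : ∀ᶠ x in 𝓝 (0 : V), nsq x < ρ ^ 2 ∧ ∀ i, nsq x < μ i / 2 := by
      have h1 : Tendsto nsq (𝓝 0) (𝓝 0) := by
        have := continuous_nsq.tendsto 0
        rwa [nsq_zero] at this
      exact (h1.eventually_lt_const (by positivity)).and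
        (eventually_all.2 fun i => h1.eventually_lt_const (by have := hμ0 i; positivity))
    have E8 : ∀ᶠ t in 𝓝 (0 : ℂ), t ∈ ball (0 : ℂ) δ := ball_mem_nhds (0 : ℂ) hδ
    rw [nhds_prod_eq]
    filter_upwards [hnear.prod_mk (E8.and E7)] with p hp hpF hpE
    obtain ⟨⟨hp1, hp2⟩, hp3, hp4⟩ := hp
    by_cases hx0 : p.1 = 0
    · -- there is at least one branch
      obtain ⟨i, s, hs, -⟩ := (hB.cover 1 one_pos).self_of_nhds (hFam.F0 0 h0δ) (hFam.E0 0 h0δ)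
      refine ⟨i, 0, mem_ball_self hε, ?_⟩
      rw [hx0]
      exact (hg0 p.2 hp3 i).symm
    · obtain ⟨i, s, hs, hsx⟩ := (hbij p.2 hp3).1 p.1 hp1.le hpF hpE hx0
      refine ⟨i, s, ?_, hsx.symm⟩
      rw [mem_ball, dist_zero_right]
      by_contra h
      push Not at h
      have h1 := hp4 i s ⟨h, hs.le⟩
      rw [hsx] at h1
      have h2 := hp2 i
      linarith

/-- The block T1, from the node case. -/
theorem t1 (node : NodeStmt) : T1Stmt := by
  intro F E ρ₀ δ₀ hFam N hb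
  obtain ⟨k, γ, c, u, R, hB, hc, hN⟩ := hb 0 (mem_ball_self hFam.dpos)
  by_cases h : ∃ i, c i = 1
  · exact node F E ρ₀ δ₀ hFam k γ c u R hB h
  · push Not at h
    obtain ⟨γ', ρ, h1⟩ := assemble hFam hb hB (fun i => by
      have h2 := hc i
      have h3 := h i
      omega) hN
    exact ⟨k, γ', ρ, h1⟩

end Vale.Agent.P298.H462
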