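import Mathlib

/-!
Holomorphic ordinary differential equations in complex time: local existence and uniqueness.
-/

namespace Vale.Agent.P298.H462

open Filter Topology Metric Set

variable {E : Type*} [NormedAddCommGroup E] [NormedSpace ℂ E] [CompleteSpace E]

/-- Local existence for holomorphic ordinary differential equations. -/
theorem exists_sol {X : E → E} {q : E} {a K M ε : ℝ} (ha : 0 < a) (hε : 0 < ε) (hK : 0 ≤ K)
    (hM : ∀ x ∈ closedBall q a, ‖X x‖ ≤ M)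
    (hL : ∀ x ∈ closedBall q a, ∀ y ∈ closedBall q a, ‖X x - X y‖ ≤ K * ‖x - y‖)
    (hd : ∀ x ∈ closedBall q a, DifferentiableAt ℂ X x)
    (h1 : M * ε ≤ a) (h2 : K * ε ≤ 1 / 2) :
    ∃ φ : ℂ → E, φ 0 = q ∧ ∀ ζ ∈ ball (0 : ℂ) ε,
      φ ζ ∈ closedBall q a ∧ HasDerivAt φ (X (φ ζ)) ζ := by
  have hM0 : 0 ≤ M := le_trans (norm_nonneg _) (hM q (mem_closedBall_self ha.le))
  have h0 : (0 : ℂ) ∈ ball (0 : ℂ) ε := mem_ball_self hε
  have step : ∀ φ : ℂ → E, (∀ ζ ∈ ball (0 : ℂ) ε, φ ζ ∈ closedBall q a ∧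
      DifferentiableAt ℂ φ ζ) → ∃ ψ : ℂ → E, ψ 0 = q ∧ ∀ ζ ∈ ball (0 : ℂ) ε,
        ψ ζ ∈ closedBall q a ∧ HasDerivAt ψ (X (φ ζ)) ζ := by
    intro φ hφ
    have hdo : DifferentiableOn ℂ (fun ζ => X (φ ζ)) (ball (0 : ℂ) ε) := fun ζ hζ =>
      ((hd _ (hφ ζ hζ).1).comp ζ (hφ ζ hζ).2).differentiableWithinAt
    obtain ⟨ψ, hψ0, hψ⟩ := (hdo.isExactOn_ball).with_val_at 0 q
    refine ⟨ψ, hψ0, fun ζ hζ => ⟨?_, hψ ζ hζ⟩⟩
    have := (convex_ball (0 : ℂ) ε).norm_image_sub_le_of_norm_hasDerivWithin_le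
      (f := ψ) (f' := fun ζ => X (φ ζ)) (C := M)
      (fun z hz => (hψ z hz).hasDerivWithinAt) (fun z hz => hM _ (hφ z hz).1) h0 hζ
    rw [hψ0, sub_zero] at this
    rw [mem_closedBall, dist_eq_norm]
    have h3 : ‖ζ‖ ≤ ε := by
      rw [mem_ball, dist_zero_right] at hζ
      exact hζ.le
    calc ‖ψ ζ - q‖ ≤ M * ‖ζ‖ := this
      _ ≤ M * ε := by gcongr
      _ ≤ a := h1
  choose! st hst0 hst using step
  let φ : ℕ → ℂ → E := fun n => st^[n] (fun _ => q)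
  have hφs : ∀ n, φ (n + 1) = st (φ n) := fun n => Function.iterate_succ_apply' st n _
  have hφ : ∀ n, ∀ ζ ∈ ball (0 : ℂ) ε, φ n ζ ∈ closedBall q a ∧ DifferentiableAt ℂ (φ n) ζ := by
    intro n
    induction n with
    | zero => exact fun ζ _ => ⟨mem_closedBall_self ha.le, differentiableAt_const _⟩
    | succ n ih =>
      intro ζ hζ
      rw [hφs]
      exact ⟨(hst _ ih ζ hζ).1, (hst _ ih ζ hζ).2.differentiableAt⟩
  have hφd : ∀ n, ∀ ζ ∈ ball (0 : ℂ) ε, HasDerivAt (φ (n + 1)) (X (φ n ζ)) ζ := by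
    intro n ζ hζ
    rw [hφs]
    exact (hst _ (hφ n) ζ hζ).2
  have hφ0 : ∀ n, φ n 0 = q := by
    intro n
    cases n with
    | zero => rfl
    | succ n => rw [hφs]; exact hst0 _ (hφ n)
  have hb : ∀ n, ∀ ζ ∈ ball (0 : ℂ) ε, ‖φ (n + 1) ζ - φ n ζ‖ ≤ a * (1 / 2) ^ n := by
    intro n
    induction n with
    | zero =>
      intro ζ hζ
      have := (hφ 1 ζ hζ).1
      rw [mem_closedBall, dist_eq_norm] at this
      have h00 : φ 0 ζ = q := rfl
      rw [h00, zero_add, pow_zero, mul_one]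
      exact this
    | succ n ih =>
      intro ζ hζ
      have := (convex_ball (0 : ℂ) ε).norm_image_sub_le_of_norm_hasDerivWithin_le
        (f := fun z => φ (n + 1 + 1) z - φ (n + 1) z)
        (f' := fun ζ => X (φ (n + 1) ζ) - X (φ n ζ)) (C := K * (a * (1 / 2) ^ n))
        (fun z hz => ((hφd (n + 1) z hz).sub (hφd n z hz)).hasDerivWithinAt)
        (fun z hz => by
          refine (hL _ (hφ (n + 1) z hz).1 _ (hφ n z hz).1).trans ?_
          gcongr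
          exact ih z hz) h0 hζ
      simp only [hφ0, sub_self, sub_zero] at this
      have h3 : ‖ζ‖ ≤ ε := by
        rw [mem_ball, dist_zero_right] at hζ
        exact hζ.le
      calc _ ≤ K * (a * (1 / 2) ^ n) * ‖ζ‖ := this
        _ ≤ K * (a * (1 / 2) ^ n) * ε := by gcongr
        _ = (K * ε) * (a * (1 / 2) ^ n) := by ring
        _ ≤ 1 / 2 * (a * (1 / 2) ^ n) := by gcongr
        _ = a * (1 / 2) ^ (n + 1) := by ring
  have hlim : ∀ ζ ∈ ball (0 : ℂ) ε, ∃ y, Tendsto (fun n => φ n ζ) atTop (𝓝 y) := by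
    intro ζ hζ
    refine cauchySeq_tendsto_of_complete ?_
    refine cauchySeq_of_le_geometric (1 / 2) a (by norm_num) fun n => ?_
    rw [dist_comm, dist_eq_norm]
    exact hb n ζ hζ
  choose! g hg using hlim
  have hgq : g 0 = q := by
    refine tendsto_nhds_unique (hg 0 h0) ?_
    simp only [hφ0]
    exact tendsto_const_nhds
  have hgd : ∀ n, ∀ ζ ∈ ball (0 : ℂ) ε, dist (φ n ζ) (g ζ) ≤ a * (1 / 2) ^ n / (1 - 1 / 2) := by
    intro n ζ hζ
    refine dist_le_of_le_geometric_of_tendsto (1 / 2) a (by norm_num) (fun n => ?_) (hg ζ hζ) n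
    rw [dist_comm, dist_eq_norm]
    exact hb n ζ hζ
  have hgm : ∀ ζ ∈ ball (0 : ℂ) ε, g ζ ∈ closedBall q a := fun ζ hζ =>
    isClosed_closedBall.mem_of_tendsto (hg ζ hζ) (Eventually.of_forall fun n => (hφ n ζ hζ).1)
  have hunif : TendstoUniformlyOn (fun n ζ => X (φ n ζ)) (fun ζ => X (g ζ)) atTop
      (ball (0 : ℂ) ε) := by
    rw [Metric.tendstoUniformlyOn_iff]
    intro η hη
    have h4 : Tendsto (fun n : ℕ => K * (a * (1 / 2) ^ n / (1 - 1 / 2))) atTop (𝓝 0) := by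
      have : Tendsto (fun n : ℕ => (1 / 2 : ℝ) ^ n) atTop (𝓝 0) :=
        tendsto_pow_atTop_nhds_zero_of_lt_one (by norm_num) (by norm_num)
      have := ((this.const_mul a).div_const (1 - 1 / 2)).const_mul K
      simpa using this
    filter_upwards [h4.eventually_lt_const hη] with n hn ζ hζ
    rw [dist_comm, dist_eq_norm]
    refine lt_of_le_of_lt ?_ hn
    refine (hL _ (hφ n ζ hζ).1 _ (hgm ζ hζ)).trans ?_
    gcongr
    rw [← dist_eq_norm]
    exact hgd n ζ hζ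
  refine ⟨g, hgq, fun ζ hζ => ⟨hgm ζ hζ, ?_⟩⟩
  refine hasDerivAt_of_tendstoUniformlyOn (f := fun n => φ (n + 1))
    (f' := fun n ζ => X (φ n ζ)) (g' := fun ζ => X (g ζ)) isOpen_ball hunif
    (Eventually.of_forall fun n z hz => hφd n z hz) (fun z hz => ?_) hζ
  exact (tendsto_add_atTop_iff_nat 1).2 (hg z hz)

/-- Uniqueness for holomorphic ordinary differential equations. -/
theorem sol_unique {X : E → E} {D : Set E} (hX : ∀ x ∈ D, AnalyticAt ℂ X x) {U : Set ℂ}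
    (hU : IsOpen U) (hc : IsPreconnected U) {φ ψ : ℂ → E}
    (hφ : ∀ w ∈ U, φ w ∈ D ∧ HasDerivAt φ (X (φ w)) w)
    (hψ : ∀ w ∈ U, ψ w ∈ D ∧ HasDerivAt ψ (X (ψ w)) w) {w₀ : ℂ} (hw₀ : w₀ ∈ U)
    (h : φ w₀ = ψ w₀) : EqOn φ ψ U := by
  have hφa : AnalyticOnNhd ℂ φ U := DifferentiableOn.analyticOnNhd
    (fun w hw => (hφ w hw).2.differentiableAt.differentiableWithinAt) hU
  have hψa : AnalyticOnNhd ℂ ψ U := DifferentiableOn.analyticOnNhd
    (fun w hw => (hψ w hw).2.differentiableAt.differentiableWithinAt) hU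
  refine hφa.eqOn_of_preconnected_of_frequently_eq hψa hc hw₀ ?_
  -- the restriction to the real direction
  obtain ⟨K, s, hs, hK⟩ := ((hX _ (hφ w₀ hw₀).1).contDiffAt (n := 1)).exists_lipschitzOnWith
  let _ : NormedSpace ℝ E := NormedSpace.restrictScalars ℝ ℂ E
  have hline : ∀ t : ℝ, HasDerivAt (fun t : ℝ => w₀ + (t : ℂ)) 1 t := fun t =>
    (Complex.ofRealCLM.hasDerivAt (x := t)).const_add w₀
  have hcl : Tendsto (fun t : ℝ => w₀ + (t : ℂ)) (𝓝 0) (𝓝 w₀) := by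
    have : Continuous (fun t : ℝ => w₀ + (t : ℂ)) := by fun_prop
    simpa using this.tendsto 0
  have key : ∀ χ : ℂ → E, (∀ w ∈ U, χ w ∈ D ∧ HasDerivAt χ (X (χ w)) w) → χ w₀ = φ w₀ →
      ∀ᶠ t : ℝ in 𝓝 0, HasDerivAt (fun t : ℝ => χ (w₀ + t)) (X (χ (w₀ + t))) t ∧
        χ (w₀ + t) ∈ s := by
    intro χ hχ hχ0
    have h1 : ∀ᶠ t : ℝ in 𝓝 0, w₀ + (t : ℂ) ∈ U := hcl.eventually (hU.mem_nhds hw₀)
    have h2 : ∀ᶠ t : ℝ in 𝓝 0, χ (w₀ + (t : ℂ)) ∈ s := by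
      have h3 := (hχ w₀ hw₀).2.continuousAt
      rw [ContinuousAt, hχ0] at h3
      exact (h3.comp hcl).eventually hs
    filter_upwards [h1, h2] with t ht1 ht2
    refine ⟨?_, ht2⟩
    have h4 := (hχ _ ht1).2.scomp t (hline t)
    rw [one_smul] at h4
    exact h4
  have h5 := ODE_solution_unique_of_eventually (v := fun _ => X) (s := fun _ => s) (K := K)
    (t₀ := (0 : ℝ)) (f := fun t : ℝ => φ (w₀ + t)) (g := fun t : ℝ => ψ (w₀ + t))
    (Eventually.of_forall fun _ => hK) (key φ hφ rfl) (key ψ hψ h.symm) (by simpa using h)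
  have h6 : ∃ᶠ t : ℝ in 𝓝[≠] 0, φ (w₀ + t) = ψ (w₀ + t) :=
    (h5.filter_mono nhdsWithin_le_nhds).frequently
  have h7 : Tendsto (fun t : ℝ => w₀ + (t : ℂ)) (𝓝[≠] 0) (𝓝[≠] w₀) := by
    refine tendsto_nhdsWithin_iff.2 ⟨hcl.mono_left nhdsWithin_le_nhds, ?_⟩
    filter_upwards [self_mem_nhdsWithin] with t ht
    simpa using ht
  exact h7.frequently h6

end Vale.Agent.P298.H462
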