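import Vale.Agent.P298.H462.Biject
import Vale.Agent.P268.Hol

/-!
Preparations for the final step: the sign of the velocity along a branch, and joint analyticity.
-/

namespace Vale.Agent.P298.H462

open Filter Topology Metric Set

/-- The sign of the velocity along a branch. -/
theorem pos0 {f e : V → ℂ} {γ : ℂ → V} {c : ℕ} {u : ℂ → ℂ} (hγ : AnalyticAt ℂ γ 0)
    (hγ0 : γ 0 = 0) (hne : ∃ᶠ s in 𝓝 (0 : ℂ), γ s ≠ 0) (hu : AnalyticAt ℂ u 0) (hu0 : u 0 ≠ 0)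
    (hc : 1 ≤ c) (hode : ∀ᶠ s in 𝓝 (0 : ℂ), s ^ c • deriv γ s = u s • xi f e (γ s)) :
    ∃ r > 0, ∀ s₀ : ℂ, s₀ ≠ 0 → ‖s₀‖ < r → ∀ s : ℂ, ‖s‖ < r →
      0 < (u s * (s₀ ^ (c - 1))⁻¹ * lam f e (γ s₀)).re := by
  obtain ⟨n, rfl⟩ : ∃ n, c = n + 1 := ⟨c - 1, by omega⟩
  rw [Nat.add_sub_cancel]
  obtain ⟨m, a, ha, ha0, hγa⟩ := hγ.exists_eventuallyEq_pow_smul_nonzero_iff.2 (by
    intro h
    exact hne (h.mono fun s hs => not_not.2 hs))
  simp only [sub_zero] at hγa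
  have hm : m ≠ 0 := by
    rintro rfl
    have := hγa.self_of_nhds
    rw [pow_zero, one_smul, hγ0] at this
    exact ha0 this.symm
  obtain ⟨p, rfl⟩ : ∃ p, m = p + 1 := ⟨m - 1, by omega⟩
  set B : ℂ → ℂ := fun s => ∑ k, (((p : ℂ) + 1) * a s k + s * deriv a s k) *
    (starRingEnd ℂ) (a s k) with hB
  have hBc : ContinuousAt B 0 := by
    have h1 : ∀ k, ContinuousAt (fun s => a s k) 0 := fun k =>
      (continuous_apply k).continuousAt.comp' ha.continuousAt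
    have h2 : ∀ k, ContinuousAt (fun s => deriv a s k) 0 := fun k =>
      (continuous_apply k).continuousAt.comp' ha.deriv.continuousAt
    have h3 : ∀ k, ContinuousAt (fun s => (((p : ℂ) + 1) * a s k + s * deriv a s k) *
        (starRingEnd ℂ) (a s k)) 0 := fun k =>
      ((continuousAt_const.mul (h1 k)).add (continuousAt_id.mul (h2 k))).mul
        (Complex.continuous_conj.continuousAt.comp' (h1 k))
    exact tendsto_finsetSum _ fun k _ => h3 k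
  have hB0 : (B 0).re = ((p : ℝ) + 1) * nsq (a 0) := by
    rw [hB]
    simp only [zero_mul, add_zero]
    rw [Complex.re_sum, nsq, Finset.mul_sum]
    refine Finset.sum_congr rfl fun k _ => ?_
    rw [mul_assoc, Complex.mul_conj, Complex.normSq_eq_norm_sq]
    have : ((p : ℂ) + 1) * ((‖a 0 k‖ ^ 2 : ℝ) : ℂ) = ((((p : ℝ) + 1) * ‖a 0 k‖ ^ 2 : ℝ) : ℂ) := by
      push_cast
      ring
    rw [this, Complex.ofReal_re]
  have hB0pos : 0 < (B 0).re := by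
    rw [hB0]
    have := nsq_pos ha0
    positivity
  -- continuity of the main factor
  have hcont : ContinuousAt (fun q : ℂ × ℂ => (u q.1 * (u q.2)⁻¹ * B q.2).re) (0, 0) := by
    have h1 : ContinuousAt (fun q : ℂ × ℂ => u q.1) (0, 0) :=
      ContinuousAt.comp' (f := fun q : ℂ × ℂ => q.1) (g := u) hu.continuousAt continuousAt_fst
    have h2 : ContinuousAt (fun q : ℂ × ℂ => u q.2) (0, 0) :=
      ContinuousAt.comp' (f := fun q : ℂ × ℂ => q.2) (g := u) hu.continuousAt continuousAt_snd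
    have h3 : ContinuousAt (fun q : ℂ × ℂ => B q.2) (0, 0) :=
      ContinuousAt.comp' (f := fun q : ℂ × ℂ => q.2) (g := B) hBc continuousAt_snd
    exact Complex.continuous_re.continuousAt.comp' ((h1.mul (h2.inv₀ hu0)).mul h3)
  have hval : (u 0 * (u 0)⁻¹ * B 0).re = (B 0).re := by
    rw [mul_inv_cancel₀ hu0, one_mul]
  have hev : ∀ᶠ q : ℂ × ℂ in 𝓝 (0, 0), 0 < (u q.1 * (u q.2)⁻¹ * B q.2).re := by
    refine hcont.eventually_const_lt ?_
    simp only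
    rw [hval]
    exact hB0pos
  obtain ⟨r₁, hr₁, h1⟩ := Metric.eventually_nhds_iff.1 hev
  have hder : ∀ᶠ s in 𝓝 (0 : ℂ), deriv γ s = (((p : ℂ) + 1) * s ^ p) • a s +
      s ^ (p + 1) • deriv a s := by
    filter_upwards [hγa.eventually_nhds, ha.eventually_analyticAt] with s hs has
    have h2 : deriv γ s = deriv (fun z : ℂ => z ^ (p + 1) • a z) s :=
      Filter.EventuallyEq.deriv_eq hs
    rw [h2]
    have h3 := (hasDerivAt_pow (p + 1) s).smul has.differentiableAt.hasDerivAt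
    have h4 : deriv (fun z : ℂ => z ^ (p + 1) • a z) s = s ^ (p + 1) • deriv a s +
      (((p + 1 : ℕ) : ℂ) * s ^ (p + 1 - 1)) • a s := h3.deriv
    rw [h4, Nat.add_sub_cancel, add_comm]
    push_cast
    rfl
  obtain ⟨r₂, hr₂, h2⟩ := Metric.eventually_nhds_iff.1
    (((hγa.and hder).and hode).and (hu.continuousAt.eventually_ne hu0))
  refine ⟨min r₁ r₂, lt_min hr₁ hr₂, fun s₀ hs₀ hs₀r s hsr => ?_⟩
  obtain ⟨⟨⟨e1, e2⟩, e3⟩, e4⟩ := h2 (y := s₀) (by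
    rw [dist_zero_right]; exact lt_of_lt_of_le hs₀r (min_le_right _ _))
  have h3 := h1 (y := (s, s₀)) (by
    rw [Prod.dist_eq, dist_zero_right, dist_zero_right]
    exact max_lt (lt_of_lt_of_le hsr (min_le_left _ _)) (lt_of_lt_of_le hs₀r (min_le_left _ _)))
  simp only at h3
  have hxi : ∀ k, xi f e (γ s₀) k = (u s₀)⁻¹ * (s₀ ^ (n + 1) *
      (s₀ ^ p * (((p : ℂ) + 1) * a s₀ k + s₀ * deriv a s₀ k))) := by
    intro k
    have h4 := congrFun e3 k
    rw [e2] at h4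
    simp only [Pi.smul_apply, Pi.add_apply, smul_eq_mul] at h4
    have h5 : xi f e (γ s₀) k = (u s₀)⁻¹ * (u s₀ * xi f e (γ s₀) k) := by
      rw [← mul_assoc, inv_mul_cancel₀ e4, one_mul]
    rw [h5, ← h4]
    ring
  have hlam : lam f e (γ s₀) = (u s₀)⁻¹ * s₀ ^ (n + 1) * s₀ ^ p * (starRingEnd ℂ) (s₀ ^ (p + 1)) *
      B s₀ := by
    rw [lam, hB]
    simp only
    rw [Finset.mul_sum]
    refine Finset.sum_congr rfl fun k _ => ?_
    have h4 : γ s₀ k = s₀ ^ (p + 1) * a s₀ k := by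
      rw [e1]
      rfl
    rw [hxi k, h4, map_mul]
    ring
  have hfac : u s * (s₀ ^ n)⁻¹ * lam f e (γ s₀) =
      (((‖s₀‖ ^ 2) ^ (p + 1) : ℝ) : ℂ) * (u s * (u s₀)⁻¹ * B s₀) := by
    rw [hlam]
    have h5 : (s₀ ^ n)⁻¹ * s₀ ^ (n + 1) = s₀ := by
      rw [pow_succ, ← mul_assoc, inv_mul_cancel₀ (pow_ne_zero n hs₀), one_mul]
    have h6 : s₀ * s₀ ^ p * (starRingEnd ℂ) (s₀ ^ (p + 1)) = (((‖s₀‖ ^ 2) ^ (p + 1) : ℝ) : ℂ) := by
      rw [← pow_succ', map_pow, ← mul_pow, Complex.mul_conj, Complex.normSq_eq_norm_sq]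
      push_cast
      rfl
    calc u s * (s₀ ^ n)⁻¹ * ((u s₀)⁻¹ * s₀ ^ (n + 1) * s₀ ^ p * (starRingEnd ℂ) (s₀ ^ (p + 1)) *
          B s₀)
        = ((s₀ ^ n)⁻¹ * s₀ ^ (n + 1)) * s₀ ^ p * (starRingEnd ℂ) (s₀ ^ (p + 1)) *
          (u s * (u s₀)⁻¹ * B s₀) := by ring
      _ = _ := by rw [h5, h6]
  rw [hfac, Complex.re_ofReal_mul]
  have : 0 < ‖s₀‖ := norm_pos_iff.2 hs₀
  positivity

/-- Joint analyticity of the extension, by Cauchy's formula. -/
theorem joint_cauchy {G g : ℂ → ℂ → V} {r δ : ℝ} (hr : 0 < r)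
    (hG : ∀ z : ℂ, ‖z‖ = r → ∀ t ∈ ball (0 : ℂ) δ, AnalyticAt ℂ (fun q : ℂ × ℂ => G q.1 q.2) (z, t))
    (hg : ∀ t ∈ ball (0 : ℂ) δ, DifferentiableOn ℂ (g · t) (closedBall 0 r))
    (hgG : ∀ t ∈ ball (0 : ℂ) δ, ∀ z : ℂ, ‖z‖ = r → g z t = G z t) :
    ∀ s ∈ ball (0 : ℂ) r, ∀ t ∈ ball (0 : ℂ) δ,
      AnalyticAt ℂ (fun q : ℂ × ℂ => g q.1 q.2) (s, t) := by
  have hval : ∀ s ∈ ball (0 : ℂ) r, ∀ t ∈ ball (0 : ℂ) δ,
      g s t = (2 * Real.pi * Complex.I : ℂ)⁻¹ • ∮ z in C(0, r), (z - s)⁻¹ • G z t := by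
    intro s hs t ht
    have h1 := (hg t ht).circleIntegral_sub_inv_smul hs
    have h2 : (∮ z in C(0, r), (z - s)⁻¹ • G z t) = ∮ z in C(0, r), (z - s)⁻¹ • g z t := by
      refine circleIntegral.integral_congr hr.le fun z hz => ?_
      rw [mem_sphere, dist_zero_right] at hz
      rw [hgG t ht z hz]
    rw [h2, h1, inv_smul_smul₀ Complex.two_pi_I_ne_zero]
  have hdiff : DifferentiableOn ℂ (fun q : ℂ × ℂ => g q.1 q.2)
      (ball (0 : ℂ) r ×ˢ ball (0 : ℂ) δ) := by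
    rintro ⟨s₀, t₀⟩ ⟨hs₀, ht₀⟩
    simp only at hs₀ ht₀
    apply DifferentiableAt.differentiableWithinAt
    set O : Set (ℂ × ℂ) := {q | AnalyticAt ℂ (fun q : ℂ × ℂ => G q.1 q.2) q} with hO
    have hOo : IsOpen O := isOpen_analyticAt ℂ _
    have hsub : sphere (0 : ℂ) r ×ˢ ({t₀} : Set ℂ) ⊆ O := by
      rintro ⟨z, t⟩ ⟨hz, ht⟩
      simp only [mem_singleton_iff] at ht
      subst ht
      rw [mem_sphere, dist_zero_right] at hz
      exact hG z hz t ht₀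
    obtain ⟨W, U, hW, hU, hWs, hUt, hWU⟩ :=
      generalized_tube_lemma (isCompact_sphere (0 : ℂ) r) isCompact_singleton hOo hsub
    have ht₀U : t₀ ∈ U := hUt (mem_singleton _)
    obtain ⟨d, hd, hdb⟩ : ∃ d > 0, dist s₀ 0 + d < r := by
      have : dist s₀ 0 < r := hs₀
      exact ⟨(r - dist s₀ 0) / 2, by linarith, by linarith⟩
    have hopen : IsOpen (ball s₀ (d / 2) ×ˢ U) := isOpen_ball.prod hU
    have hWopen : IsOpen (W ∩ (closedBall 0 (dist s₀ 0 + d / 2))ᶜ) :=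
      hW.inter isClosed_closedBall.isOpen_compl
    have key := P268.differentiableOn_circleIntegral (E := ℂ × ℂ) (F := V)
      (G := fun q : (ℂ × ℂ) × ℂ => (q.2 - q.1.1)⁻¹ • G q.2 q.1.2)
      (U := ball s₀ (d / 2) ×ˢ U) (W := W ∩ (closedBall 0 (dist s₀ 0 + d / 2))ᶜ)
      (c := 0) (R := r) hr.le hopen hWopen ?_ ?_
    · have h0 : ((s₀, t₀) : ℂ × ℂ) ∈ ball s₀ (d / 2) ×ˢ U := ⟨mem_ball_self (half_pos hd), ht₀U⟩
      have h1 := key.differentiableAt (hopen.mem_nhds h0)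
      have h2 := h1.const_smul ((2 * Real.pi * Complex.I : ℂ)⁻¹)
      refine h2.congr_of_eventuallyEq ?_
      filter_upwards [(isOpen_ball.prod isOpen_ball).mem_nhds
        (show ((s₀, t₀) : ℂ × ℂ) ∈ ball (0 : ℂ) r ×ˢ ball (0 : ℂ) δ from ⟨hs₀, ht₀⟩)] with q hq
      exact hval q.1 hq.1 q.2 hq.2
    · intro z hz
      refine ⟨hWs hz, ?_⟩
      simp only [mem_compl_iff, mem_closedBall, not_le]
      rw [mem_sphere] at hz
      linarith
    · refine DifferentiableOn.smul (c := fun q : (ℂ × ℂ) × ℂ => (q.2 - q.1.1)⁻¹)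
        (f := fun q : (ℂ × ℂ) × ℂ => G q.2 q.1.2) ?_ ?_
      · refine DifferentiableOn.inv (h := fun q : (ℂ × ℂ) × ℂ => q.2 - q.1.1) ?_ ?_
        · fun_prop
        · rintro ⟨⟨s, t⟩, z⟩ ⟨⟨hs, ht⟩, hz⟩ h0
          simp only [mem_compl_iff, mem_closedBall, not_le, mem_inter_iff, mem_ball] at hs ht hz h0
          have hzs : z = s := sub_eq_zero.1 h0
          subst hzs
          have h2 := hz.2
          have h3 : dist z 0 ≤ dist z s₀ + dist s₀ 0 := dist_triangle _ _ _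
          linarith
      · have hGO : DifferentiableOn ℂ (fun p : ℂ × ℂ => G p.1 p.2) O := fun q hq =>
          (show AnalyticAt ℂ (fun q : ℂ × ℂ => G q.1 q.2) q from hq).differentiableAt.differentiableWithinAt
        refine DifferentiableOn.comp (g := fun p : ℂ × ℂ => G p.1 p.2) (t := O) hGO
          (f := fun q : (ℂ × ℂ) × ℂ => (q.2, q.1.2)) (by fun_prop) ?_
        rintro ⟨⟨s, t⟩, z⟩ ⟨⟨hs, ht⟩, hz⟩
        exact hWU ⟨hz.1, ht⟩
  intro s hs t ht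
  exact P268.analyticAt_of_differentiableOn (isOpen_ball.prod isOpen_ball) hdiff ⟨hs, ht⟩

end Vale.Agent.P298.H462
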