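import Vale.Agent.P298.H462.Main
import Vale.Agent.P298.H652.Node

/-!
# P298 (helper462), block T1: the complete statement

`T1Stmt` (see `Defs.lean`): constant branch data of the polar curve imply a family of
parametrized curves, hence a holomorphic trivialization.
-/

namespace Vale.Agent.P298.H462

/-- **T1**, with all rows discharged. -/
theorem t1_full : T1Stmt := t1 H652.nodeStmt

end Vale.Agent.P298.H462
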